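import Vale.Agent.P207.N4.H709.RelR

/-!
# P207: the clock of the unstable derivative under relative pinching

`clock_rates` : under relative pinching with `ρ < 2` there is a continuous function `c > 0`,
invariant under the group, the rotations and the flip, such that the unstable derivative grows at
least like `exp (a ∫ c)` and at most like `exp (b ∫ c)` with `b < 2 a`.
-/

open Module Set Filter Topology Metric MeasureTheory
open scoped ContDiff

noncomputable section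

namespace Vale.Agent.P207.N4.H709

section Avg

variable {X : Type*} [TopologicalSpace X] {φ : ℝ → X → X}

/-- superadditive functions along a flow are at least the average of the value at time `S` -/
theorem avg_le (φc : Continuous fun p : ℝ × X => φ p.1 p.2) {F : ℝ → X → ℝ} {S b : ℝ}
    (hS : 0 < S) (hF : ∀ s t x, 0 ≤ s → 0 ≤ t → F s (φ t x) + F t x ≤ F (s + t) x)
    (h0 : ∀ t x, 0 ≤ t → 0 ≤ F t x) (h1 : ∀ t x, 0 ≤ t → F t x ≤ b * t)
    (hc : Continuous (F S)) {t : ℝ} (ht : 0 ≤ t) (x : X) :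
    ∫ s in (0 : ℝ)..t, F S (φ s x) / S ≤ F t x + 2 * b * S := by
  have hx : Continuous fun s => φ s x := φc.comp (Continuous.prodMk_left x)
  set g : ℝ → ℝ := fun s => F S (φ s x) with hg
  have hgc : Continuous g := hc.comp hx
  have hgb : ∀ s, g s ≤ b * S := fun s => h1 S _ hS.le
  have hb : 0 ≤ b := by
    have h2 := (h0 S x hS.le).trans (h1 S x hS.le)
    by_contra hb
    push Not at hb
    have := mul_neg_of_neg_of_pos hb hS
    linarith
  have hgi : ∀ u v, IntervalIntegrable g volume u v := fun u v => hgc.intervalIntegrable u v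
  have hup : ∀ u v, u ≤ v → ∫ s in u..v, g s ≤ b * S * (v - u) := by
    intro u v huv
    calc ∫ s in u..v, g s ≤ ∫ _s in u..v, b * S :=
          intervalIntegral.integral_mono_on huv (hgi u v) intervalIntegrable_const
            fun s _ => hgb s
      _ = b * S * (v - u) := by rw [intervalIntegral.integral_const, smul_eq_mul, mul_comm]
  have hdiv : ∫ s in (0 : ℝ)..t, F S (φ s x) / S = (∫ s in (0 : ℝ)..t, g s) / S :=
    intervalIntegral.integral_div _ _
  rw [hdiv, div_le_iff₀ hS]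
  rcases lt_or_ge t S with hlt | hge
  · have h2 := hup 0 t ht
    have h3 := h0 t x ht
    have h4 : b * S * (t - 0) ≤ b * S * S := mul_le_mul_of_nonneg_left (by linarith) (by positivity)
    nlinarith [mul_nonneg h3 hS.le, mul_nonneg hb (mul_nonneg hS.le hS.le)]
  · have hsum : ∀ k : ℕ, ∀ r, 0 ≤ r → ∑ j ∈ Finset.range k, g (r + j * S) ≤ F (r + k * S) x := by
      intro k
      induction k with
      | zero =>
        intro r hr
        simpa using h0 r x hr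
      | succ k ih =>
        intro r hr
        rw [Finset.sum_range_succ]
        have h2 := hF S (r + k * S) x hS.le (by positivity)
        have h3 : S + (r + k * S) = r + ((k + 1 : ℕ) : ℝ) * S := by push_cast; ring
        rw [h3] at h2
        have h4 := ih r hr
        have h5 : g (r + k * S) = F S (φ (r + k * S) x) := rfl
        rw [h5]
        linarith
    obtain ⟨N, hN1, hN2⟩ : ∃ N : ℕ, ((N : ℝ) + 1) * S ≤ t ∧ t - N * S ≤ 2 * S := by
      have h2 : 1 ≤ t / S := (one_le_div hS).2 hge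
      have h3 : 1 ≤ ⌊t / S⌋₊ := Nat.one_le_floor_iff _ |>.2 h2
      refine ⟨⌊t / S⌋₊ - 1, ?_, ?_⟩
      · have h4 : (((⌊t / S⌋₊ - 1 : ℕ) : ℝ) + 1) = (⌊t / S⌋₊ : ℝ) := by
          rw [Nat.cast_sub h3]; push_cast; ring
        rw [h4, ← le_div_iff₀ hS]
        exact Nat.floor_le (by positivity)
      · have h4 : ((⌊t / S⌋₊ - 1 : ℕ) : ℝ) = (⌊t / S⌋₊ : ℝ) - 1 := by
          rw [Nat.cast_sub h3]; push_cast; ring
        rw [h4]
        have h5 := (Nat.lt_floor_add_one (t / S)).le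
        rw [div_le_iff₀ hS] at h5
        linarith
    have hr : ∀ r ∈ Icc (0 : ℝ) S, ∑ j ∈ Finset.range N, g (r + j * S) ≤ F t x := by
      intro r hr
      refine (hsum N r hr.1).trans ?_
      have h2 : 0 ≤ t - (r + N * S) := by linarith [hr.2]
      have h3 := hF (t - (r + N * S)) (r + N * S) x h2 (by have := hr.1; positivity)
      rw [sub_add_cancel] at h3
      have h4 := h0 (t - (r + N * S)) (φ (r + N * S) x) h2
      linarith
    have hcj : ∀ j : ℕ, Continuous fun r : ℝ => g (r + j * S) := fun j =>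
      hgc.comp (continuous_id.add continuous_const)
    have hij : ∀ j : ℕ, IntervalIntegrable (fun r : ℝ => g (r + j * S)) volume 0 S := fun j =>
      (hcj j).intervalIntegrable _ _
    have hsi : IntervalIntegrable (fun r : ℝ => ∑ j ∈ Finset.range N, g (r + j * S)) volume 0 S :=
      (continuous_finsetSum _ fun j _ => hcj j).intervalIntegrable _ _
    have h2 : ∫ r in (0 : ℝ)..S, ∑ j ∈ Finset.range N, g (r + j * S) ≤ F t x * S := by
      calc _ ≤ ∫ _r in (0 : ℝ)..S, F t x :=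
            intervalIntegral.integral_mono_on hS.le hsi intervalIntegrable_const hr
        _ = F t x * S := by
          rw [intervalIntegral.integral_const, smul_eq_mul, sub_zero, mul_comm]
    have h3 : ∫ r in (0 : ℝ)..S, ∑ j ∈ Finset.range N, g (r + j * S) =
        ∫ s in (0 : ℝ)..(N * S), g s := by
      rw [intervalIntegral.integral_finsetSum fun j _ => hij j]
      have h4 : ∀ j : ℕ, ∫ r in (0 : ℝ)..S, g (r + j * S) =
          ∫ s in ((j : ℝ) * S)..(((j + 1 : ℕ) : ℝ) * S), g s := by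
        intro j
        rw [intervalIntegral.integral_comp_add_right]
        congr 1 <;> push_cast <;> ring
      simp only [h4]
      have h5 := intervalIntegral.sum_integral_adjacent_intervals (μ := volume) (f := g)
        (a := fun j : ℕ => (j : ℝ) * S) (n := N) fun k _ => hgi _ _
      simpa using h5
    have h4 : ∫ s in (0 : ℝ)..t, g s =
        (∫ s in (0 : ℝ)..(N * S), g s) + ∫ s in (N * S)..t, g s :=
      (intervalIntegral.integral_add_adjacent_intervals (hgi _ _) (hgi _ _)).symm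
    have h5 := hup (N * S) t (by linarith)
    have h6 : b * S * (t - N * S) ≤ b * S * (2 * S) :=
      mul_le_mul_of_nonneg_left hN2 (by positivity)
    rw [h4, ← h3]
    linarith

end Avg

open Vale.Agent.P207.N3 Vale.Agent.P207.N3.H646
open Vale.Agent.P207.N4 Vale.Agent.P207.N4.H646

variable [Dim]

variable {Γ X B : Type} [Group Γ] [MetricSpace X] [ProperSpace X] [MulAction Γ X]
  [IsIsometricSMul Γ X] [TopologicalSpace B] [CompactSpace B] [T2Space B] [MulAction Γ B]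
  [ContinuousConstSMul Γ B]

variable {L : Leaf Γ X B}

/-! ### The duality -/

/-- the sum of the unstable tensors of a frame and its flip -/
def Sm (M : Metr L) (x : X) : E2 →L[ℝ] E2 := M.U x + M.U (L.flip x)

theorem hasDerivAt_Sm (M : Metr L) (x : X) (s : ℝ) : HasDerivAt (fun s => Sm M (L.φ s x))
    (M.U (L.flip (L.φ s x)) ∘L M.U (L.flip (L.φ s x)) - M.U (L.φ s x) ∘L M.U (L.φ s x)) s := by
  have h1 := M.riccati x s
  have h2 := (M.riccati (L.flip x) (-s)).scomp s (hasDerivAt_neg s)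
  have h3 : ((fun s => M.U (L.φ s (L.flip x))) ∘ fun s : ℝ => -s) =
      fun s => M.U (L.flip (L.φ s x)) := by
    funext r
    simp only [Function.comp, L.flip_φ]
  rw [h3] at h2
  refine (h1.add h2).congr_deriv ?_
  rw [← L.flip_φ, M.K_flip]
  simp only [neg_smul, one_smul]
  abel

/-- **the duality** between the unstable derivatives of an orbit and its flip -/
theorem dual (M : Metr L) (x : X) (t : ℝ) (v w : E2) :
    inner ℝ (H77.Dt L t x v) (Sm M (L.φ t x) w) =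
      inner ℝ v (Sm M x (H77.Dt L t (L.flip (L.φ t x)) w)) := by
  set y := L.flip (L.φ t x) with hy
  have hφy : ∀ s, L.φ (t - s) y = L.flip (L.φ s x) := by
    intro s
    rw [hy, show t - s = -(s - t) by ring, ← L.flip_φ, ← L.φ_add, sub_add_cancel]
  have hW : ∀ s, HasDerivAt (fun s => H77.Dt L s x v) (M.U (L.φ s x) (H77.Dt L s x v)) s :=
    fun s => (ContinuousLinearMap.apply ℝ E2 v).hasFDerivAt.comp_hasDerivAt s
      (H77.hasDerivAt_Dt M x s)
  have hZ : ∀ s, HasDerivAt (fun s => H77.Dt L (t - s) y w)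
      (-(M.U (L.flip (L.φ s x)) (H77.Dt L (t - s) y w))) s := by
    intro s
    have h1 : HasDerivAt (fun r => H77.Dt L r y w) (M.U (L.φ (t - s) y) (H77.Dt L (t - s) y w))
        (t - s) := (ContinuousLinearMap.apply ℝ E2 w).hasFDerivAt.comp_hasDerivAt _
          (H77.hasDerivAt_Dt M y (t - s))
    have h2 := h1.scomp s ((hasDerivAt_id s).const_sub t)
    rw [hφy] at h2
    refine h2.congr_deriv ?_
    simp
  have hQ : ∀ s, HasDerivAt (fun s => inner ℝ (H77.Dt L s x v)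
      (Sm M (L.φ s x) (H77.Dt L (t - s) y w))) 0 s := by
    intro s
    have h1 := (hasDerivAt_Sm M x s).clm_apply (hZ s)
    refine ((hW s).inner ℝ h1).congr_deriv ?_
    set W := H77.Dt L s x v
    set Z := H77.Dt L (t - s) y w
    set U := M.U (L.φ s x) with hU
    set V := M.U (L.flip (L.φ s x)) with hV
    have e1 : Sm M (L.φ s x) = U + V := rfl
    rw [e1]
    have e2 : inner ℝ (U W) ((U + V) Z) = inner ℝ W (U ((U + V) Z)) := M.U_symm _ _ _
    rw [e2, ← inner_add_right]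
    have e3 : (V ∘L V - U ∘L U) Z + (U + V) (-(V Z)) + U ((U + V) Z) = 0 := by
      simp only [sub_apply, add_apply, ContinuousLinearMap.comp_apply, map_neg, map_add]
      abel
    rw [e3, inner_zero_right]
  have hconst := is_const_of_deriv_eq_zero (fun s => (hQ s).differentiableAt)
    (fun s => (hQ s).deriv) t 0
  simp only [sub_self, sub_zero, L.φ_zero, H77.Dt_zero] at hconst
  exact hconst

/-! ### The logarithms of the norms -/

/-- the norm of the inverse of the unstable derivative -/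
def nv (L : Leaf Γ X B) (t : ℝ) (x : X) : ℝ := ‖H77.Dt L (-t) (L.φ t x)‖

/-- the logarithm of the smallest expansion -/
def Fl (L : Leaf Γ X B) (t : ℝ) (x : X) : ℝ := -Real.log (nv L t x)

/-- the logarithm of the norm -/
def Hl (L : Leaf Γ X B) (t : ℝ) (x : X) : ℝ := Real.log ‖H77.Dt L t x‖

theorem Dt_neg_Dt (t : ℝ) (x : X) (v : E2) :
    H77.Dt L (-t) (L.φ t x) (H77.Dt L t x v) = v := by
  have := congrArg (fun A : E2 →L[ℝ] E2 => A v) (H77.Dt_neg_comp L t x)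
  simpa using this

theorem Dt_Dt_neg (t : ℝ) (x : X) (v : E2) :
    H77.Dt L t x (H77.Dt L (-t) (L.φ t x) v) = v := by
  have h := H77.Dt_comp_neg L t (L.φ t x)
  rw [L.φ_neg] at h
  have := congrArg (fun A : E2 →L[ℝ] E2 => A v) h
  simpa using this

theorem norm_Dt_pos (t : ℝ) (x : X) : 0 < ‖H77.Dt L t x‖ := by
  refine norm_pos_iff.2 fun h => ?_
  obtain ⟨v, hv⟩ := exists_ne (0 : E2)
  have h1 := Dt_neg_Dt (L := L) t x v
  rw [h] at h1
  simp only [zero_apply, map_zero] at h1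
  exact hv h1.symm

theorem nv_pos (t : ℝ) (x : X) : 0 < nv L t x := norm_Dt_pos _ _

theorem exp_neg_Fl (t : ℝ) (x : X) : Real.exp (-Fl L t x) = nv L t x := by
  rw [Fl, neg_neg, Real.exp_log (nv_pos t x)]

theorem exp_Fl (t : ℝ) (x : X) : Real.exp (Fl L t x) = (nv L t x)⁻¹ := by
  rw [Fl, Real.exp_neg, Real.exp_log (nv_pos t x)]

theorem exp_Hl (t : ℝ) (x : X) : Real.exp (Hl L t x) = ‖H77.Dt L t x‖ :=
  Real.exp_log (norm_Dt_pos t x)

theorem Fl_le_Dt (t : ℝ) (x : X) (v : E2) : Real.exp (Fl L t x) * ‖v‖ ≤ ‖H77.Dt L t x v‖ := by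
  rw [exp_Fl, inv_mul_le_iff₀ (nv_pos t x)]
  have h := (H77.Dt L (-t) (L.φ t x)).le_opNorm (H77.Dt L t x v)
  rwa [Dt_neg_Dt] at h

theorem Dt_le_Hl (t : ℝ) (x : X) (v : E2) : ‖H77.Dt L t x v‖ ≤ Real.exp (Hl L t x) * ‖v‖ := by
  rw [exp_Hl]
  exact (H77.Dt L t x).le_opNorm v

/-- a lower bound of the expansion -/
theorem le_Fl {t : ℝ} {x : X} {r : ℝ} (h : ∀ v, Real.exp r * ‖v‖ ≤ ‖H77.Dt L t x v‖) :
    r ≤ Fl L t x := by
  have h1 : nv L t x ≤ Real.exp (-r) := by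
    refine ContinuousLinearMap.opNorm_le_bound _ (Real.exp_pos _).le fun w => ?_
    have h2 := h (H77.Dt L (-t) (L.φ t x) w)
    rw [Dt_Dt_neg] at h2
    rw [Real.exp_neg, ← div_eq_inv_mul, le_div_iff₀ (Real.exp_pos r)]
    linarith
  rw [← exp_neg_Fl] at h1
  have := Real.exp_le_exp.1 h1
  linarith

/-- an upper bound of the expansion -/
theorem Hl_le {t : ℝ} {x : X} {r : ℝ} (h : ∀ v, ‖H77.Dt L t x v‖ ≤ Real.exp r * ‖v‖) :
    Hl L t x ≤ r := by
  have h1 : ‖H77.Dt L t x‖ ≤ Real.exp r :=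
    ContinuousLinearMap.opNorm_le_bound _ (Real.exp_pos _).le h
  rw [← exp_Hl] at h1
  exact Real.exp_le_exp.1 h1

theorem Fl_le_Hl (t : ℝ) (x : X) : Fl L t x ≤ Hl L t x := by
  obtain ⟨v, hv⟩ := exists_ne (0 : E2)
  have h1 := (Fl_le_Dt (L := L) t x v).trans (Dt_le_Hl t x v)
  exact Real.exp_le_exp.1 (le_of_mul_le_mul_right h1 (norm_pos_iff.2 hv))

theorem Fl_add (s t : ℝ) (x : X) : Fl L s (L.φ t x) + Fl L t x ≤ Fl L (s + t) x := by
  refine le_Fl fun v => ?_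
  rw [H77.Dt_add, ContinuousLinearMap.comp_apply, Real.exp_add, mul_assoc]
  exact (mul_le_mul_of_nonneg_left (Fl_le_Dt t x v) (Real.exp_pos _).le).trans (Fl_le_Dt s _ _)

theorem Hl_add (s t : ℝ) (x : X) : Hl L (s + t) x ≤ Hl L s (L.φ t x) + Hl L t x := by
  refine Hl_le fun v => ?_
  rw [H77.Dt_add, ContinuousLinearMap.comp_apply, Real.exp_add, mul_assoc]
  exact (Dt_le_Hl s _ _).trans (mul_le_mul_of_nonneg_left (Dt_le_Hl t x v) (Real.exp_pos _).le)

theorem Fl_cont (t : ℝ) : Continuous (Fl L t) := by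
  have h1 : Continuous fun x => H77.Dt L (-t) (L.φ t x) :=
    (H77.Dt_cont L (-t)).comp (L.φ_cont' t)
  exact (h1.norm.log fun x => (nv_pos t x).ne').neg

theorem Hl_cont (t : ℝ) : Continuous (Hl L t) :=
  (H77.Dt_cont L t).norm.log fun x => (norm_Dt_pos t x).ne'

theorem Fl_smul (g : Γ) (t : ℝ) (x : X) : Fl L t (g • x) = Fl L t x := by
  unfold Fl nv
  rw [L.φ_smul, H77.Dt_smul]

theorem norm_Dt_rot_le (g : O2) (t : ℝ) (x : X) :
    ‖H77.Dt L t (L.rot g x)‖ ≤ ‖H77.Dt L t x‖ := by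
  refine ContinuousLinearMap.opNorm_le_bound _ (norm_nonneg _) fun v => ?_
  rw [H77.Dt_rot, g.symm.norm_map]
  have h := (H77.Dt L t x).le_opNorm (g v)
  rwa [g.norm_map] at h

theorem rot_inv_rot (g : O2) (x : X) : L.rot g⁻¹ (L.rot g x) = x := by
  rw [← L.rot_mul, mul_inv_cancel, L.rot_one]

theorem norm_Dt_rot (g : O2) (t : ℝ) (x : X) :
    ‖H77.Dt L t (L.rot g x)‖ = ‖H77.Dt L t x‖ := by
  refine le_antisymm (norm_Dt_rot_le g t x) ?_
  have h := norm_Dt_rot_le (L := L) g⁻¹ t (L.rot g x)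
  rwa [rot_inv_rot] at h

theorem Fl_rot (g : O2) (t : ℝ) (x : X) : Fl L t (L.rot g x) = Fl L t x := by
  unfold Fl nv
  rw [← L.rot_φ, norm_Dt_rot]

/-! ### The flip -/

/-- the unstable tensor is bounded -/
theorem exists_U_norm (M : Metr L) : ∃ K : ℝ, 0 < K ∧ ∀ x, ‖M.U x‖ ≤ K := by
  obtain ⟨K, hK, hK'⟩ := L.cocompact
  obtain ⟨x₀⟩ := L.nonempty
  obtain ⟨g₀, hg₀⟩ := hK' x₀
  have hne : K.Nonempty := ⟨_, hg₀⟩
  obtain ⟨y, -, hmax⟩ := hK.exists_isMaxOn hne M.U_cont.norm.continuousOn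
  refine ⟨‖M.U y‖ + 1, by positivity, fun x => ?_⟩
  obtain ⟨g, hg⟩ := hK' x
  have h1 : ‖M.U (g • x)‖ ≤ ‖M.U y‖ := hmax hg
  rw [M.U_smul] at h1
  linarith

section Flip

variable (M : Metr L) {a₀ K : ℝ} (ha : 0 < a₀)
  (hlo : ∀ x v, a₀ * ‖v‖ ^ 2 ≤ inner ℝ (M.U x v) v) (hK : ∀ x, ‖M.U x‖ ≤ K)
include ha hlo hK

omit ha hK in
theorem Sm_ge (x : X) (v : E2) : 2 * a₀ * ‖v‖ ^ 2 ≤ inner ℝ v (Sm M x v) := by
  have h1 := hlo x v
  have h2 := hlo (L.flip x) v
  rw [real_inner_comm, Sm, add_apply, inner_add_left]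
  linarith

omit ha hlo in
theorem Sm_le (x : X) (v : E2) : ‖Sm M x v‖ ≤ 2 * K * ‖v‖ := by
  have h1 := (M.U x).le_opNorm v
  have h2 := (M.U (L.flip x)).le_opNorm v
  have h3 := mul_le_mul_of_nonneg_right (hK x) (norm_nonneg v)
  have h4 := mul_le_mul_of_nonneg_right (hK (L.flip x)) (norm_nonneg v)
  rw [Sm, add_apply]
  refine (norm_add_le _ _).trans ?_
  linarith

theorem Hl_le_flip (t : ℝ) (x : X) :
    Hl L t x ≤ Hl L t (L.flip (L.φ t x)) + Real.log (K / a₀) := by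
  have hK0 : 0 < K := by
    obtain ⟨v, hv⟩ := exists_ne (0 : E2)
    have h1 := Sm_ge M hlo x v
    have h2 := Sm_le M hK x v
    have h3 := real_inner_le_norm v (Sm M x v)
    have hv0 := norm_pos_iff.2 hv
    have h4 : 2 * a₀ * ‖v‖ ^ 2 ≤ ‖v‖ * (2 * K * ‖v‖) :=
      h1.trans (h3.trans (mul_le_mul_of_nonneg_left h2 hv0.le))
    have h5 : 0 < 2 * a₀ * ‖v‖ ^ 2 := by positivity
    by_contra hc
    push Not at hc
    have h6 : ‖v‖ * (2 * K * ‖v‖) ≤ 0 := by
      have : 2 * K * ‖v‖ ≤ 0 := mul_nonpos_of_nonpos_of_nonneg (by linarith) hv0.le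
      exact mul_nonpos_of_nonneg_of_nonpos hv0.le this
    linarith
  refine Hl_le fun v => ?_
  rw [Real.exp_add, Real.exp_log (by positivity)]
  set y := L.flip (L.φ t x) with hy
  set w := H77.Dt L t x v with hw
  have h1 : inner ℝ w (Sm M (L.φ t x) w) = inner ℝ v (Sm M x (H77.Dt L t y w)) := dual M x t v w
  have h2 := Sm_ge M hlo (L.φ t x) w
  have h3 := real_inner_le_norm v (Sm M x (H77.Dt L t y w))
  have h4 := Sm_le M hK x (H77.Dt L t y w)
  have h5 := Dt_le_Hl (L := L) t y w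
  rcases eq_or_ne w 0 with h0 | h0
  · rw [h0, norm_zero]
    positivity
  have hw0 := norm_pos_iff.2 h0
  have h6 : 2 * a₀ * ‖w‖ ^ 2 ≤ ‖v‖ * (2 * K * (Real.exp (Hl L t y) * ‖w‖)) := by
    calc 2 * a₀ * ‖w‖ ^ 2 ≤ inner ℝ v (Sm M x (H77.Dt L t y w)) := by rw [← h1]; exact h2
      _ ≤ ‖v‖ * ‖Sm M x (H77.Dt L t y w)‖ := h3
      _ ≤ ‖v‖ * (2 * K * ‖H77.Dt L t y w‖) := by gcongr
      _ ≤ _ := by gcongr
  have h7 : a₀ * ‖w‖ ≤ Real.exp (Hl L t y) * K * ‖v‖ := by
    refine le_of_mul_le_mul_right ?_ hw0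
    nlinarith
  calc ‖w‖ = (a₀ * ‖w‖) / a₀ := by field_simp
    _ ≤ (Real.exp (Hl L t y) * K * ‖v‖) / a₀ := by gcongr
    _ = Real.exp (Hl L t y) * (K / a₀) * ‖v‖ := by ring

theorem Fl_flip_le (t : ℝ) (x : X) :
    Fl L t x ≤ Fl L t (L.flip (L.φ t x)) + Real.log (K / a₀) := by
  have hK0 : 0 < K := by
    obtain ⟨v, hv⟩ := exists_ne (0 : E2)
    have h1 := Sm_ge M hlo x v
    have h2 := Sm_le M hK x v
    have h3 := real_inner_le_norm v (Sm M x v)
    have hv0 := norm_pos_iff.2 hv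
    have h4 : 2 * a₀ * ‖v‖ ^ 2 ≤ ‖v‖ * (2 * K * ‖v‖) :=
      h1.trans (h3.trans (mul_le_mul_of_nonneg_left h2 hv0.le))
    have h5 : 0 < 2 * a₀ * ‖v‖ ^ 2 := by positivity
    by_contra hc
    push Not at hc
    have h6 : ‖v‖ * (2 * K * ‖v‖) ≤ 0 := by
      have : 2 * K * ‖v‖ ≤ 0 := mul_nonpos_of_nonpos_of_nonneg (by linarith) hv0.le
      exact mul_nonpos_of_nonneg_of_nonpos hv0.le this
    linarith
  rw [← sub_le_iff_le_add]
  refine le_Fl fun w => ?_
  rw [Real.exp_sub, Real.exp_log (by positivity)]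
  set y := L.flip (L.φ t x) with hy
  set v := H77.Dt L (-t) (L.φ t x) w with hv
  have h1 : inner ℝ w (Sm M (L.φ t x) w) = inner ℝ v (Sm M x (H77.Dt L t y w)) := by
    have h := dual M x t v w
    rwa [hv, Dt_Dt_neg] at h
  have h2 := Sm_ge M hlo (L.φ t x) w
  have h3 := real_inner_le_norm v (Sm M x (H77.Dt L t y w))
  have h4 := Sm_le M hK x (H77.Dt L t y w)
  have h5 : Real.exp (Fl L t x) * ‖v‖ ≤ ‖w‖ := by
    have h := Fl_le_Dt (L := L) t x v
    rwa [hv, Dt_Dt_neg] at h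
  rcases eq_or_ne w 0 with h0 | h0
  · rw [h0, norm_zero, mul_zero]
    positivity
  have hw0 := norm_pos_iff.2 h0
  have hE := Real.exp_pos (Fl L t x)
  have h6 : 2 * a₀ * ‖w‖ ^ 2 ≤ ‖v‖ * (2 * K * ‖H77.Dt L t y w‖) := by
    calc 2 * a₀ * ‖w‖ ^ 2 ≤ inner ℝ v (Sm M x (H77.Dt L t y w)) := by rw [← h1]; exact h2
      _ ≤ ‖v‖ * ‖Sm M x (H77.Dt L t y w)‖ := h3
      _ ≤ ‖v‖ * (2 * K * ‖H77.Dt L t y w‖) := by gcongr
  have h7 : Real.exp (Fl L t x) * (a₀ * ‖w‖) ≤ K * ‖H77.Dt L t y w‖ := by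
    refine le_of_mul_le_mul_right ?_ hw0
    calc Real.exp (Fl L t x) * (a₀ * ‖w‖) * ‖w‖ =
        Real.exp (Fl L t x) * (2 * a₀ * ‖w‖ ^ 2) / 2 := by ring
      _ ≤ Real.exp (Fl L t x) * (‖v‖ * (2 * K * ‖H77.Dt L t y w‖)) / 2 := by gcongr
      _ = (Real.exp (Fl L t x) * ‖v‖) * (K * ‖H77.Dt L t y w‖) := by ring
      _ ≤ ‖w‖ * (K * ‖H77.Dt L t y w‖) := by gcongr
      _ = _ := by ring
  rw [div_mul_eq_mul_div, div_le_iff₀ (by positivity)]
  calc Real.exp (Fl L t x) * ‖w‖ = (Real.exp (Fl L t x) * (a₀ * ‖w‖)) / a₀ := by field_simp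
    _ ≤ (K * ‖H77.Dt L t y w‖) / a₀ := by gcongr
    _ = ‖H77.Dt L t y w‖ * (K / a₀) := by ring

end Flip

/-! ### The clock -/

/-- the average of the logarithm of the expansion over the time `S` -/
def ck (L : Leaf Γ X B) (S : ℝ) (x : X) : ℝ := Fl L S x / S

/-- the symmetric clock -/
def cs (L : Leaf Γ X B) (S : ℝ) (x : X) : ℝ := (ck L S x + ck L S (L.flip x)) / 2

theorem flip_orbit (t s : ℝ) (x : X) : L.φ (t - s) (L.flip (L.φ t x)) = L.flip (L.φ s x) := by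
  rw [show t - s = -(s - t) by ring, ← L.flip_φ, ← L.φ_add, sub_add_cancel]

theorem flip_flip_orbit (t : ℝ) (x : X) : L.flip (L.φ t (L.flip (L.φ t x))) = x := by
  have h := flip_orbit (L := L) t 0 x
  rw [sub_zero, L.φ_zero] at h
  rw [h, L.flip_flip]

theorem integral_flip (f : X → ℝ) (t : ℝ) (x : X) :
    ∫ s in (0 : ℝ)..t, f (L.φ s (L.flip (L.φ t x))) =
      ∫ s in (0 : ℝ)..t, f (L.flip (L.φ s x)) := by
  have h := intervalIntegral.integral_comp_sub_left (a := 0) (b := t)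
    (fun s => f (L.φ s (L.flip (L.φ t x)))) t
  rw [sub_self, sub_zero] at h
  rw [← h]
  simp only [flip_orbit]

/-- **the clock from the rates at one time** -/
theorem clock_of_time (M : Metr L) {a₀ b₀ ρ S : ℝ} (ha : 0 < a₀)
    (hlo : ∀ x v, a₀ * ‖v‖ ^ 2 ≤ inner ℝ (M.U x v) v)
    (hhi : ∀ x v, inner ℝ (M.U x v) v ≤ b₀ * ‖v‖ ^ 2) (hρ : 1 ≤ ρ) (hρ2 : ρ < 2)
    (hS : 0 < S) (hrel : ∀ x, Hl L S x ≤ ρ * Fl L S x) :
    ∃ (a b sl T c₀ c₁ : ℝ) (c : X → ℝ), 0 < a ∧ a ≤ b ∧ b < 2 * a ∧ 0 < sl ∧ 0 < T ∧ 0 < c₀ ∧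
      Continuous c ∧ (∀ (g : Γ) x, c (g • x) = c x) ∧ (∀ r x, c (L.rot r x) = c x) ∧
      (∀ x, c (L.flip x) = c x) ∧ (∀ x, c₀ ≤ c x) ∧ (∀ x, c x ≤ c₁) ∧
      ∀ t, T ≤ t → ∀ x v,
        Real.exp ((a + sl) * ∫ s in (0 : ℝ)..t, c (L.φ s x)) * ‖v‖ ≤ ‖H77.Dt L t x v‖ ∧
        ‖H77.Dt L t x v‖ ≤ Real.exp ((b - sl) * ∫ s in (0 : ℝ)..t, c (L.φ s x)) * ‖v‖ := by
  obtain ⟨K, hK0, hK⟩ := exists_U_norm M
  have hF_ge : ∀ t x, 0 ≤ t → a₀ * t ≤ Fl L t x := fun t x ht => le_Fl (Dt_ge M hlo x ht)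
  have hH_le : ∀ t x, 0 ≤ t → Hl L t x ≤ b₀ * t := fun t x ht => Hl_le (H77.Dt_le M hhi x ht)
  set κ := Real.log (K / a₀) with hκ
  set δ := (2 - ρ) / 8 with hδ
  have hδ0 : 0 < δ := by rw [hδ]; linarith
  obtain ⟨x₀⟩ := L.nonempty
  have hb₀ : 0 ≤ b₀ := by
    have h1 := (hF_ge 1 x₀ zero_le_one).trans ((Fl_le_Hl 1 x₀).trans (hH_le 1 x₀ zero_le_one))
    linarith
  have hck_ge : ∀ x, a₀ ≤ ck L S x := fun x => by
    rw [ck, le_div_iff₀ hS]
    exact hF_ge S x hS.le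
  have hck_le : ∀ x, ck L S x ≤ b₀ := fun x => by
    rw [ck, div_le_iff₀ hS]
    exact (Fl_le_Hl S x).trans (hH_le S x hS.le)
  have hck_cont : Continuous (ck L S) := (Fl_cont S).div_const S
  have hck_int : ∀ t x, IntervalIntegrable (fun s => ck L S (L.φ s x)) volume 0 t := fun t x =>
    (hck_cont.comp (L.φ_cont.comp (Continuous.prodMk_left x))).intervalIntegrable _ _
  have hckf_int : ∀ t x, IntervalIntegrable (fun s => ck L S (L.flip (L.φ s x))) volume 0 t :=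
    fun t x => (hck_cont.comp (L.flip_cont.comp
      (L.φ_cont.comp (Continuous.prodMk_left x)))).intervalIntegrable _ _
  -- the lower bound
  have hlow : ∀ t x, 0 ≤ t → ∫ s in (0 : ℝ)..t, ck L S (L.φ s x) ≤ Fl L t x + 2 * b₀ * S := by
    intro t x ht
    exact avg_le (φ := L.φ) (F := Fl L) L.φ_cont hS (fun s t x _ _ => Fl_add s t x)
      (fun t x ht => (mul_nonneg ha.le ht).trans (hF_ge t x ht))
      (fun t x ht => (Fl_le_Hl t x).trans (hH_le t x ht)) (Fl_cont S) ht x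
  -- the upper bound
  have hupp : ∀ t x, 0 ≤ t → Hl L t x ≤
      ρ * (∫ s in (0 : ℝ)..t, ck L S (L.φ s x)) + 2 * b₀ * S := by
    intro t x ht
    have h1 := avg_le (φ := L.φ) (F := fun t x => b₀ * t - Hl L t x) (b := b₀) L.φ_cont hS
      (fun s t x _ _ => by
        have := Hl_add (L := L) s t x
        linarith)
      (fun t x ht => by
        have := hH_le t x ht
        linarith)
      (fun t x ht => by
        have h2 := (mul_nonneg ha.le ht).trans ((hF_ge t x ht).trans (Fl_le_Hl t x))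
        linarith)
      (continuous_const.sub (Hl_cont S)) ht x
    have hHi : IntervalIntegrable (fun s => Hl L S (L.φ s x) / S) volume 0 t :=
      (((Hl_cont S).comp (L.φ_cont.comp (Continuous.prodMk_left x))).div_const S).intervalIntegrable
        _ _
    have h2 : ∫ s in (0 : ℝ)..t, (b₀ * S - Hl L S (L.φ s x)) / S =
        b₀ * t - ∫ s in (0 : ℝ)..t, Hl L S (L.φ s x) / S := by
      have e1 : ∀ s, (b₀ * S - Hl L S (L.φ s x)) / S = b₀ - Hl L S (L.φ s x) / S := fun s => by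
        field_simp
      simp only [e1]
      rw [intervalIntegral.integral_sub intervalIntegrable_const hHi,
        intervalIntegral.integral_const, smul_eq_mul]
      ring
    have h3 : ∫ s in (0 : ℝ)..t, Hl L S (L.φ s x) / S ≤
        ∫ s in (0 : ℝ)..t, ρ * ck L S (L.φ s x) := by
      refine intervalIntegral.integral_mono_on ht hHi ((hck_int t x).const_mul _) fun s _ => ?_
      have h4 := hrel (L.φ s x)
      rw [div_le_iff₀ hS]
      have h6 : ck L S (L.φ s x) * S = Fl L S (L.φ s x) := by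
        rw [ck]
        field_simp
      rw [mul_assoc, h6]
      exact h4
    rw [intervalIntegral.integral_const_mul] at h3
    rw [h2] at h1
    linarith
  -- the symmetric clock
  have hσ : ∀ t x, ∫ s in (0 : ℝ)..t, cs L S (L.φ s x) =
      ((∫ s in (0 : ℝ)..t, ck L S (L.φ s x)) +
        ∫ s in (0 : ℝ)..t, ck L S (L.φ s (L.flip (L.φ t x)))) / 2 := by
    intro t x
    rw [integral_flip, ← intervalIntegral.integral_add (hck_int t x) (hckf_int t x),
      ← intervalIntegral.integral_div]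
    rfl
  set C₁ := 2 * b₀ * S + |κ| with hC₁
  have hκ1 : κ ≤ |κ| := le_abs_self κ
  have hκ2 : 0 ≤ |κ| := abs_nonneg κ
  have hlow' : ∀ t x, 0 ≤ t → ∫ s in (0 : ℝ)..t, cs L S (L.φ s x) ≤ Fl L t x + C₁ := by
    intro t x ht
    have h1 := hlow t x ht
    have h2 := hlow t (L.flip (L.φ t x)) ht
    have h3 := Fl_flip_le M ha hlo hK t (L.flip (L.φ t x))
    rw [flip_flip_orbit] at h3
    rw [hσ]
    linarith
  have hupp' : ∀ t x, 0 ≤ t → Hl L t x ≤
      ρ * (∫ s in (0 : ℝ)..t, cs L S (L.φ s x)) + C₁ := by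
    intro t x ht
    have h1 := hupp t x ht
    have h2 := hupp t (L.flip (L.φ t x)) ht
    have h3 := Hl_le_flip M ha hlo hK t x
    rw [hσ]
    linarith
  have hcs_ge : ∀ x, a₀ ≤ cs L S x := fun x => by
    have h1 := hck_ge x
    have h2 := hck_ge (L.flip x)
    rw [cs]
    linarith
  have hcs_cont : Continuous (cs L S) := (hck_cont.add (hck_cont.comp L.flip_cont)).div_const 2
  have hσ_ge : ∀ t x, 0 ≤ t → a₀ * t ≤ ∫ s in (0 : ℝ)..t, cs L S (L.φ s x) := by
    intro t x ht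
    calc a₀ * t = ∫ _s in (0 : ℝ)..t, a₀ := by
          rw [intervalIntegral.integral_const, smul_eq_mul, sub_zero, mul_comm]
      _ ≤ _ := intervalIntegral.integral_mono_on ht intervalIntegrable_const
          ((hcs_cont.comp (L.φ_cont.comp (Continuous.prodMk_left x))).intervalIntegrable _ _)
          fun s _ => hcs_ge _
  obtain ⟨T, hT, hT'⟩ := exists_lin C₁ (show 0 < δ * a₀ by positivity)
  refine ⟨1 - 2 * δ, ρ + 2 * δ, δ, T, a₀, b₀, cs L S, by linarith, by linarith, by linarith,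
    hδ0, hT, ha, hcs_cont, fun g x => ?_, fun r x => ?_, fun x => ?_, hcs_ge, fun x => ?_,
    fun t ht x v => ?_⟩
  · unfold cs ck
    rw [L.flip_smul, Fl_smul, Fl_smul]
  · unfold cs ck
    rw [L.flip_rot, Fl_rot, Fl_rot]
  · unfold cs
    rw [L.flip_flip, add_comm]
  · have h1 := hck_le x
    have h2 := hck_le (L.flip x)
    rw [cs]
    linarith
  · have ht0 : 0 ≤ t := hT.le.trans ht
    have h1 := hlow' t x ht0
    have h2 := hupp' t x ht0
    have h3 := hσ_ge t x ht0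
    have h4 := hT' t ht
    set σ := ∫ s in (0 : ℝ)..t, cs L S (L.φ s x) with hσ'
    have h5 : C₁ ≤ δ * σ := by
      refine h4.trans ?_
      rw [mul_assoc]
      exact mul_le_mul_of_nonneg_left h3 hδ0.le
    constructor
    · refine le_trans ?_ (Fl_le_Dt t x v)
      refine mul_le_mul_of_nonneg_right (Real.exp_le_exp.2 ?_) (norm_nonneg v)
      linarith
    · refine (Dt_le_Hl t x v).trans ?_
      refine mul_le_mul_of_nonneg_right (Real.exp_le_exp.2 ?_) (norm_nonneg v)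
      linarith

/-- **the clock under relative pinching with `ρ < 2`** -/
theorem clock_rates (M : Metr L) {a₀ b₀ ρ : ℝ} (ha : 0 < a₀)
    (hlo : ∀ x v, a₀ * ‖v‖ ^ 2 ≤ inner ℝ (M.U x v) v)
    (hhi : ∀ x v, inner ℝ (M.U x v) v ≤ b₀ * ‖v‖ ^ 2) (hρ : 1 ≤ ρ) (hρ2 : ρ < 2)
    (hR : RelM M ρ) :
    ∃ (a b sl T c₀ c₁ : ℝ) (c : X → ℝ), 0 < a ∧ a ≤ b ∧ b < 2 * a ∧ 0 < sl ∧ 0 < T ∧ 0 < c₀ ∧
      Continuous c ∧ (∀ (g : Γ) x, c (g • x) = c x) ∧ (∀ r x, c (L.rot r x) = c x) ∧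
      (∀ x, c (L.flip x) = c x) ∧ (∀ x, c₀ ≤ c x) ∧ (∀ x, c x ≤ c₁) ∧
      ∀ t, T ≤ t → ∀ x v,
        Real.exp ((a + sl) * ∫ s in (0 : ℝ)..t, c (L.φ s x)) * ‖v‖ ≤ ‖H77.Dt L t x v‖ ∧
        ‖H77.Dt L t x v‖ ≤ Real.exp ((b - sl) * ∫ s in (0 : ℝ)..t, c (L.φ s x)) * ‖v‖ := by
  obtain ⟨C, hC⟩ := hR
  set C' := max C 0 with hC'
  have hCC : C ≤ C' := le_max_left _ _
  have hC0 : 0 ≤ C' := le_max_right _ _
  set η := (2 - ρ) / 2 with hη
  have hη0 : 0 < η := by rw [hη]; linarith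
  obtain ⟨S, hS, hS'⟩ : ∃ S : ℝ, 0 < S ∧ C' ≤ η * a₀ * S := by
    refine ⟨C' / (η * a₀) + 1, by positivity, ?_⟩
    have : η * a₀ * (C' / (η * a₀) + 1) = C' + η * a₀ := by field_simp
    rw [this]
    have : 0 < η * a₀ := by positivity
    linarith
  refine clock_of_time M (ρ := ρ + η) ha hlo hhi (by linarith) (by linarith) hS fun x => ?_
  obtain ⟨p, P, hp, hP, hU, hint⟩ := hC x
  have h1 := le_Fl (Dt_ge_int M hp x (fun s hs v => (hU s hs v).1) hS.le)
  have h2 := Hl_le (Dt_le_int M hP x (fun s hs v => (hU s hs v).2) hS.le)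
  have h3 := hint S hS.le
  have h4 := mul_le_mul_of_nonneg_left h1 (by linarith : 0 ≤ ρ)
  have h5 : a₀ * S ≤ Fl L S x := le_Fl (Dt_ge M hlo x hS.le)
  have h6 := mul_le_mul_of_nonneg_left h5 hη0.le
  linarith

/-- `M` is pointwise bunched: at some time `S`, the largest expansion is less than the square of
the smallest expansion, in each frame. -/
def BunM (L : Leaf Γ X B) : Prop :=
  ∃ S : ℝ, 0 < S ∧ ∀ (x : X) (v w : E2), ‖v‖ = 1 → ‖w‖ = 1 →
    ‖H77.Dt L S x v‖ < ‖H77.Dt L S x w‖ ^ 2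

/-- **the clock from the pointwise bunching** -/
theorem clock_bun (M : Metr L) {a₀ b₀ : ℝ} (ha : 0 < a₀)
    (hlo : ∀ x v, a₀ * ‖v‖ ^ 2 ≤ inner ℝ (M.U x v) v)
    (hhi : ∀ x v, inner ℝ (M.U x v) v ≤ b₀ * ‖v‖ ^ 2) (hB : BunM L) :
    ∃ (a b sl T c₀ c₁ : ℝ) (c : X → ℝ), 0 < a ∧ a ≤ b ∧ b < 2 * a ∧ 0 < sl ∧ 0 < T ∧ 0 < c₀ ∧
      Continuous c ∧ (∀ (g : Γ) x, c (g • x) = c x) ∧ (∀ r x, c (L.rot r x) = c x) ∧
      (∀ x, c (L.flip x) = c x) ∧ (∀ x, c₀ ≤ c x) ∧ (∀ x, c x ≤ c₁) ∧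
      ∀ t, T ≤ t → ∀ x v,
        Real.exp ((a + sl) * ∫ s in (0 : ℝ)..t, c (L.φ s x)) * ‖v‖ ≤ ‖H77.Dt L t x v‖ ∧
        ‖H77.Dt L t x v‖ ≤ Real.exp ((b - sl) * ∫ s in (0 : ℝ)..t, c (L.φ s x)) * ‖v‖ := by
  obtain ⟨S, hS, hB⟩ := hB
  have hne : (sphere (0 : E2) 1).Nonempty := by
    obtain ⟨v, hv⟩ := exists_ne (0 : E2)
    refine ⟨‖v‖⁻¹ • v, ?_⟩
    rw [mem_sphere_zero_iff_norm, norm_smul, norm_inv, norm_norm,
      inv_mul_cancel₀ (norm_ne_zero_iff.2 hv)]
  -- the norms are attained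
  have hstrict : ∀ x, Hl L S x < 2 * Fl L S x := by
    intro x
    have hcD : Continuous fun v => ‖H77.Dt L S x v‖ := (H77.Dt L S x).continuous.norm
    obtain ⟨v, hv, hmax⟩ := (isCompact_sphere (0 : E2) 1).exists_isMaxOn hne hcD.continuousOn
    obtain ⟨w, hw, hmin⟩ := (isCompact_sphere (0 : E2) 1).exists_isMinOn hne hcD.continuousOn
    rw [mem_sphere_zero_iff_norm] at hv hw
    have hsph : ∀ u : E2, u ≠ 0 → ‖u‖⁻¹ • u ∈ sphere (0 : E2) 1 := fun u hu => by
      rw [mem_sphere_zero_iff_norm, norm_smul, norm_inv, norm_norm,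
        inv_mul_cancel₀ (norm_ne_zero_iff.2 hu)]
    have hvp : 0 < ‖H77.Dt L S x v‖ := by
      refine lt_of_lt_of_le ?_ (Fl_le_Dt S x v)
      rw [hv, mul_one]
      exact Real.exp_pos _
    have hwp : 0 < ‖H77.Dt L S x w‖ := by
      refine lt_of_lt_of_le ?_ (Fl_le_Dt S x w)
      rw [hw, mul_one]
      exact Real.exp_pos _
    have h1 : Hl L S x ≤ Real.log ‖H77.Dt L S x v‖ := by
      refine Hl_le fun u => ?_
      rw [Real.exp_log hvp]
      rcases eq_or_ne u 0 with rfl | hu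
      · simp
      have h2 : ‖H77.Dt L S x (‖u‖⁻¹ • u)‖ ≤ ‖H77.Dt L S x v‖ := hmax (hsph u hu)
      rw [map_smul, norm_smul, norm_inv, norm_norm,
        inv_mul_le_iff₀ (norm_pos_iff.2 hu)] at h2
      linarith
    have h3 : Real.log ‖H77.Dt L S x w‖ ≤ Fl L S x := by
      refine le_Fl fun u => ?_
      rw [Real.exp_log hwp]
      rcases eq_or_ne u 0 with rfl | hu
      · simp
      have h2 : ‖H77.Dt L S x w‖ ≤ ‖H77.Dt L S x (‖u‖⁻¹ • u)‖ := hmin (hsph u hu)
      rw [map_smul, norm_smul, norm_inv, norm_norm,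
        le_inv_mul_iff₀ (norm_pos_iff.2 hu)] at h2
      linarith
    have h4 : Real.log ‖H77.Dt L S x v‖ < 2 * Real.log ‖H77.Dt L S x w‖ := by
      have h5 := Real.log_lt_log hvp (hB x v w hv hw)
      rwa [Real.log_pow, Nat.cast_ofNat] at h5
    linarith
  -- a uniform constant
  obtain ⟨K, hK, hK'⟩ := L.cocompact
  obtain ⟨x₀⟩ := L.nonempty
  obtain ⟨g₀, hg₀⟩ := hK' x₀
  have hcont : Continuous fun x => 2 * Fl L S x - Hl L S x :=
    (continuous_const.mul (Fl_cont S)).sub (Hl_cont S)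
  obtain ⟨y, -, hmin⟩ := hK.exists_isMinOn ⟨_, hg₀⟩ hcont.continuousOn
  set ε := 2 * Fl L S y - Hl L S y with hε
  have hε0 : 0 < ε := by
    have := hstrict y
    linarith
  have hHs : ∀ (g : Γ) x, Hl L S (g • x) = Hl L S x := fun g x => by
    unfold Hl
    rw [H77.Dt_smul]
  have hall : ∀ x, ε ≤ 2 * Fl L S x - Hl L S x := by
    intro x
    obtain ⟨g, hg⟩ := hK' x
    have h1 : ε ≤ 2 * Fl L S (g • x) - Hl L S (g • x) := hmin hg
    rwa [Fl_smul, hHs] at h1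
  have hb₀ : 0 < b₀ := by
    have h1 : a₀ * 1 ≤ Fl L 1 x₀ := le_Fl (Dt_ge M hlo x₀ zero_le_one)
    have h2 : Hl L 1 x₀ ≤ b₀ * 1 := Hl_le (H77.Dt_le M hhi x₀ zero_le_one)
    have h3 := Fl_le_Hl (L := L) 1 x₀
    linarith
  have hbS : 0 < b₀ * S := mul_pos hb₀ hS
  refine clock_of_time M (ρ := max 1 (2 - ε / (b₀ * S))) ha hlo hhi (le_max_left _ _)
    (max_lt (by norm_num) (by have := div_pos hε0 hbS; linarith)) hS fun x => ?_
  have h0 : 0 ≤ Fl L S x := (by positivity : 0 ≤ a₀ * S).trans (le_Fl (Dt_ge M hlo x hS.le))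
  have h1 : Fl L S x ≤ b₀ * S := (Fl_le_Hl S x).trans (Hl_le (H77.Dt_le M hhi x hS.le))
  have h2 : Fl L S x * (ε / (b₀ * S)) ≤ ε := by
    calc Fl L S x * (ε / (b₀ * S)) ≤ (b₀ * S) * (ε / (b₀ * S)) :=
          mul_le_mul_of_nonneg_right h1 (by positivity)
      _ = ε := by field_simp
  calc Hl L S x ≤ 2 * Fl L S x - ε := by have := hall x; linarith
    _ ≤ (2 - ε / (b₀ * S)) * Fl L S x := by linarith
    _ ≤ _ := mul_le_mul_of_nonneg_right (le_max_right _ _) h0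

end Vale.Agent.P207.N4.H709
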