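import Vale.Agent.P207.N4.H709.DetR

/-!
# P207: the rates of the unstable derivative under relative pinching

`RelM M ρ` : along every orbit `p ≤ U ≤ P` with `∫ P ≤ ρ ∫ p + C`. `rel_rates` : then the norms of
the unstable derivative grow at least like `exp (a' t)` and at most like `exp (b' t)` with
`b' < 2 a'`, if `(m - 1) (ρ² - 2) < ρ`.
-/

open Module Set Filter Topology Metric MeasureTheory
open scoped ContDiff

noncomputable section

namespace Vale.Agent.P207.N4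

open Vale.Agent.P207.N3

variable [Dim]

variable {Γ X B : Type} [Group Γ] [MetricSpace X] [ProperSpace X] [MulAction Γ X]
  [IsIsometricSMul Γ X] [TopologicalSpace B] [CompactSpace B] [T2Space B] [MulAction Γ B]
  [ContinuousConstSMul Γ B]

variable {L : Leaf Γ X B}

/-- relative pinching of `U` along the orbits -/
def RelM (M : Metr L) (ρ : ℝ) : Prop :=
  ∃ C : ℝ, ∀ x, ∃ p P : ℝ → ℝ, Continuous p ∧ Continuous P ∧
    (∀ s, 0 ≤ s → ∀ v, p s * ‖v‖ ^ 2 ≤ inner ℝ (M.U (L.φ s x) v) v ∧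
      inner ℝ (M.U (L.φ s x) v) v ≤ P s * ‖v‖ ^ 2) ∧
    ∀ t, 0 ≤ t → ∫ s in (0 : ℝ)..t, P s ≤ ρ * (∫ s in (0 : ℝ)..t, p s) + C

namespace H709

/-- the derivative of the norm of the unstable derivative with an integrating factor -/
theorem hasDerivAt_norm_exp (M : Metr L) {p : ℝ → ℝ} (hp : Continuous p) (x : X) (v : E2)
    (s : ℝ) : HasDerivAt
      (fun s => ‖H77.Dt L s x v‖ ^ 2 * Real.exp (-2 * ∫ r in (0 : ℝ)..s, p r))
      ((2 * inner ℝ (H77.Dt L s x v) (M.U (L.φ s x) (H77.Dt L s x v))) *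
        Real.exp (-2 * ∫ r in (0 : ℝ)..s, p r) +
        ‖H77.Dt L s x v‖ ^ 2 * (Real.exp (-2 * ∫ r in (0 : ℝ)..s, p r) * (-2 * p s))) s := by
  have hd : HasDerivAt (fun s => H77.Dt L s x v) (M.U (L.φ s x) (H77.Dt L s x v)) s :=
    (ContinuousLinearMap.apply ℝ E2 v).hasFDerivAt.comp_hasDerivAt s (H77.hasDerivAt_Dt M x s)
  have h1 := hd.norm_sq
  have h2 : HasDerivAt (fun s : ℝ => Real.exp (-2 * ∫ r in (0 : ℝ)..s, p r))
      (Real.exp (-2 * ∫ r in (0 : ℝ)..s, p r) * (-2 * p s)) s :=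
    ((hp.integral_hasStrictDerivAt 0 s).hasDerivAt.const_mul (-2)).exp
  exact h1.mul h2

theorem Dt_ge_int (M : Metr L) {p : ℝ → ℝ} (hp : Continuous p) (x : X)
    (h : ∀ s, 0 ≤ s → ∀ v, p s * ‖v‖ ^ 2 ≤ inner ℝ (M.U (L.φ s x) v) v) {t : ℝ} (ht : 0 ≤ t)
    (v : E2) : Real.exp (∫ s in (0 : ℝ)..t, p s) * ‖v‖ ≤ ‖H77.Dt L t x v‖ := by
  have hg := hasDerivAt_norm_exp M hp x v
  have hmono : MonotoneOn
      (fun s => ‖H77.Dt L s x v‖ ^ 2 * Real.exp (-2 * ∫ r in (0 : ℝ)..s, p r)) (Ici 0) := by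
    refine monotoneOn_of_deriv_nonneg (convex_Ici 0)
      (fun s _ => (hg s).continuousAt.continuousWithinAt)
      (fun s _ => (hg s).differentiableAt.differentiableWithinAt) fun s hs => ?_
    rw [interior_Ici] at hs
    rw [(hg s).deriv]
    have h3 := h s (le_of_lt hs) (H77.Dt L s x v)
    rw [real_inner_comm] at h3
    have h4 := Real.exp_pos (-2 * ∫ r in (0 : ℝ)..s, p r)
    nlinarith
  have h5 := hmono (mem_Ici.2 le_rfl) (mem_Ici.2 ht) ht
  simp only [intervalIntegral.integral_same, mul_zero, Real.exp_zero, mul_one, H77.Dt_zero] at h5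
  have h6 : (Real.exp (∫ s in (0 : ℝ)..t, p s) * ‖v‖) ^ 2 ≤ ‖H77.Dt L t x v‖ ^ 2 := by
    have h7 : Real.exp (-2 * ∫ s in (0 : ℝ)..t, p s) * Real.exp (∫ s in (0 : ℝ)..t, p s) ^ 2 =
        1 := by
      rw [← Real.exp_nat_mul, ← Real.exp_add, Real.exp_eq_one_iff]
      push_cast; ring
    have h8 : ‖H77.Dt L t x v‖ ^ 2 = (‖H77.Dt L t x v‖ ^ 2 *
        Real.exp (-2 * ∫ s in (0 : ℝ)..t, p s)) * Real.exp (∫ s in (0 : ℝ)..t, p s) ^ 2 := by
      rw [mul_assoc, h7, mul_one]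
    rw [h8, mul_pow, mul_comm (Real.exp (∫ s in (0 : ℝ)..t, p s) ^ 2)]
    gcongr
    exact h5
  exact le_of_sq_le_sq h6 (norm_nonneg _)

theorem Dt_le_int (M : Metr L) {p : ℝ → ℝ} (hp : Continuous p) (x : X)
    (h : ∀ s, 0 ≤ s → ∀ v, inner ℝ (M.U (L.φ s x) v) v ≤ p s * ‖v‖ ^ 2) {t : ℝ} (ht : 0 ≤ t)
    (v : E2) : ‖H77.Dt L t x v‖ ≤ Real.exp (∫ s in (0 : ℝ)..t, p s) * ‖v‖ := by
  have hg := hasDerivAt_norm_exp M hp x v
  have hmono : AntitoneOn
      (fun s => ‖H77.Dt L s x v‖ ^ 2 * Real.exp (-2 * ∫ r in (0 : ℝ)..s, p r)) (Ici 0) := by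
    refine antitoneOn_of_deriv_nonpos (convex_Ici 0)
      (fun s _ => (hg s).continuousAt.continuousWithinAt)
      (fun s _ => (hg s).differentiableAt.differentiableWithinAt) fun s hs => ?_
    rw [interior_Ici] at hs
    rw [(hg s).deriv]
    have h3 := h s (le_of_lt hs) (H77.Dt L s x v)
    rw [real_inner_comm] at h3
    have h4 := Real.exp_pos (-2 * ∫ r in (0 : ℝ)..s, p r)
    nlinarith
  have h5 := hmono (mem_Ici.2 le_rfl) (mem_Ici.2 ht) ht
  simp only [intervalIntegral.integral_same, mul_zero, Real.exp_zero, mul_one, H77.Dt_zero] at h5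
  have h6 : ‖H77.Dt L t x v‖ ^ 2 ≤ (Real.exp (∫ s in (0 : ℝ)..t, p s) * ‖v‖) ^ 2 := by
    have h7 : Real.exp (-2 * ∫ s in (0 : ℝ)..t, p s) * Real.exp (∫ s in (0 : ℝ)..t, p s) ^ 2 =
        1 := by
      rw [← Real.exp_nat_mul, ← Real.exp_add, Real.exp_eq_one_iff]
      push_cast; ring
    have h8 : ‖H77.Dt L t x v‖ ^ 2 = (‖H77.Dt L t x v‖ ^ 2 *
        Real.exp (-2 * ∫ s in (0 : ℝ)..t, p s)) * Real.exp (∫ s in (0 : ℝ)..t, p s) ^ 2 := by
      rw [mul_assoc, h7, mul_one]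
    rw [h8, mul_pow, mul_comm (Real.exp (∫ s in (0 : ℝ)..t, p s) ^ 2)]
    gcongr
    exact h5
  exact le_of_sq_le_sq h6 (by positivity)

omit [Dim] in
/-- a constant is absorbed by a linear function -/
theorem exists_lin (D : ℝ) {δ : ℝ} (hδ : 0 < δ) : ∃ T : ℝ, 0 < T ∧ ∀ t, T ≤ t →
    D ≤ δ * t := by
  refine ⟨max 1 (D / δ), lt_max_of_lt_left one_pos, fun t ht => ?_⟩
  have h1 : D / δ ≤ t := (le_max_right _ _).trans ht
  rw [div_le_iff₀ hδ] at h1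
  linarith

variable [MeasurableSpace B] [BorelSpace B]

/-- **the rates under relative pinching**, with a margin `sl` on both sides -/
theorem rel_rates (M : Metr L) (A : Area L) {ρ : ℝ} (hρ : 1 ≤ ρ)
    (hk : ((Dim.m : ℝ) - 1) * (ρ ^ 2 - 2) < ρ) (hR : RelM M ρ) :
    ∃ a' b' sl T : ℝ, 0 < a' ∧ a' ≤ b' ∧ b' < 2 * a' ∧ 0 < sl ∧ 0 < T ∧ ∀ t, T ≤ t → ∀ x v,
      Real.exp ((a' + sl) * t) * ‖v‖ ≤ ‖H77.Dt L t x v‖ ∧
      ‖H77.Dt L t x v‖ ≤ Real.exp ((b' - sl) * t) * ‖v‖ := by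
  obtain ⟨x₀⟩ := L.nonempty
  obtain ⟨v₀, hv₀⟩ := exists_ne (0 : E2)
  -- it suffices to have the rates without margin
  suffices h : ∃ a₁ b₁ T : ℝ, b₁ < 2 * a₁ ∧ 0 < T ∧ ∀ t, T ≤ t → ∀ x v,
      Real.exp (a₁ * t) * ‖v‖ ≤ ‖H77.Dt L t x v‖ ∧
      ‖H77.Dt L t x v‖ ≤ Real.exp (b₁ * t) * ‖v‖ by
    obtain ⟨a₁, b₁, T, h2, h3, h4⟩ := h
    have h5 := (h4 T le_rfl x₀ v₀).1.trans (h4 T le_rfl x₀ v₀).2
    have h6 := le_of_mul_le_mul_right h5 (norm_pos_iff.2 hv₀)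
    have h7 := Real.exp_le_exp.1 h6
    have h8 : a₁ ≤ b₁ := le_of_mul_le_mul_right h7 h3
    obtain ⟨ε, e1, e2⟩ := exists_between (show 0 < (2 * a₁ - b₁) / 3 by linarith)
    refine ⟨a₁ - ε, b₁ + ε, ε, T, by linarith, by linarith, by linarith, e1, h3,
      fun t ht x v => ?_⟩
    rw [sub_add_cancel, add_sub_cancel_right]
    exact h4 t ht x v
  obtain ⟨C, hC⟩ := hR
  obtain ⟨D₁, D₂, hD₁, hD₂, hdet⟩ := det_bounds A
  obtain ⟨n, hn⟩ : ∃ n, Dim.m = n + 1 := ⟨Dim.m - 1, by have := Dim.two_le; omega⟩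
  have hfin : finrank ℝ E2 = n + 1 := by rw [finrank_euclideanSpace_fin, hn]
  have hm : (Dim.m : ℝ) = n + 1 := by rw [hn]; push_cast; ring
  have hn0 : (0 : ℝ) ≤ n := Nat.cast_nonneg n
  rw [hm, add_sub_cancel_right] at hk
  have hh := A.h_pos
  have hρ0 : 0 < ρ := by linarith
  have hα : 0 < n * ρ + 1 := by positivity
  have hβ : 0 < n + ρ := by positivity
  have hk2 : ρ * (n * ρ + 1) < 2 * (n + ρ) := by nlinarith
  -- the limits of the rates
  obtain ⟨δ, hδ, hδ2⟩ : ∃ δ : ℝ, 0 < δ ∧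
      ρ * A.h / (n + ρ) + δ < 2 * (A.h / (n * ρ + 1) - δ) := by
    have h1 : ρ * A.h / (n + ρ) < 2 * (A.h / (n * ρ + 1)) := by
      rw [div_lt_iff₀ hβ, ← mul_div_assoc, div_mul_eq_mul_div, lt_div_iff₀ hα]
      nlinarith
    refine ⟨(2 * (A.h / (n * ρ + 1)) - ρ * A.h / (n + ρ)) / 4, by linarith, by linarith⟩
  set a₁ := A.h / (n * ρ + 1) - δ with ha₁
  set b₁ := ρ * A.h / (n + ρ) + δ with hb₁
  have ea : (n * ρ + 1) * a₁ = A.h - (n * ρ + 1) * δ := by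
    rw [ha₁]
    field_simp
  have eb : (n + ρ) * b₁ = ρ * A.h + (n + ρ) * δ := by
    rw [hb₁]
    field_simp
  obtain ⟨T₁, hT₁, hT₁'⟩ := exists_lin (n * C - Real.log D₁) (mul_pos hα hδ)
  obtain ⟨T₂, -, hT₂'⟩ := exists_lin (n * C + ρ * Real.log D₂) (mul_pos hβ hδ)
  refine ⟨a₁, b₁, max T₁ T₂, hδ2, lt_max_of_lt_left hT₁, fun t ht x v => ?_⟩
  have ht1 := hT₁' t ((le_max_left _ _).trans ht)
  have ht2 := hT₂' t ((le_max_right _ _).trans ht)
  have ht0 : 0 ≤ t := hT₁.le.trans ((le_max_left _ _).trans ht)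
  rcases eq_or_ne v 0 with rfl | hv
  · simp
  have hv0 : 0 < ‖v‖ := norm_pos_iff.2 hv
  obtain ⟨p, P, hp, hP, hU, hint⟩ := hC x
  have hlow := Dt_ge_int M hp x (fun s hs v => (hU s hs v).1) ht0
  have hupp := Dt_le_int M hP x (fun s hs v => (hU s hs v).2) ht0
  have hS := hint t ht0
  set s := ∫ s in (0 : ℝ)..t, p s with hs
  set S := ∫ s in (0 : ℝ)..t, P s with hS'
  have hDv : 0 < ‖H77.Dt L t x v‖ := (by positivity : 0 < Real.exp s * ‖v‖).trans_le (hlow v)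
  obtain ⟨l, hl⟩ : ∃ l : ℝ, ‖H77.Dt L t x v‖ = Real.exp l * ‖v‖ := by
    refine ⟨Real.log (‖H77.Dt L t x v‖ / ‖v‖), ?_⟩
    rw [Real.exp_log (by positivity)]
    field_simp
  have hd0 : 0 < |(H77.Dt L t x).det| :=
    (by positivity : 0 < D₁ * Real.exp (A.h * t)).trans_le (hdet t x).1
  obtain ⟨d, hd⟩ : ∃ d : ℝ, |(H77.Dt L t x).det| = Real.exp d :=
    ⟨Real.log _, (Real.exp_log hd0).symm⟩
  -- the inequalities between the logarithms
  have i1 : s ≤ l := by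
    have h := hlow v
    rw [hl] at h
    exact Real.exp_le_exp.1 (le_of_mul_le_mul_right h hv0)
  have i2 : l ≤ S := by
    have h := hupp v
    rw [hl] at h
    exact Real.exp_le_exp.1 (le_of_mul_le_mul_right h hv0)
  have i3 : d ≤ n * S + l := by
    have h := abs_det_le hfin hupp v
    rw [hd, hl, ← mul_assoc, ← Real.exp_nat_mul, ← Real.exp_add] at h
    exact Real.exp_le_exp.1 (le_of_mul_le_mul_right h hv0)
  have i4 : n * s + l ≤ d := by
    have h := norm_le_det hfin (Real.exp_pos s) hlow v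
    rw [hd, hl, ← mul_assoc, ← Real.exp_nat_mul, ← Real.exp_add] at h
    exact Real.exp_le_exp.1 (le_of_mul_le_mul_right h hv0)
  have i5 : Real.log D₁ + A.h * t ≤ d := by
    have h := (hdet t x).1
    rw [hd] at h
    nth_rewrite 1 [← Real.exp_log hD₁] at h
    rw [← Real.exp_add] at h
    exact Real.exp_le_exp.1 h
  have i6 : d ≤ Real.log D₂ + A.h * t := by
    have h := (hdet t x).2
    rw [hd] at h
    nth_rewrite 1 [← Real.exp_log hD₂] at h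
    rw [← Real.exp_add] at h
    exact Real.exp_le_exp.1 h
  rw [hl]
  have j1 : n * S ≤ n * (ρ * l + C) := by
    refine mul_le_mul_of_nonneg_left (hS.trans ?_) hn0
    have := mul_le_mul_of_nonneg_left i1 hρ0.le
    linarith
  have j2 : n * l ≤ n * (ρ * s + C) := mul_le_mul_of_nonneg_left (i2.trans hS) hn0
  have j3 : ρ * (n * s + l) ≤ ρ * d := mul_le_mul_of_nonneg_left i4 hρ0.le
  have j4 : ρ * d ≤ ρ * (Real.log D₂ + A.h * t) := mul_le_mul_of_nonneg_left i6 hρ0.le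
  constructor
  · refine mul_le_mul_of_nonneg_right (Real.exp_le_exp.2 ?_) hv0.le
    have h1 : (n * ρ + 1) * (a₁ * t) ≤ (n * ρ + 1) * l := by
      calc (n * ρ + 1) * (a₁ * t) = (n * ρ + 1) * a₁ * t := by ring
        _ = A.h * t - (n * ρ + 1) * δ * t := by rw [ea]; ring
        _ ≤ A.h * t - (n * C - Real.log D₁) := by linarith
        _ ≤ (n * ρ + 1) * l := by nlinarith
    exact le_of_mul_le_mul_left h1 hα
  · refine mul_le_mul_of_nonneg_right (Real.exp_le_exp.2 ?_) hv0.le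
    have h1 : (n + ρ) * l ≤ (n + ρ) * (b₁ * t) := by
      calc (n + ρ) * l ≤ ρ * (Real.log D₂ + A.h * t) + n * C := by nlinarith
        _ ≤ ρ * A.h * t + (n + ρ) * δ * t := by linarith
        _ = (n + ρ) * b₁ * t := by rw [eb]; ring
        _ = _ := by ring
    exact le_of_mul_le_mul_left h1 hβ

end H709

end Vale.Agent.P207.N4
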