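import Vale.Agent.P207.N4.H709.Rat

/-!
# P207: the rates of the unstable derivative from its determinant

`det_rates` : if `a ≤ U ≤ b` and the volume grows like `exp (h t)`, then the norms of the unstable
derivative grow at least like `exp (a' t)` and at most like `exp (b' t)` with `b' < 2 a'`, whenever
`b < 2 a` or `h < (m + 1) a` or `(2 m - 1) b < 2 h`.
-/

open Module Set Filter Topology Metric MeasureTheory
open scoped ContDiff

noncomputable section

namespace Vale.Agent.P207.N4.H709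

/-- Hadamard: the determinant is at most the product of one value and the norms -/
theorem abs_det_le {E : Type*} [NormedAddCommGroup E] [InnerProductSpace ℝ E]
    [FiniteDimensional ℝ E] {n : ℕ} (hn : finrank ℝ E = n + 1) {A : E →L[ℝ] E} {C : ℝ}
    (hA : ∀ v, ‖A v‖ ≤ C * ‖v‖) (v : E) : |A.det| * ‖v‖ ≤ C ^ n * ‖A v‖ := by
  rcases eq_or_ne v 0 with rfl | hv
  · simp
  have hv0 : 0 < ‖v‖ := norm_pos_iff.2 hv
  set e : E := ‖v‖⁻¹ • v with he
  have he1 : ‖e‖ = 1 := by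
    rw [he, norm_smul, norm_inv, norm_norm, inv_mul_cancel₀ hv0.ne']
  have hon : Orthonormal ℝ (({0} : Set (Fin (n + 1))).domRestrict fun _ => e) := by
    refine ⟨fun i => he1, fun i j hij => ?_⟩
    exact absurd (Subsingleton.elim i j) hij
  obtain ⟨b, hb⟩ := hon.exists_orthonormalBasis_extension_of_card_eq
    (by rw [hn, Fintype.card_fin])
  have hb0 : b 0 = e := hb 0 rfl
  have : Fact (finrank ℝ E = n + 1) := ⟨hn⟩
  set o := b.toBasis.orientation with ho
  have h1 : |o.volumeForm (A ∘ b)| ≤ ∏ i, ‖A (b i)‖ := o.abs_volumeForm_apply_le _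
  have h2 : o.volumeForm (A ∘ b) = A.det := by
    rw [o.volumeForm_robust b rfl]
    have h3 := b.toBasis.det_comp (A : E →ₗ[ℝ] E) b.toBasis
    rw [b.toBasis.det_self, mul_one] at h3
    have h4 : ((A : E →ₗ[ℝ] E) ∘ b.toBasis : Fin (n + 1) → E) = A ∘ b := by
      funext i
      simp
    rw [h4] at h3
    exact h3
  rw [h2, Fin.prod_univ_succ, hb0] at h1
  have h5 : ∏ i : Fin n, ‖A (b i.succ)‖ ≤ C ^ n := by
    calc ∏ i : Fin n, ‖A (b i.succ)‖ ≤ ∏ _i : Fin n, C := by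
          refine Finset.prod_le_prod (fun i _ => norm_nonneg _) fun i _ => ?_
          refine (hA _).trans (le_of_eq ?_)
          rw [b.norm_eq_one, mul_one]
      _ = C ^ n := by simp
  have h6 : A e = ‖v‖⁻¹ • A v := by rw [he, map_smul]
  have h7 : ‖A e‖ = ‖v‖⁻¹ * ‖A v‖ := by rw [h6, norm_smul, norm_inv, norm_norm]
  calc |A.det| * ‖v‖ ≤ (‖A e‖ * ∏ i : Fin n, ‖A (b i.succ)‖) * ‖v‖ := by gcongr
    _ ≤ (‖A e‖ * C ^ n) * ‖v‖ := by gcongr
    _ = C ^ n * ‖A v‖ := by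
        rw [h7]
        field_simp

/-- the norm is at most the determinant times the norms of the inverse -/
theorem norm_le_det {E : Type*} [NormedAddCommGroup E] [InnerProductSpace ℝ E]
    [FiniteDimensional ℝ E] {n : ℕ} (hn : finrank ℝ E = n + 1) {A : E →L[ℝ] E} {c : ℝ}
    (hc : 0 < c) (hA : ∀ v, c * ‖v‖ ≤ ‖A v‖) (v : E) : c ^ n * ‖A v‖ ≤ |A.det| * ‖v‖ := by
  have hinj : Function.Injective A := by
    refine (injective_iff_map_eq_zero A).2 fun w hw => ?_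
    have h1 := hA w
    rw [hw, norm_zero] at h1
    exact norm_eq_zero.1 (le_antisymm (by nlinarith [norm_nonneg w]) (norm_nonneg w))
  set e : E ≃ₗ[ℝ] E := LinearEquiv.ofInjectiveEndo (A : E →ₗ[ℝ] E) hinj with he
  set B : E →L[ℝ] E := LinearMap.toContinuousLinearMap (e.symm : E →ₗ[ℝ] E) with hB
  have hBA : ∀ w, B (A w) = w := fun w => e.symm_apply_apply w
  have hAB : ∀ w, A (B w) = w := fun w => e.apply_symm_apply w
  have h1 : ∀ w, ‖B w‖ ≤ c⁻¹ * ‖w‖ := fun w => by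
    have := hA (B w)
    rw [hAB] at this
    rwa [le_inv_mul_iff₀ hc]
  have h2 := abs_det_le hn h1 (A v)
  rw [hBA] at h2
  have h3 : |A.det| * |B.det| = 1 := by
    rw [← abs_mul]
    have h4 : A.det * B.det = 1 := by
      have h5 : LinearMap.det ((A : E →ₗ[ℝ] E) ∘ₗ (B : E →ₗ[ℝ] E)) = 1 := by
        have h6 : (A : E →ₗ[ℝ] E) ∘ₗ (B : E →ₗ[ℝ] E) = LinearMap.id := LinearMap.ext fun w => hAB w
        rw [h6, LinearMap.det_id]
      rw [LinearMap.det_comp] at h5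
      exact h5
    rw [h4, abs_one]
  have h4 : 0 < |A.det| := by
    rcases (abs_nonneg A.det).lt_or_eq with h | h
    · exact h
    · rw [← h, zero_mul] at h3
      exact absurd h3 zero_ne_one
  calc c ^ n * ‖A v‖ = (c ^ n * |A.det|) * (|B.det| * ‖A v‖) := by
        calc _ = c ^ n * (|A.det| * |B.det|) * ‖A v‖ := by rw [h3, mul_one]
          _ = _ := by ring
    _ ≤ (c ^ n * |A.det|) * (c⁻¹ ^ n * ‖v‖) := by gcongr
    _ = |A.det| * ‖v‖ := by
        rw [inv_pow]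
        field_simp


open Vale.Agent.P207.N3 Vale.Agent.P207.N3.H646
open Vale.Agent.P207.N4 Vale.Agent.P207.N4.H646

variable [Dim]

variable {Γ X B : Type} [Group Γ] [MetricSpace X] [ProperSpace X] [MulAction Γ X]
  [IsIsometricSMul Γ X] [TopologicalSpace B] [CompactSpace B] [T2Space B] [MulAction Γ B]
  [ContinuousConstSMul Γ B] [MeasurableSpace B] [BorelSpace B]

variable {L : Leaf Γ X B}

/-- the density at the centre is bounded -/
theorem s_bounds (A : Area L) : ∃ c C : ℝ, 0 < c ∧ ∀ x, c ≤ A.s x 0 ∧ A.s x 0 ≤ C := by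
  obtain ⟨K, hK, hK'⟩ := L.cocompact
  have hz : (0 : E2) ∈ ball (0 : E2) 3 := mem_ball_self (by norm_num)
  have hc : Continuous fun x : X => A.s x 0 := by
    have h1 := A.s_cont 0
    have h2 : ContinuousOn (fun p : X × E2 => A.s p.1 p.2) (univ ×ˢ ball 0 3) := by
      have h3 := (continuousMultilinearCurryFin0 ℝ E2 ℝ).continuous.comp_continuousOn h1
      refine h3.congr fun p hp => ?_
      simp
    exact h2.comp_continuous (by fun_prop : Continuous fun x : X => (x, (0 : E2)))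
      fun x => ⟨mem_univ _, hz⟩
  obtain ⟨x₀⟩ := L.nonempty
  obtain ⟨g₀, hg₀⟩ := hK' x₀
  have hne : K.Nonempty := ⟨_, hg₀⟩
  obtain ⟨y, hy, hmin⟩ := hK.exists_isMinOn hne hc.continuousOn
  obtain ⟨z, hz', hmax⟩ := hK.exists_isMaxOn hne hc.continuousOn
  refine ⟨A.s y 0, A.s z 0, A.s_pos y 0 hz, fun x => ?_⟩
  obtain ⟨g, hg⟩ := hK' x
  rw [← A.s_smul g x 0 hz]
  exact ⟨hmin hg, hmax hg⟩

/-- the determinant of the flow -/
theorem det_eq (A : Area L) (t : ℝ) (x : X) :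
    A.s x 0 = Real.exp (-(A.h * t)) * |(H77.Dt L t x).det| * A.s (L.φ t x) 0 := by
  have h1 := A.s_trans x (L.φ t x) (L.em_φ t x).symm 0 (H77.zero_mem_dm L t x)
  rw [H77.tau_zero, L.lv_φ] at h1
  rw [h1]
  congr 3
  ring

/-- the determinant grows like `exp (h t)` -/
theorem det_bounds (A : Area L) : ∃ D₁ D₂ : ℝ, 0 < D₁ ∧ 0 < D₂ ∧ ∀ t x,
    D₁ * Real.exp (A.h * t) ≤ |(H77.Dt L t x).det| ∧
    |(H77.Dt L t x).det| ≤ D₂ * Real.exp (A.h * t) := by
  obtain ⟨c, C, hc, h⟩ := s_bounds A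
  obtain ⟨x₀⟩ := L.nonempty
  have hC : 0 < C := hc.trans_le ((h x₀).1.trans (h x₀).2)
  refine ⟨c / C, C / c, by positivity, by positivity, fun t x => ?_⟩
  have h1 := det_eq A t x
  have h2 := h x
  have h3 := h (L.φ t x)
  set d := |(H77.Dt L t x).det| with hd
  have hd0 : 0 ≤ d := abs_nonneg _
  have e1 : Real.exp (-(A.h * t)) * Real.exp (A.h * t) = 1 := by
    rw [← Real.exp_add]
    simp
  have e2 : A.s x 0 * Real.exp (A.h * t) = d * A.s (L.φ t x) 0 := by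
    calc A.s x 0 * Real.exp (A.h * t) =
        (Real.exp (-(A.h * t)) * Real.exp (A.h * t)) * (d * A.s (L.φ t x) 0) := by
          rw [h1]
          ring
      _ = _ := by rw [e1, one_mul]
  have hE := Real.exp_pos (A.h * t)
  constructor
  · rw [div_mul_eq_mul_div, div_le_iff₀ hC]
    calc c * Real.exp (A.h * t) ≤ A.s x 0 * Real.exp (A.h * t) := by
          gcongr
          exact h2.1
      _ = d * A.s (L.φ t x) 0 := e2
      _ ≤ d * C := by
          gcongr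
          exact h3.2
  · rw [div_mul_eq_mul_div, le_div_iff₀ hc]
    calc d * c ≤ d * A.s (L.φ t x) 0 := by
          gcongr
          exact h3.1
      _ = A.s x 0 * Real.exp (A.h * t) := e2.symm
      _ ≤ C * Real.exp (A.h * t) := by
          gcongr
          exact h2.2

omit [Dim] in
/-- a constant is absorbed by the exponential function -/
theorem exists_time (D : ℝ) {δ : ℝ} (hδ : 0 < δ) : ∃ T : ℝ, 0 < T ∧ ∀ t, T ≤ t →
    D ≤ Real.exp (δ * t) := by
  refine ⟨max 1 (D / δ), lt_max_of_lt_left one_pos, fun t ht => ?_⟩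
  have h1 : D / δ ≤ t := (le_max_right _ _).trans ht
  rw [div_le_iff₀ hδ] at h1
  have h2 := Real.add_one_le_exp (δ * t)
  linarith

/-- **the rates from the determinant** -/
theorem det_rates (M : Metr L) (A : Area L) {a b : ℝ} (ha : 0 < a)
    (hlo : ∀ x v, a * ‖v‖ ^ 2 ≤ inner ℝ (M.U x v) v)
    (hhi : ∀ x v, inner ℝ (M.U x v) v ≤ b * ‖v‖ ^ 2)
    (hQ : b < 2 * a ∨ A.h < (Dim.m + 1) * a ∨ (2 * Dim.m - 1) * b < 2 * A.h) :
    ∃ a' b' T : ℝ, 0 < a' ∧ a' ≤ b' ∧ b' < 2 * a' ∧ 0 < T ∧ ∀ t, T ≤ t → ∀ x v,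
      Real.exp (a' * t) * ‖v‖ ≤ ‖H77.Dt L t x v‖ ∧
      ‖H77.Dt L t x v‖ ≤ Real.exp (b' * t) * ‖v‖ := by
  obtain ⟨x₀⟩ := L.nonempty
  obtain ⟨v₀, hv₀⟩ := exists_ne (0 : E2)
  -- it suffices to have the rates without `a' ≤ b'`
  suffices h : ∃ a' b' T : ℝ, 0 < a' ∧ b' < 2 * a' ∧ 0 < T ∧ ∀ t, T ≤ t → ∀ x v,
      Real.exp (a' * t) * ‖v‖ ≤ ‖H77.Dt L t x v‖ ∧
      ‖H77.Dt L t x v‖ ≤ Real.exp (b' * t) * ‖v‖ by
    obtain ⟨a', b', T, h1, h2, h3, h4⟩ := h
    refine ⟨a', b', T, h1, ?_, h2, h3, h4⟩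
    have h5 := (h4 T le_rfl x₀ v₀).1.trans (h4 T le_rfl x₀ v₀).2
    have h6 := le_of_mul_le_mul_right h5 (norm_pos_iff.2 hv₀)
    have h7 := Real.exp_le_exp.1 h6
    exact le_of_mul_le_mul_right h7 h3
  have hlow : ∀ t, 0 ≤ t → ∀ x v, Real.exp (a * t) * ‖v‖ ≤ ‖H77.Dt L t x v‖ :=
    fun t ht x v => Dt_ge M hlo x ht v
  have hupp : ∀ t, 0 ≤ t → ∀ x v, ‖H77.Dt L t x v‖ ≤ Real.exp (b * t) * ‖v‖ :=
    fun t ht x v => H77.Dt_le M hhi x ht v
  obtain ⟨D₁, D₂, hD₁, hD₂, hdet⟩ := det_bounds A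
  obtain ⟨n, hn⟩ : ∃ n, Dim.m = n + 1 := ⟨Dim.m - 1, by have := Dim.two_le; omega⟩
  have hfin : finrank ℝ E2 = n + 1 := by rw [finrank_euclideanSpace_fin, hn]
  have hm : (Dim.m : ℝ) = n + 1 := by rw [hn]; push_cast; ring
  rcases hQ with hQ | hQ | hQ
  · exact ⟨a, b, 1, ha, hQ, one_pos, fun t ht x v =>
      ⟨hlow t (by linarith) x v, hupp t (by linarith) x v⟩⟩
  · -- the upper rate from the determinant
    obtain ⟨b', h1, h2⟩ := exists_between (show A.h - n * a < 2 * a by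
      rw [hm] at hQ
      linarith)
    obtain ⟨T, hT, hT'⟩ := exists_time D₂ (show 0 < b' - (A.h - n * a) by linarith)
    refine ⟨a, b', T, ha, h2, hT, fun t ht x v => ⟨hlow t (by linarith) x v, ?_⟩⟩
    have ht0 : 0 ≤ t := by linarith
    have h3 := norm_le_det hfin (Real.exp_pos (a * t)) (hlow t ht0 x) v
    have h4 := (hdet t x).2
    have h5 := hT' t ht
    have h6 : Real.exp (a * t) ^ n * ‖H77.Dt L t x v‖ ≤
        Real.exp (a * t) ^ n * (Real.exp (b' * t) * ‖v‖) := by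
      calc _ ≤ |(H77.Dt L t x).det| * ‖v‖ := h3
        _ ≤ (D₂ * Real.exp (A.h * t)) * ‖v‖ := by gcongr
        _ ≤ (Real.exp ((b' - (A.h - n * a)) * t) * Real.exp (A.h * t)) * ‖v‖ := by gcongr
        _ = _ := by
          rw [← Real.exp_nat_mul, ← mul_assoc, ← Real.exp_add, ← Real.exp_add]
          congr 2
          ring
    exact le_of_mul_le_mul_left h6 (by positivity)
  · -- the lower rate from the determinant
    have hb : 0 < b := by
      have h1 := (hlo x₀ v₀).trans (hhi x₀ v₀)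
      exact ha.trans_le (le_of_mul_le_mul_right h1 (by positivity))
    obtain ⟨a', h1, h2⟩ := exists_between (show b / 2 < A.h - n * b by
      rw [hm] at hQ
      linarith)
    obtain ⟨T, hT, hT'⟩ := exists_time D₁⁻¹ (show 0 < (A.h - n * b) - a' by linarith)
    refine ⟨a', b, T, by linarith, by linarith, hT, fun t ht x v => ⟨?_, hupp t (by linarith) x v⟩⟩
    have ht0 : 0 ≤ t := by linarith
    have h3 := abs_det_le hfin (hupp t ht0 x) v
    have h4 := (hdet t x).1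
    have h5 := hT' t ht
    have e1 : Real.exp (A.h * t) = Real.exp (((A.h - n * b) - a') * t) * Real.exp (b * t) ^ n *
        Real.exp (a' * t) := by
      rw [← Real.exp_nat_mul, ← Real.exp_add, ← Real.exp_add]
      congr 1
      ring
    have h6 : Real.exp (b * t) ^ n * (Real.exp (a' * t) * ‖v‖) ≤
        Real.exp (b * t) ^ n * ‖H77.Dt L t x v‖ := by
      calc _ = (1 * Real.exp (b * t) ^ n * Real.exp (a' * t)) * ‖v‖ := by ring
        _ = (D₁ * D₁⁻¹ * Real.exp (b * t) ^ n * Real.exp (a' * t)) * ‖v‖ := by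
          rw [mul_inv_cancel₀ hD₁.ne']
        _ ≤ (D₁ * Real.exp (((A.h - n * b) - a') * t) * Real.exp (b * t) ^ n *
            Real.exp (a' * t)) * ‖v‖ := by gcongr
        _ = (D₁ * Real.exp (A.h * t)) * ‖v‖ := by
          rw [e1]
          ring
        _ ≤ |(H77.Dt L t x).det| * ‖v‖ := by gcongr
        _ ≤ _ := h3
    exact le_of_mul_le_mul_left h6 (by positivity)

/-- **the rates from the determinant**, with a margin `sl` on both sides -/
theorem det_rates_sl (M : Metr L) (A : Area L) {a b : ℝ} (ha : 0 < a)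
    (hlo : ∀ x v, a * ‖v‖ ^ 2 ≤ inner ℝ (M.U x v) v)
    (hhi : ∀ x v, inner ℝ (M.U x v) v ≤ b * ‖v‖ ^ 2)
    (hQ : b < 2 * a ∨ A.h < (Dim.m + 1) * a ∨ (2 * Dim.m - 1) * b < 2 * A.h) :
    ∃ a' b' sl T : ℝ, 0 < a' ∧ a' ≤ b' ∧ b' < 2 * a' ∧ 0 < sl ∧ 0 < T ∧ ∀ t, T ≤ t → ∀ x v,
      Real.exp ((a' + sl) * t) * ‖v‖ ≤ ‖H77.Dt L t x v‖ ∧
      ‖H77.Dt L t x v‖ ≤ Real.exp ((b' - sl) * t) * ‖v‖ := by
  obtain ⟨a₁, b₁, T, h1, h2, h3, h4, h5⟩ := det_rates M A ha hlo hhi hQ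
  obtain ⟨ε, e1, e2⟩ := exists_between (show 0 < (2 * a₁ - b₁) / 3 by linarith)
  refine ⟨a₁ - ε, b₁ + ε, ε, T, by linarith, by linarith, by linarith, e1, h4, fun t ht x v => ?_⟩
  rw [sub_add_cancel, add_sub_cancel_right]
  exact h5 t ht x v

end Vale.Agent.P207.N4.H709
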