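import Vale.Agent.P207.N4.Dim
import Vale.Agent.P207.N4.H709.Dens

/-!
# P207, line N3: the action on the boundary; every orbit is dense
-/

open Set Filter Topology Metric Real
open Vale.Agent.P207.N4.H728 Vale.Agent.P207.N3.H728

noncomputable section

namespace Vale.Agent.P207.N4.H709

open Vale.Agent.P207.N3 Vale.Agent.P207.N3.H709

variable [Dim]

variable {Y : Type*} [MetricSpace Y] [ProperSpace Y] (H : Had Y)
variable {Γ : Type*} [Group Γ] [MulAction Γ Y] [IsIsometricSMul Γ Y] (o : Y)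

/-- the action on the boundary -/
def act (g : Γ) (ξ : Bd o) : Bd o := H.ep o (g • ξ.ln)

theorem ep_smul (g : Γ) (c : Ln Y) : H.ep o (g • c) = act H o g (H.ep o c) :=
  (H.ep_eq_iff o).2 (smul_asy g (H.asy_ep o c))

theorem em_smul (g : Γ) (c : Ln Y) : H.em o (g • c) = act H o g (H.em o c) := by
  unfold Had.em
  rw [← smul_flip, ep_smul]

theorem act_one (ξ : Bd o) : act H o (1 : Γ) ξ = ξ := by
  unfold act
  rw [one_smul, H.ep_self]

theorem act_mul (g h : Γ) (ξ : Bd o) : act H o (g * h) ξ = act H o g (act H o h ξ) := by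
  conv_lhs => unfold act
  rw [mul_smul, ep_smul, ep_smul, H.ep_self]

theorem continuous_act (g : Γ) : Continuous (act H o g) :=
  (H.continuous_ep o).comp ((continuous_const_smul g).comp Bd.continuous_ln)

/-- the action on the boundary -/
@[reducible] def bdAction : MulAction Γ (Bd o) where
  smul := act H o
  one_smul := act_one H o
  mul_smul := act_mul H o

theorem bdAction_continuous :
    @ContinuousConstSMul Γ (Bd o) inferInstance (bdAction H o).toSMul :=
  letI := bdAction (Γ := Γ) H o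
  ⟨fun g => continuous_act H o g⟩

/-- transformation of the Busemann functions -/
theorem bus_act (g : Γ) (ξ : Bd o) (x : Y) :
    bus (act H o g ξ).ln (g • x) = bus ξ.ln x - bus ξ.ln (g⁻¹ • o) := by
  have h := H.bus_change (H.asy_ep o (g • ξ.ln)) (g • x)
  rw [bus_smul, (H.ep o (g • ξ.ln)).ln_zero] at h
  have h2 : bus (g • ξ.ln) o = bus ξ.ln (g⁻¹ • o) := by
    have h3 := bus_smul g ξ.ln (g⁻¹ • o)
    rwa [smul_inv_smul] at h3
  rw [h2] at h
  exact h

theorem lvl_smul (g : Γ) (c : Ln Y) :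
    H.lvl o (g • c) = H.lvl o c - bus (H.em o c).ln (g⁻¹ • o) := by
  unfold Had.lvl
  rw [em_smul, smul_ln_apply, bus_act]

theorem lvl_smul_sub (g : Γ) {c c' : Ln Y} (h : H.em o c = H.em o c') :
    H.lvl o (g • c) - H.lvl o (g • c') = H.lvl o c - H.lvl o c' := by
  rw [lvl_smul, lvl_smul, h]
  ring

/-! ### no fixed point -/

section Axis

omit [ProperSpace Y]

theorem pow_axis {β : Γ} {c : Ln Y} {l : ℝ} (h : β • c = c.φ l) (n : ℕ) :
    β ^ n • c = c.φ (n * l) := by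
  induction n with
  | zero => rw [pow_zero, one_smul, Nat.cast_zero, zero_mul, Ln.φ_zero]
  | succ n ih =>
    rw [pow_succ, mul_smul, h, smul_φ, ih, ← Ln.φ_add]
    congr 1
    push_cast
    ring

theorem inv_axis {β : Γ} {c : Ln Y} {l : ℝ} (h : β • c = c.φ l) :
    β⁻¹ • c.flip = c.flip.φ l := by
  have h1 : β⁻¹ • c = c.φ (-l) := by
    rw [inv_smul_eq_iff, smul_φ, h, ← Ln.φ_add, neg_add_cancel, Ln.φ_zero]
  rw [smul_flip, h1, Ln.flip_φ, neg_neg]

/-- two lines translated by the same amount by one element are asymptotic -/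
theorem asy_of_axis {β : Γ} {c d : Ln Y} {l : ℝ} (hl : 0 < l) (hc : β • c = c.φ l)
    (hd : β • d = d.φ l) : Asy c d := by
  refine ⟨dist (c 0) (d 0) + 2 * l, fun t ht => ?_⟩
  set n : ℕ := ⌊t / l⌋₊ with hn
  have h1 : (n : ℝ) ≤ t / l := Nat.floor_le (by positivity)
  have h2 : t / l < n + 1 := Nat.lt_floor_add_one _
  rw [le_div_iff₀ hl] at h1
  rw [div_lt_iff₀ hl] at h2
  set r := t - n * l with hr
  have hr0 : 0 ≤ r := by linarith
  have hrl : r ≤ l := by linarith
  have e1 : ∀ c : Ln Y, β • c = c.φ l → c t = β ^ n • c r := by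
    intro c hc
    have h3 := pow_axis hc n
    have h4 : (β ^ n • c) r = (c.φ (n * l)) r := by rw [h3]
    rw [smul_ln_apply, Ln.φ_apply] at h4
    rw [h4]
    congr 1
    rw [hr]; ring
  rw [e1 c hc, e1 d hd, dist_smul]
  calc dist (c r) (d r) ≤ dist (c r) (c 0) + dist (c 0) (d 0) + dist (d 0) (d r) :=
        dist_triangle4 _ _ _ _
    _ = r + dist (c 0) (d 0) + r := by
        rw [Ln.dist_eq, Ln.dist_eq, sub_zero, zero_sub, abs_neg, abs_of_nonneg hr0]
    _ ≤ _ := by linarith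

end Axis

/-- the fixed points of an axial element -/
theorem fixed_axis {β : Γ} {c : Ln Y} {l : ℝ} (hl : 0 < l) (hc : β • c = c.φ l) {η : Bd o}
    (hη : act H o β η = η) : η = H.em o c ∨ η = H.ep o c := by
  by_cases h : H.em o c = η
  · exact Or.inl h.symm
  right
  obtain ⟨d, hd1, hd2, -⟩ := H.exists_join h
  have h1 : H.em o d = H.em o (β • d) := by
    rw [em_smul, hd1, ← em_smul, hc, H.em_φ]
  have h2 : H.ep o d = H.ep o (β • d) := by rw [ep_smul, hd2, hη]
  set s := H.lvl o (β • d) - H.lvl o d with hs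
  have h3 : β • d = d.φ s := H.exists_φ o h1 h2
  obtain ⟨C, hC⟩ := (H.em_eq_iff o).1 hd1
  -- `s = l`
  have key : ∀ n : ℕ, n * |l - s| ≤ C + dist (c 0) (d 0) := by
    intro n
    have h4 := hC (n * l) (by positivity)
    rw [Ln.flip_apply, Ln.flip_apply, dist_comm] at h4
    have e1 : β ^ n • c (-(n * l)) = c 0 := by
      have h5 : (β ^ n • c) (-(n * l)) = (c.φ (n * l)) (-(n * l)) := by rw [pow_axis hc n]
      rwa [smul_ln_apply, Ln.φ_apply, neg_add_cancel] at h5
    have e2 : β ^ n • d (-(n * s)) = d 0 := by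
      have h5 : (β ^ n • d) (-(n * s)) = (d.φ (n * s)) (-(n * s)) := by rw [pow_axis h3 n]
      rwa [smul_ln_apply, Ln.φ_apply, neg_add_cancel] at h5
    have h6 : dist (c (-(n * l))) (d (-(n * s))) = dist (c 0) (d 0) := by
      rw [← dist_smul (β ^ n), e1, e2]
    have h7 : dist (d (-(n * l))) (d (-(n * s))) = n * |l - s| := by
      rw [Ln.dist_eq]
      have : -(n * l) - -(n * s) = -(n * (l - s)) := by ring
      rw [this, abs_neg, abs_mul, Nat.abs_cast]
    calc (n : ℝ) * |l - s| = dist (d (-(n * l))) (d (-(n * s))) := h7.symm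
      _ ≤ dist (d (-(n * l))) (c (-(n * l))) + dist (c (-(n * l))) (d (-(n * s))) :=
          dist_triangle _ _ _
      _ ≤ _ := by rw [h6, dist_comm]; linarith
  have hsl : s = l := by
    by_contra hne
    have hpos : 0 < |l - s| := abs_pos.2 (sub_ne_zero.2 (Ne.symm hne))
    obtain ⟨n, hn⟩ := exists_nat_gt ((C + dist (c 0) (d 0)) / |l - s|)
    rw [div_lt_iff₀ hpos] at hn
    linarith [key n]
  rw [hsl] at h3
  rw [← hd2]
  exact (H.ep_eq_iff o).2 (asy_of_axis hl hc h3).symm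

omit [ProperSpace Y] in
theorem comm_aux {G : Type*} [Group G] (B M γ : G)
    (h : M⁻¹ * γ * M = (B * M)⁻¹ * γ * (B * M)) : B * γ = γ * B := by
  have h1 : M⁻¹ * γ * M = M⁻¹ * (B⁻¹ * γ * B) * M := by rw [h]; group
  have h2 : γ = B⁻¹ * γ * B := by
    have h3 := congrArg (fun x => M * x * M⁻¹) h1
    simpa [mul_assoc] using h3
  calc B * γ = B * (B⁻¹ * γ * B) := by rw [← h2]
    _ = γ * B := by group

/-- in a discrete group, an element which fixes one end of an axis fixes the other one -/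
theorem other_end (hpr : ∀ K : Set Y, IsCompact K → {g : Γ | ∃ y ∈ K, g • y ∈ K}.Finite)
    {β γ : Γ} {c : Ln Y} {l : ℝ} (hl : 0 < l) (hc : β • c = c.φ l)
    (hγ : H.ep o (γ • c) = H.ep o c) : H.em o (γ • c) = H.em o c := by
  have ha := H.a_pos
  have hasy : Asy c (γ • c) := (H.ep_eq_iff o).1 hγ.symm
  set u := bus c ((γ • c) 0) with hu
  have h0 : bus c (((γ • c).φ u) 0) = 0 := by
    rw [Ln.φ_apply, zero_add, H.bus_asy hasy, ← hu, sub_self]
  have hasy' : Asy c ((γ • c).φ u) := hasy.trans (Asy.shift u _)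
  set C := H.κ (dist (c 0) ((γ • c).φ u 0)) with hC
  have hC0 : 0 ≤ C := H.κ_nonneg dist_nonneg
  have hdec : ∀ s : ℝ, 0 ≤ s → dist (c s) ((γ • c) (s + u)) ≤ C := by
    intro s hs
    have h1 := H.decay_κ hasy' h0 hs le_rfl
    rw [Ln.φ_apply] at h1
    refine h1.trans ?_
    have h2 : exp (-(H.a * s)) ≤ 1 := exp_le_one_iff.2 (by
      have := mul_nonneg ha.le hs
      linarith)
    calc C * exp (-(H.a * s)) ≤ C * 1 := mul_le_mul_of_nonneg_left h2 hC0
      _ = C := mul_one C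
  set K : Set Y := closedBall (c 0) (C + |u|) with hK
  have hfin := hpr K (isCompact_closedBall _ _)
  have hmem : ∀ n : ℕ, (β ^ n)⁻¹ * γ * β ^ n ∈ {g : Γ | ∃ y ∈ K, g • y ∈ K} := by
    intro n
    refine ⟨c u, ?_, ?_⟩
    · rw [hK, mem_closedBall, Ln.dist_eq, sub_zero]
      linarith
    · have e1 : β ^ n • c u = c (n * l + u) := by
        have h5 : (β ^ n • c) u = (c.φ (n * l)) u := by rw [pow_axis hc n]
        rw [smul_ln_apply, Ln.φ_apply] at h5
        rw [h5, add_comm]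
      have e2 : (β ^ n)⁻¹ • c (n * l) = c 0 := by
        rw [inv_smul_eq_iff]
        have h5 : (β ^ n • c) 0 = (c.φ (n * l)) 0 := by rw [pow_axis hc n]
        rw [smul_ln_apply, Ln.φ_apply, zero_add] at h5
        exact h5.symm
      rw [mul_smul, mul_smul, e1, hK, mem_closedBall, dist_comm]
      calc dist (c 0) ((β ^ n)⁻¹ • γ • c (n * l + u))
          = dist ((β ^ n)⁻¹ • c (n * l)) ((β ^ n)⁻¹ • γ • c (n * l + u)) := by rw [e2]
        _ = dist (c (n * l)) ((γ • c) (n * l + u)) := by rw [dist_smul, smul_ln_apply]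
        _ ≤ C := hdec _ (by positivity)
        _ ≤ C + |u| := by linarith [abs_nonneg u]
  obtain ⟨m, n, hmn, he⟩ := Set.Finite.exists_lt_map_eq_of_forall_mem hmem hfin
  set k := n - m with hk
  have hk0 : 0 < k := Nat.sub_pos_of_lt hmn
  have hnk : n = k + m := (Nat.sub_add_cancel hmn.le).symm
  have hcomm : β ^ k * γ = γ * β ^ k := by
    have h1 : (β ^ m)⁻¹ * γ * β ^ m = (β ^ n)⁻¹ * γ * β ^ n := he
    rw [hnk, pow_add] at h1
    exact comm_aux _ _ _ h1
  have hkl : 0 < (k : ℝ) * l := mul_pos (Nat.cast_pos.2 hk0) hl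
  have h1 : β ^ k • c = c.φ (k * l) := pow_axis hc k
  have h2 : β ^ k • (γ • c) = (γ • c).φ (k * l) := by
    rw [← mul_smul, hcomm, mul_smul, h1, smul_φ]
  exact (H.em_eq_iff o).2 (asy_of_axis hkl (inv_axis h1) (inv_axis h2)).symm

omit [ProperSpace Y] in
include H in
/-- a line which stays near the line `c` (future end) -/
theorem near_line {c d : Ln Y} (h0 : d 0 = c 0) {R : ℝ} {s : ℕ → ℝ}
    (hs : ∃ᶠ n : ℕ in atTop, 0 ≤ s n ∧ dist (d n) (c (s n)) ≤ R) : d = c := by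
  have ha := H.a_pos
  by_contra hne
  have h1 : d 1 ≠ c 1 := fun h => hne (H.line_unique one_pos h0 h)
  set X := cosh (H.a * dist (d 1) (c 1)) - 1 with hX
  have hX0 : 0 < X := by
    have := one_lt_cosh.2 (mul_pos ha (dist_pos.2 h1)).ne'
    linarith
  set B := sinh H.a ^ 2 * cosh (H.a * R) with hB
  obtain ⟨N, hN⟩ := exists_nat_gt (max (R + 1) (B / (H.a * H.a * X)))
  have hev : ∀ᶠ n : ℕ in atTop, (N : ℝ) ≤ n := by
    filter_upwards [eventually_ge_atTop N] with n hn using Nat.cast_le.2 hn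
  obtain ⟨n, ⟨hn0, hnR⟩, hNn⟩ := (hs.and_eventually hev).exists
  have hR0 : 0 ≤ R := dist_nonneg.trans hnR
  have hn1 : R + 1 < n := (le_max_left _ _).trans_lt (hN.trans_le hNn)
  have hn2 : B / (H.a * H.a * X) < n := (le_max_right _ _).trans_lt (hN.trans_le hNn)
  have hsn : 1 ≤ s n := by
    have h2 := dist_triangle_right (d 0) (d n) (c (s n))
    rw [Ln.dist_eq, zero_sub, abs_neg, h0, Ln.dist_eq, zero_sub, abs_neg, abs_of_nonneg hn0,
      abs_of_nonneg (by linarith)] at h2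
    linarith
  have h3 := ang' H h0 zero_le_one (l := (n : ℝ)) (l' := s n) (by linarith) hsn
  rw [mul_one] at h3
  have h4 : cosh (H.a * dist (d n) (c (s n))) ≤ cosh (H.a * R) := by
    rw [cosh_le_cosh, abs_of_nonneg (by positivity), abs_of_nonneg (by positivity)]
    exact mul_le_mul_of_nonneg_left hnR ha.le
  have h5 : H.a * n ≤ sinh (H.a * n) := le_sinh (by positivity)
  have h6 : H.a * 1 ≤ sinh (H.a * s n) :=
    (mul_le_mul_of_nonneg_left hsn ha.le).trans (le_sinh (by positivity))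
  have h7 : (H.a * n) * (H.a * 1) * X ≤ B := by
    calc (H.a * n) * (H.a * 1) * X ≤ sinh (H.a * n) * sinh (H.a * s n) * X := by
          refine mul_le_mul_of_nonneg_right (mul_le_mul h5 h6 (by positivity) ?_) hX0.le
          exact (by positivity : (0 : ℝ) ≤ H.a * n).trans h5
      _ ≤ sinh H.a ^ 2 * cosh (H.a * dist (d n) (c (s n))) := h3
      _ ≤ B := mul_le_mul_of_nonneg_left h4 (sq_nonneg _)
  rw [div_lt_iff₀ (by positivity)] at hn2
  nlinarith

include H in
/-- a cocompact group with an invariant line: every line is asymptotic to it -/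
theorem all_asy (hco : ∃ K : Set Y, IsCompact K ∧ ∀ y, ∃ g : Γ, g • y ∈ K) {c : Ln Y}
    (hinv : ∀ γ : Γ, ∃ s, γ • c = c.φ s) (d : Ln Y) : Asy c d ∨ Asy c.flip d := by
  obtain ⟨K, hK, hcov⟩ := hco
  obtain ⟨R, hR⟩ := hK.isBounded.subset_closedBall (c 0)
  have hnear : ∀ y, ∃ s, dist y (c s) ≤ R := by
    intro y
    obtain ⟨g, hg⟩ := hcov y
    obtain ⟨s, hs⟩ := hinv g⁻¹
    refine ⟨s, ?_⟩
    have h1 : g⁻¹ • c 0 = c s := by
      rw [← smul_ln_apply, hs, Ln.φ_apply, zero_add]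
    rw [← h1, ← dist_smul g, smul_inv_smul]
    exact hR hg
  set d' := H.ray (c 0) d with hd'
  have h0 : d' 0 = c 0 := H.ray_zero _ _
  have hdd : Asy d d' := H.ray_asy _ _
  choose s hs using fun n : ℕ => hnear (d' n)
  have hfreq : ∃ᶠ n : ℕ in atTop, 0 ≤ s n ∨ s n ≤ 0 :=
    Filter.Frequently.of_forall fun n => le_total 0 (s n)
  rw [frequently_or_distrib] at hfreq
  rcases hfreq with h | h
  · left
    have h2 : d' = c := near_line H h0 (h.mono fun n hn => ⟨hn, hs n⟩)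
    rw [← h2]
    exact hdd.symm
  · right
    have h2 : d' = c.flip := by
      refine near_line H (s := fun n => -s n) (R := R) ?_ (h.mono fun n hn => ⟨?_, ?_⟩)
      · rw [h0, Ln.flip_apply, neg_zero]
      · linarith
      · rw [Ln.flip_apply, neg_neg]; exact hs n
    rw [← h2]
    exact hdd.symm

/-- **no global fixed point** on the boundary -/
theorem exists_not_fixed (hco : ∃ K : Set Y, IsCompact K ∧ ∀ y, ∃ g : Γ, g • y ∈ K)
    (hpr : ∀ K : Set Y, IsCompact K → {g : Γ | ∃ y ∈ K, g • y ∈ K}.Finite)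
    (hfree : ∀ (g : Γ) (y : Y), g • y = y → g = 1)
    (nd : ∃ ξ₁ ξ₂ ξ₃ : Bd o, ξ₁ ≠ ξ₂ ∧ ξ₁ ≠ ξ₃ ∧ ξ₂ ≠ ξ₃) (η : Bd o) :
    ∃ γ : Γ, act H o γ η ≠ η := by
  by_contra hcon
  push Not at hcon
  obtain ⟨ξ₁, ξ₂, ξ₃, h12, h13, h23⟩ := nd
  have : Nonempty Y := ⟨o⟩
  -- a nontrivial element
  have hne : ∃ β : Γ, β ≠ 1 := by
    by_contra h1
    push Not at h1
    obtain ⟨K, hK, hcov⟩ := hco
    obtain ⟨R, hR⟩ := hK.isBounded.subset_closedBall (ξ₁.ln 0)
    obtain ⟨g, hg⟩ := hcov (ξ₁.ln (|R| + 1))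
    rw [h1 g, one_smul] at hg
    have h2 := hR hg
    rw [mem_closedBall, Ln.dist_eq, sub_zero, abs_of_nonneg (by positivity)] at h2
    linarith [le_abs_self R]
  obtain ⟨β, hβ⟩ := hne
  obtain ⟨c, l, hl, hc⟩ := exists_axis H hco hpr hfree hβ
  -- both ends of the axis are fixed by `Γ`
  have main : ∀ (β : Γ) (c : Ln Y), β • c = c.φ l → η = H.ep o c →
      ∀ γ : Γ, H.em o (γ • c) = H.em o c ∧ H.ep o (γ • c) = H.ep o c := by
    intro β c hc he γ
    have h1 : H.ep o (γ • c) = H.ep o c := by rw [ep_smul, ← he, hcon]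
    exact ⟨other_end H o hpr hl hc h1, h1⟩
  have hends : ∀ γ : Γ, H.em o (γ • c) = H.em o c ∧ H.ep o (γ • c) = H.ep o c := by
    rcases fixed_axis H o hl hc (hcon β) with h | h
    · intro γ
      have h1 := main β⁻¹ c.flip (inv_axis hc) (by rw [H.ep_flip, h]) γ
      rw [smul_flip, H.em_flip, H.em_flip, H.ep_flip, H.ep_flip] at h1
      exact ⟨h1.2, h1.1⟩
    · exact main β c hc h
  have hinv : ∀ γ : Γ, ∃ s, γ • c = c.φ s := fun γ =>
    ⟨_, H.exists_φ o (hends γ).1.symm (hends γ).2.symm⟩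
  have hall : ∀ ξ : Bd o, ξ = H.ep o c ∨ ξ = H.em o c := by
    intro ξ
    rcases all_asy H hco hinv ξ.ln with h | h
    · left; exact (H.eq_ep h).symm
    · right; exact (H.eq_em h).symm
  rcases hall ξ₁ with h1 | h1 <;> rcases hall ξ₂ with h2 | h2 <;> rcases hall ξ₃ with h3 | h3
  all_goals first
    | exact h12 (h1.trans h2.symm)
    | exact h13 (h1.trans h3.symm)
    | exact h23 (h2.trans h3.symm)

/-- **Every orbit on the boundary is dense.** -/
theorem dense_orbit (hco : ∃ K : Set Y, IsCompact K ∧ ∀ y, ∃ g : Γ, g • y ∈ K)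
    (hpr : ∀ K : Set Y, IsCompact K → {g : Γ | ∃ y ∈ K, g • y ∈ K}.Finite)
    (hfree : ∀ (g : Γ) (y : Y), g • y = y → g = 1)
    (nd : ∃ ξ₁ ξ₂ ξ₃ : Bd o, ξ₁ ≠ ξ₂ ∧ ξ₁ ≠ ξ₃ ∧ ξ₂ ≠ ξ₃) (η : Bd o) :
    Dense (range fun g : Γ => act H o g η) := by
  obtain ⟨γ, hγ⟩ := exists_not_fixed H o hco hpr hfree nd η
  intro ξ
  have h1 : ¬ Asy η.ln (γ • η.ln) := fun h => hγ (H.eq_ep h.symm)
  have h2 := dense_of_not_fixed H hco h1 o ξ.ln
  have hI : IsInducing (Bd.ln : Bd o → Ln Y) := ⟨rfl⟩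
  rw [hI.closure_eq_preimage_closure_image, mem_preimage]
  have h3 : ξ.ln = H.ray o ξ.ln := by
    have := congrArg Bd.ln (H.ep_self o ξ)
    rw [H.ep_ln] at this
    exact this.symm
  rw [h3]
  refine closure_mono ?_ h2
  rintro _ ⟨g, rfl⟩
  exact ⟨act H o g η, ⟨g, rfl⟩, rfl⟩

end Vale.Agent.P207.N4.H709
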