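import Vale.Agent.P207.N4.H709.ClkR

/-!
# P207: pointwise bunching from bunching along each orbit

`bunM_of_each` : if for each frame there is a time at which the largest expansion of the unstable
derivative is less than the square of the smallest one, then there is such a time which does not
depend on the frame.
-/

open Module Set Filter Topology Metric MeasureTheory
open scoped ContDiff

noncomputable section

namespace Vale.Agent.P207.N4.H709

open Vale.Agent.P207.N3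

variable [Dim]

variable {Γ X B : Type} [Group Γ] [MetricSpace X] [ProperSpace X] [MulAction Γ X]
  [IsIsometricSMul Γ X] [TopologicalSpace B] [CompactSpace B] [T2Space B] [MulAction Γ B]
  [ContinuousConstSMul Γ B]

variable {L : Leaf Γ X B}

/-- the norms are attained -/
theorem Hl_lt_of_unit {S : ℝ} {x : X}
    (hB : ∀ v w : E2, ‖v‖ = 1 → ‖w‖ = 1 → ‖H77.Dt L S x v‖ < ‖H77.Dt L S x w‖ ^ 2) :
    Hl L S x < 2 * Fl L S x := by
  have hne : (sphere (0 : E2) 1).Nonempty := by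
    obtain ⟨v, hv⟩ := exists_ne (0 : E2)
    refine ⟨‖v‖⁻¹ • v, ?_⟩
    rw [mem_sphere_zero_iff_norm, norm_smul, norm_inv, norm_norm,
      inv_mul_cancel₀ (norm_ne_zero_iff.2 hv)]
  have hcD : Continuous fun v => ‖H77.Dt L S x v‖ := (H77.Dt L S x).continuous.norm
  obtain ⟨v, hv, hmax⟩ := (isCompact_sphere (0 : E2) 1).exists_isMaxOn hne hcD.continuousOn
  obtain ⟨w, hw, hmin⟩ := (isCompact_sphere (0 : E2) 1).exists_isMinOn hne hcD.continuousOn
  rw [mem_sphere_zero_iff_norm] at hv hw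
  have hsph : ∀ u : E2, u ≠ 0 → ‖u‖⁻¹ • u ∈ sphere (0 : E2) 1 := fun u hu => by
    rw [mem_sphere_zero_iff_norm, norm_smul, norm_inv, norm_norm,
      inv_mul_cancel₀ (norm_ne_zero_iff.2 hu)]
  have hvp : 0 < ‖H77.Dt L S x v‖ := by
    refine lt_of_lt_of_le ?_ (Fl_le_Dt S x v)
    rw [hv, mul_one]
    exact Real.exp_pos _
  have hwp : 0 < ‖H77.Dt L S x w‖ := by
    refine lt_of_lt_of_le ?_ (Fl_le_Dt S x w)
    rw [hw, mul_one]
    exact Real.exp_pos _
  have h1 : Hl L S x ≤ Real.log ‖H77.Dt L S x v‖ := by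
    refine Hl_le fun u => ?_
    rw [Real.exp_log hvp]
    rcases eq_or_ne u 0 with rfl | hu
    · simp
    have h2 : ‖H77.Dt L S x (‖u‖⁻¹ • u)‖ ≤ ‖H77.Dt L S x v‖ := hmax (hsph u hu)
    rw [map_smul, norm_smul, norm_inv, norm_norm,
      inv_mul_le_iff₀ (norm_pos_iff.2 hu)] at h2
    linarith
  have h3 : Real.log ‖H77.Dt L S x w‖ ≤ Fl L S x := by
    refine le_Fl fun u => ?_
    rw [Real.exp_log hwp]
    rcases eq_or_ne u 0 with rfl | hu
    · simp
    have h2 : ‖H77.Dt L S x w‖ ≤ ‖H77.Dt L S x (‖u‖⁻¹ • u)‖ := hmin (hsph u hu)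
    rw [map_smul, norm_smul, norm_inv, norm_norm,
      le_inv_mul_iff₀ (norm_pos_iff.2 hu)] at h2
    linarith
  have h4 : Real.log ‖H77.Dt L S x v‖ < 2 * Real.log ‖H77.Dt L S x w‖ := by
    have h5 := Real.log_lt_log hvp (hB v w hv hw)
    rwa [Real.log_pow, Nat.cast_ofNat] at h5
  linarith

/-- **pointwise bunching from bunching along each orbit** -/
theorem bunM_of_each (M : Metr L) {a₀ b₀ : ℝ} (ha : 0 < a₀)
    (hlo : ∀ x v, a₀ * ‖v‖ ^ 2 ≤ inner ℝ (M.U x v) v)
    (hhi : ∀ x v, inner ℝ (M.U x v) v ≤ b₀ * ‖v‖ ^ 2)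
    (hE : ∀ x : X, ∃ S : ℝ, 0 < S ∧ ∀ v w : E2, ‖v‖ = 1 → ‖w‖ = 1 →
      ‖H77.Dt L S x v‖ < ‖H77.Dt L S x w‖ ^ 2) : BunM L := by
  set G : ℝ → X → ℝ := fun t x => Hl L t x - 2 * Fl L t x with hG
  have hF_ge : ∀ t x, 0 ≤ t → a₀ * t ≤ Fl L t x := fun t x ht => le_Fl (Dt_ge M hlo x ht)
  have hH_le : ∀ t x, 0 ≤ t → Hl L t x ≤ b₀ * t := fun t x ht => Hl_le (H77.Dt_le M hhi x ht)
  have hGadd : ∀ s t x, G (s + t) x ≤ G s (L.φ t x) + G t x := fun s t x => by
    have h1 := Hl_add (L := L) s t x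
    have h2 := Fl_add (L := L) s t x
    simp only [hG]
    linarith
  have hGc : ∀ S, Continuous (G S) := fun S => (Hl_cont S).sub (continuous_const.mul (Fl_cont S))
  have hGs : ∀ (g : Γ) S x, G S (g • x) = G S x := fun g S x => by
    simp only [hG, Hl, H77.Dt_smul, Fl_smul]
  obtain ⟨K, hK, hK'⟩ := L.cocompact
  -- finitely many times
  have hcov : ∃ ε τ T : ℝ, 0 < ε ∧ 0 < τ ∧ ∀ y ∈ K, ∃ S, τ ≤ S ∧ S ≤ T ∧ G S y ≤ -ε := by
    refine hK.induction_on (p := fun A => ∃ ε τ T : ℝ, 0 < ε ∧ 0 < τ ∧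
      ∀ y ∈ A, ∃ S, τ ≤ S ∧ S ≤ T ∧ G S y ≤ -ε) ?_ ?_ ?_ ?_
    · exact ⟨1, 1, 1, one_pos, one_pos, fun y hy => absurd hy (notMem_empty y)⟩
    · rintro s t hst ⟨ε, τ, T, h1, h2, h3⟩
      exact ⟨ε, τ, T, h1, h2, fun y hy => h3 y (hst hy)⟩
    · rintro s t ⟨ε, τ, T, h1, h2, h3⟩ ⟨ε', τ', T', h1', h2', h3'⟩
      refine ⟨min ε ε', min τ τ', max T T', lt_min h1 h1', lt_min h2 h2', fun y hy => ?_⟩
      rcases hy with hy | hy
      · obtain ⟨S, e1, e2, e3⟩ := h3 y hy
        exact ⟨S, (min_le_left _ _).trans e1, e2.trans (le_max_left _ _),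
          e3.trans (neg_le_neg (min_le_left _ _))⟩
      · obtain ⟨S, e1, e2, e3⟩ := h3' y hy
        exact ⟨S, (min_le_right _ _).trans e1, e2.trans (le_max_right _ _),
          e3.trans (neg_le_neg (min_le_right _ _))⟩
    · intro y _
      obtain ⟨S, hS, hB⟩ := hE y
      have h1 : G S y < 0 := by
        have := Hl_lt_of_unit hB
        simp only [hG]
        linarith
      refine ⟨{z | G S z < G S y / 2}, mem_nhdsWithin_of_mem_nhds
        ((isOpen_lt (hGc S) continuous_const).mem_nhds (by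
          show G S y < G S y / 2
          linarith)), -(G S y / 2), S, S, by linarith, hS, fun z hz => ⟨S, le_rfl, le_rfl, ?_⟩⟩
      have : G S z < G S y / 2 := hz
      linarith
  obtain ⟨ε, τ, T, hε, hτ, hall⟩ := hcov
  have hall' : ∀ x, ∃ S, τ ≤ S ∧ S ≤ T ∧ G S x ≤ -ε := fun x => by
    obtain ⟨g, hg⟩ := hK' x
    obtain ⟨S, h1, h2, h3⟩ := hall _ hg
    exact ⟨S, h1, h2, by rwa [hGs] at h3⟩
  obtain ⟨x₀⟩ := L.nonempty
  have hT : 0 < T := by
    obtain ⟨S, h1, h2, -⟩ := hall' x₀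
    linarith
  have hb₀ : 0 ≤ b₀ := by
    have h1 := (hF_ge 1 x₀ zero_le_one).trans ((Fl_le_Hl 1 x₀).trans (hH_le 1 x₀ zero_le_one))
    linarith
  -- the decay
  have hdec : ∀ n : ℕ, ∀ t, 0 ≤ t → t ≤ n * τ → ∀ x, G t x ≤ b₀ * T + ε - ε / T * t := by
    intro n
    induction n with
    | zero =>
      intro t ht htn x
      have h0 : t = 0 := le_antisymm (by simpa using htn) ht
      subst h0
      have h1 := hH_le 0 x le_rfl
      have h2 := hF_ge 0 x le_rfl
      have h3 : 0 ≤ b₀ * T := by positivity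
      simp only [hG]
      linarith
    | succ n ih =>
      intro t ht htn x
      rcases lt_or_ge t T with hlt | hge
      · have h1 := hH_le t x ht
        have h2 := hF_ge t x ht
        have h3 : b₀ * t ≤ b₀ * T := mul_le_mul_of_nonneg_left hlt.le hb₀
        have h4 : ε / T * t ≤ ε := by
          rw [div_mul_eq_mul_div, div_le_iff₀ hT]
          exact mul_le_mul_of_nonneg_left hlt.le hε.le
        have h5 : 0 ≤ a₀ * t := by positivity
        simp only [hG]
        linarith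
      · obtain ⟨S, h1, h2, h3⟩ := hall' x
        have h4 : t - S ≤ n * τ := by
          push_cast at htn
          linarith
        have h5 := ih (t - S) (by linarith) h4 (L.φ S x)
        have h6 := hGadd (t - S) S x
        rw [sub_add_cancel] at h6
        have h7 : ε / T * S ≤ ε := by
          rw [div_mul_eq_mul_div, div_le_iff₀ hT]
          exact mul_le_mul_of_nonneg_left h2 hε.le
        have h8 : ε / T * (t - S) = ε / T * t - ε / T * S := by ring
        rw [h8] at h5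
        linarith
  obtain ⟨S, hS, hS'⟩ := exists_lin (b₀ * T + ε + 1) (show 0 < ε / T by positivity)
  refine ⟨S, hS, fun x v w hv hw => ?_⟩
  obtain ⟨n, hn⟩ := exists_nat_ge (S / τ)
  rw [div_le_iff₀ hτ] at hn
  have h1 := hdec n S hS.le hn x
  have h2 := hS' S le_rfl
  have h3 : Hl L S x < 2 * Fl L S x := by
    simp only [hG] at h1
    linarith
  have h4 := Dt_le_Hl (L := L) S x v
  have h5 := Fl_le_Dt (L := L) S x w
  rw [hv, mul_one] at h4
  rw [hw, mul_one] at h5
  calc ‖H77.Dt L S x v‖ ≤ Real.exp (Hl L S x) := h4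
    _ < Real.exp (2 * Fl L S x) := Real.exp_lt_exp.2 h3
    _ = Real.exp (Fl L S x) ^ 2 := by rw [two_mul, Real.exp_add, sq]
    _ ≤ ‖H77.Dt L S x w‖ ^ 2 := pow_le_pow_left₀ (Real.exp_pos _).le h5 2

end Vale.Agent.P207.N4.H709
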