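import Vale.Agent.P207.N4.H709.ClkR

/-!
# P207: pointwise bunching from the growth and the determinant

`bunM_of_growth` : if the unstable derivative grows between `exp (a t)` and `exp (b t)` up to a
constant, and the volume grows like `exp (h t)`, then it is pointwise bunched whenever `b < 2 a` or
`h < (m + 1) a` or `(2 m - 1) b < 2 h`.
-/

open Module Set Filter Topology Metric MeasureTheory
open scoped ContDiff

noncomputable section

namespace Vale.Agent.P207.N4.H709

open Vale.Agent.P207.N3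

variable [Dim]

variable {Γ X B : Type} [Group Γ] [MetricSpace X] [ProperSpace X] [MulAction Γ X]
  [IsIsometricSMul Γ X] [TopologicalSpace B] [CompactSpace B] [T2Space B] [MulAction Γ B]
  [ContinuousConstSMul Γ B] [MeasurableSpace B] [BorelSpace B]

variable {L : Leaf Γ X B}

/-- **pointwise bunching from the growth and the determinant** -/
theorem bunM_of_growth (A : Area L) {a b C : ℝ}
    (hg : ∀ t, 0 ≤ t → ∀ x v, Real.exp (a * t) * ‖v‖ ≤ C * ‖H77.Dt L t x v‖ ∧
      ‖H77.Dt L t x v‖ ≤ C * Real.exp (b * t) * ‖v‖)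
    (hQ : b < 2 * a ∨ A.h < (Dim.m + 1) * a ∨ (2 * Dim.m - 1) * b < 2 * A.h) : BunM L := by
  obtain ⟨D₁, D₂, hD₁, hD₂, hdet⟩ := det_bounds A
  obtain ⟨n, hn⟩ : ∃ n, Dim.m = n + 1 := ⟨Dim.m - 1, by have := Dim.two_le; omega⟩
  have hfin : finrank ℝ E2 = n + 1 := by rw [finrank_euclideanSpace_fin, hn]
  have hm : (Dim.m : ℝ) = n + 1 := by rw [hn]; push_cast; ring
  set c := Real.log (max C 1) with hc
  have hC1 : 0 < max C 1 := lt_max_of_lt_right one_pos
  have hlow : ∀ t, 0 ≤ t → ∀ x v, Real.exp (a * t - c) * ‖v‖ ≤ ‖H77.Dt L t x v‖ := by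
    intro t ht x v
    rw [Real.exp_sub, hc, Real.exp_log hC1, div_mul_eq_mul_div, div_le_iff₀ hC1, mul_comm _ (max C 1)]
    exact (hg t ht x v).1.trans (mul_le_mul_of_nonneg_right (le_max_left _ _) (norm_nonneg _))
  have hupp : ∀ t, 0 ≤ t → ∀ x v, ‖H77.Dt L t x v‖ ≤ Real.exp (b * t + c) * ‖v‖ := by
    intro t ht x v
    rw [Real.exp_add, hc, Real.exp_log hC1, mul_comm _ (max C 1)]
    exact (hg t ht x v).2.trans (mul_le_mul_of_nonneg_right
      (mul_le_mul_of_nonneg_right (le_max_left _ _) (Real.exp_pos _).le) (norm_nonneg _))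
  -- it is enough to bound the logarithms
  suffices h : ∃ S : ℝ, 0 < S ∧ ∀ (x : X) (v w : E2) (l l' d : ℝ), ‖v‖ = 1 → ‖w‖ = 1 →
      ‖H77.Dt L S x v‖ = Real.exp l → ‖H77.Dt L S x w‖ = Real.exp l' →
      |(H77.Dt L S x).det| = Real.exp d → Real.log D₁ + A.h * S ≤ d →
      d ≤ Real.log D₂ + A.h * S → l < 2 * l' by
    obtain ⟨S, hS, h⟩ := h
    refine ⟨S, hS, fun x v w hv hw => ?_⟩
    have hpos : ∀ u : E2, ‖u‖ = 1 → 0 < ‖H77.Dt L S x u‖ := fun u hu => by
      refine lt_of_lt_of_le ?_ (Fl_le_Dt S x u)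
      rw [hu, mul_one]
      exact Real.exp_pos _
    have hd0 : 0 < |(H77.Dt L S x).det| :=
      (by positivity : 0 < D₁ * Real.exp (A.h * S)).trans_le (hdet S x).1
    have h1 := (hdet S x).1
    have h2 := (hdet S x).2
    have h3 := Real.log_le_log (by positivity) h1
    have h4 := Real.log_le_log hd0 h2
    rw [Real.log_mul hD₁.ne' (Real.exp_pos _).ne', Real.log_exp] at h3
    rw [Real.log_mul hD₂.ne' (Real.exp_pos _).ne', Real.log_exp] at h4
    have h5 := h x v w _ _ _ hv hw (Real.exp_log (hpos v hv)).symm (Real.exp_log (hpos w hw)).symm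
      (Real.exp_log hd0).symm h3 h4
    have h6 := Real.exp_lt_exp.2 h5
    rw [Real.exp_log (hpos v hv), two_mul, Real.exp_add, Real.exp_log (hpos w hw), ← sq] at h6
    exact h6
  rcases hQ with hQ | hQ | hQ
  · obtain ⟨S, hS, hS'⟩ := exists_lin (3 * c + 1) (show 0 < 2 * a - b by linarith)
    refine ⟨S, hS, fun x v w l l' d hv hw hl hl' _ _ _ => ?_⟩
    have h1 := hupp S hS.le x v
    have h2 := hlow S hS.le x w
    rw [hl, hv, mul_one] at h1
    rw [hl', hw, mul_one] at h2
    have h3 := Real.exp_le_exp.1 h1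
    have h4 := Real.exp_le_exp.1 h2
    have h5 := hS' S le_rfl
    linarith
  · obtain ⟨S, hS, hS'⟩ := exists_lin ((n + 2) * c + Real.log D₂ + 1)
      (show 0 < (n + 2) * a - A.h by
        rw [hm] at hQ
        linarith)
    refine ⟨S, hS, fun x v w l l' d hv hw hl hl' hd _ hd2 => ?_⟩
    have h1 := norm_le_det hfin (Real.exp_pos _) (hlow S hS.le x) v
    have h2 := hlow S hS.le x w
    rw [hl', hw, mul_one] at h2
    rw [hl, hv, mul_one, hd, ← Real.exp_nat_mul, ← Real.exp_add] at h1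
    have h3 := Real.exp_le_exp.1 h1
    have h4 := Real.exp_le_exp.1 h2
    have h5 := hS' S le_rfl
    nlinarith
  · obtain ⟨S, hS, hS'⟩ := exists_lin ((2 * n + 1) * c - 2 * Real.log D₁ + 1)
      (show 0 < 2 * A.h - (2 * n + 1) * b by
        rw [hm] at hQ
        linarith)
    refine ⟨S, hS, fun x v w l l' d hv hw hl hl' hd hd1 _ => ?_⟩
    have h1 := abs_det_le hfin (hupp S hS.le x) w
    have h2 := hupp S hS.le x v
    rw [hl, hv, mul_one] at h2
    rw [hl', hw, mul_one, hd, ← Real.exp_nat_mul, ← Real.exp_add] at h1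
    have h3 := Real.exp_le_exp.1 h1
    have h4 := Real.exp_le_exp.1 h2
    have h5 := hS' S le_rfl
    nlinarith

end Vale.Agent.P207.N4.H709
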