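import Vale.Agent.P207.N4.Dim
import Vale.Agent.P207.N4.H306.LinkI
import Vale.Agent.P207.N4.H862.BusSg
import Vale.Agent.P207.N4.H265.BusL
import Vale.Agent.P207.N4.H473.LinkNN

/-!
# P207: the instance of `Bus` over the geometric input

`busA I hX H : Bus L (Ten.tens M)`, assembled from H265/BusI, BusL, H862/BusNu, BusSg.
-/

set_option linter.unusedSectionVars false

open Set Filter Topology Metric MeasureTheory
open scoped ContDiff

noncomputable section

namespace Vale.Agent.P207.N4.H709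

open Vale.Agent.P207.N3

variable [Dim]
open Vale.Agent.P207.N4.H722
open Vale.Agent.P207.N4.H76 (pk tl e0 sg)
open Ten (cj Si Sf NN hor ball_sub)
open ContinuousLinearMap (adjoint)

variable {Γ X B : Type} [Group Γ] [MetricSpace X] [ProperSpace X] [MulAction Γ X]
  [IsIsometricSMul Γ X] [TopologicalSpace B] [CompactSpace B] [T2Space B] [MulAction Γ B]
  [ContinuousConstSMul Γ B] {L : Leaf Γ X B} {V : Type} [NormedAddCommGroup V] [NormedSpace ℝ V]
  [FiniteDimensional ℝ V] (I : GeoIn L V)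

/-- the discs are transversal to the geodesics from the end point in the past -/
theorem nu_pos (x : X) {q : E2} (hq : q ∈ ball (0 : E2) 3) : 0 < H862.nu I x (L.em x) q := by
  have hR := H862.mem3 I hq
  rw [H862.nu_pos_iff I x _ hR, H862.al_vel I x hR]
  exact one_pos

theorem J_eq_tg (x : X) {q : E2} (hq : q ∈ ball (0 : E2) 3) : I.J x q = H862.tg I x q :=
  (H862.hasFDerivAt_disc I x (H862.mem3 I hq)).fderiv

theorem Pz_inj {x z : X} {q : E2} (hq : q ∈ ball (0 : E2) 3) (hz : I.S.ft z = I.D x q)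
    (hnu : H862.nu I x (L.em z) q ≠ 0) : Function.Injective (H265.Pz I x q z) := by
  have hR := H862.mem3 I hq
  rw [injective_iff_map_eq_zero]
  intro a ha
  obtain ⟨c, hc⟩ := H265.J_eq I x q z a
  have hv : I.vel (L.em z) (I.S.ft z) = I.E z e0 := I.vel_eq invThm z
  have hp : pk 0 (0 : E2) = 0 := by
    rw [H76.pk_zero_right, zero_smul]
  rw [ha, hp, map_zero, add_zero, J_eq_tg I x hq] at hc
  have h1 := congrArg (H862.al I x q) hc
  rw [H862.al_tg I x hR, map_smul, smul_eq_mul, ← hv, hz] at h1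
  have h2 := (H862.nu_ne_iff I x _ hR).1 hnu
  rcases mul_eq_zero.1 h1.symm with h3 | h3
  · rw [h3, zero_smul] at hc
    exact H862.tg_inj I x hR hc
  · exact absurd h3 h2

theorem Pz_isInv {x z : X} {q : E2} (hq : q ∈ ball (0 : E2) 3) (hz : I.S.ft z = I.D x q)
    (hnu : H862.nu I x (L.em z) q ≠ 0) : (H265.Pz I x q z).IsInvertible := by
  have h1 := Pz_inj I hq hz hnu
  exact H459.isInvertible_of_bijective ⟨h1, (LinearMap.injective_iff_surjective
    (f := (H265.Pz I x q z).toLinearMap)).1 h1⟩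

variable {M : Metr L}

/-- **positivity of the Hessians** -/
theorem hess_pos (H : HessIn I M) (x : X) (ξ : B) (q : E2) (hq : q ∈ ball (0 : E2) 3)
    (hnu : H862.nu I x ξ q ≠ 0) (v : E2) (hv : v ≠ 0) :
    0 < inner ℝ ((hess (H265.be I x ξ) q + hess (H265.be I x (H265.en I x ξ q)) q) v) v := by
  obtain ⟨z, h1, h2, h3⟩ := H265.exists_fr' I x ξ q
  subst h1
  rw [← h3, H265.hess_be I H hq h2]
  refine Ten.Sf_pos M z fun h => hv ?_
  have := Pz_inj I hq h2 hnu
  exact this (by rw [h, map_zero])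

/-- algebra of the link -/
theorem inv_conj {P S Si' Hs : E2 →L[ℝ] E2} (hP : P.IsInvertible)
    (hS : Si' ∘L S = ContinuousLinearMap.id ℝ E2)
    (hH : ∀ a b, inner ℝ (Hs a) b = inner ℝ (S (P a)) (P b)) :
    P ∘L Ring.inverse Hs ∘L adjoint P = Si' := by
  have hH' : Hs = adjoint P ∘L S ∘L P := by
    ext1 a
    refine ext_inner_right ℝ fun b => ?_
    rw [hH]
    change _ = inner ℝ (adjoint P (S (P a))) b
    rw [ContinuousLinearMap.adjoint_inner_left]
  obtain ⟨p, rfl⟩ := hP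
  -- `S` is invertible
  have hSi : ∀ v, Si' (S v) = v := fun v => congrArg (fun T : E2 →L[ℝ] E2 => T v) hS
  have hinj : Function.Injective Hs := by
    rw [injective_iff_map_eq_zero]
    intro a ha
    have h1 : ∀ b, inner ℝ (S ((p : E2 →L[ℝ] E2) a)) ((p : E2 →L[ℝ] E2) b) = (0 : ℝ) := fun b => by
      rw [← hH, ha, inner_zero_left]
    have h2 : S ((p : E2 →L[ℝ] E2) a) = 0 := by
      have h3 := h1 (p.symm (S ((p : E2 →L[ℝ] E2) a)))
      have h4 : (p : E2 →L[ℝ] E2) (p.symm (S ((p : E2 →L[ℝ] E2) a)))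
          = S ((p : E2 →L[ℝ] E2) a) := p.apply_symm_apply _
      rw [h4] at h3
      exact inner_self_eq_zero.1 h3
    have h5 := hSi ((p : E2 →L[ℝ] E2) a)
    rw [h2, map_zero] at h5
    exact p.injective (by rw [map_zero]; exact h5.symm)
  have hinv : Hs.IsInvertible := H459.isInvertible_of_bijective
    ⟨hinj, (LinearMap.injective_iff_surjective (f := Hs.toLinearMap)).1 hinj⟩
  rw [ContinuousLinearMap.ringInverse_eq_inverse]
  have h6 : Hs.inverse ∘L Hs = ContinuousLinearMap.id ℝ E2 := hinv.inverse_comp_self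
  have h7 : ∀ v, Hs.inverse (Hs v) = v := fun v => congrArg (fun T : E2 →L[ℝ] E2 => T v) h6
  -- test on `S (P a)`
  have hSinj : Function.Injective S := fun a b hab => by
    have := congrArg Si' hab
    rwa [hSi, hSi] at this
  have hSsurj : Function.Surjective S :=
    (LinearMap.injective_iff_surjective (f := S.toLinearMap)).1 hSinj
  ext1 w
  obtain ⟨v, rfl⟩ := hSsurj w
  have h8 : v = (p : E2 →L[ℝ] E2) (p.symm v) := (p.apply_symm_apply v).symm
  have h9 : adjoint (p : E2 →L[ℝ] E2) (S v) = Hs (p.symm v) := by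
    rw [hH']
    change _ = adjoint (p : E2 →L[ℝ] E2) (S ((p : E2 →L[ℝ] E2) (p.symm v)))
    rw [← h8]
  change (p : E2 →L[ℝ] E2) (Hs.inverse (adjoint (p : E2 →L[ℝ] E2) (S v))) = Si' (S v)
  rw [h9, h7, hSi, ← h8]

/-- the level of the point `q` of the disc of `x`, on the leaf of `y`, seen from `y` -/
def lvl (x y : X) (q : E2) : ℝ := I.b (L.em y) (I.D x q) - L.lv y

/-- the smooth part of the tensor -/
def Rb (x y : X) (q : E2) : E2 →L[ℝ] E2 :=
  ∫ s in (0 : ℝ)..1, lvl I x y q • H306.Ir I y (lvl I x y q * s, sgm L (H265.en I) x y q)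

theorem lvl_jc : JC (fun (p : X × X) q => lvl I p.1 p.2 q) (univ ×ˢ ball 0 3) := by
  have hO : IsOpen ((univ : Set (X × X)) ×ˢ ball (0 : E2) 3) := isOpen_univ.prod isOpen_ball
  have h1 : JC (fun (p : X × X) (q : E2) => I.S.A p.1 (0, q)) (univ ×ˢ ball 0 3) :=
    ((H265.disc_jc I).pullback continuous_fst).mono hO fun p hp => ⟨mem_univ _, hp.2⟩
  have h2 : JC (fun (p : X × X) (q : V) => I.b (L.em p.2) q) univ :=
    I.b_jc.pullback (L.em_cont.comp continuous_snd)
  have h3 : JC (fun (p : X × X) (q : E2) => I.b (L.em p.2) (I.S.A p.1 (0, q))) (univ ×ˢ ball 0 3) :=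
    h2.comp' h1 fun _ _ => mem_univ _
  exact h3.sub (JC.param' hO (L.lv_cont.comp continuous_snd))

theorem Rb_jc : JC (fun (p : X × X) q => Rb I p.1 p.2 q) (sgD L (H265.en I)) := by
  have hO : IsOpen (sgD L (H265.en I)) := H862.isOpen_sgD I
  have hsub : sgD L (H265.en I) ⊆ univ ×ˢ ball 0 3 := fun p hp => ⟨mem_univ _, hp.1⟩
  have hl : JC (fun (p : X × X) q => lvl I p.1 p.2 q) (sgD L (H265.en I)) :=
    (lvl_jc I).mono hO hsub
  have hs : JC (fun (p : X × X) q => sgm L (H265.en I) p.1 p.2 q) (sgD L (H265.en I)) :=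
    H862.sg_jc I
  set T : Set (((X × X) × ℝ) × E2) := {p | (p.1.1, p.2) ∈ sgD L (H265.en I)} with hT
  have hl' : JC (fun (p : (X × X) × ℝ) q => lvl I p.1.1 p.1.2 q) T :=
    hl.pullback continuous_fst
  have hs' : JC (fun (p : (X × X) × ℝ) q => sgm L (H265.en I) p.1.1 p.1.2 q) T :=
    hs.pullback continuous_fst
  have hTo : IsOpen T := hl'.isOpen
  have hσ : JC (fun (p : (X × X) × ℝ) (_ : E2) => p.2) T := JC.param' hTo continuous_snd
  have h1 : JC (fun (p : (X × X) × ℝ) q =>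
      ((lvl I p.1.1 p.1.2 q * p.2, sgm L (H265.en I) p.1.1 p.1.2 q) : ℝ × E2)) T :=
    (hl'.mul hσ).prodMk hs'
  have h2 : JC (fun (p : (X × X) × ℝ) (u : ℝ × E2) => H306.Ir I p.1.2 u)
      {p | (p.1.1.2, p.2) ∈ (univ ×ˢ (univ ×ˢ ball 0 3) : Set (X × (ℝ × E2)))} :=
    (H306.Ir_jc3 I).pullback (c := fun p : (X × X) × ℝ => p.1.2) (by fun_prop)
  have h3 : JC (fun (p : (X × X) × ℝ) q => H306.Ir I p.1.2
      (lvl I p.1.1 p.1.2 q * p.2, sgm L (H265.en I) p.1.1 p.1.2 q)) T := by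
    refine h2.comp' h1 fun p hp => ⟨mem_univ _, mem_univ _, ?_⟩
    obtain ⟨-, v, hv, he⟩ : (p.1.1, p.2) ∈ sgD L (H265.en I) := hp
    have h4 : sgm L (H265.en I) p.1.1.1 p.1.1.2 p.2 = v :=
      H862.sgm_eq I p.1.1.1 p.1.1.2 (ball_subset_closedBall hv) he
    change sgm L (H265.en I) p.1.1.1 p.1.1.2 p.2 ∈ ball (0 : E2) 3
    rw [h4]
    exact hv
  have h5 := JC.integral (a := 0) (b := 1) (hl'.smul h3)
  exact h5.mono hO fun p hp t _ => hp

theorem Rb_eq (x y : X) {q : E2} (hv : sgm L (H265.en I) x y q ∈ ball (0 : E2) 3) :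
    Rb I x y q = ∫ s in (0 : ℝ)..(lvl I x y q), hor L (y, s) (sgm L (H265.en I) x y q) := by
  have h := intervalIntegral.smul_integral_comp_mul_left (a := 0) (b := 1)
    (fun s => H306.Ir I y (s, sgm L (H265.en I) x y q)) (lvl I x y q)
  rw [mul_zero, mul_one] at h
  rw [Rb, intervalIntegral.integral_smul, h]
  refine intervalIntegral.integral_congr fun s _ => ?_
  exact (H306.hor_eq_Ir I y s hv).symm

/-- **the link** -/
theorem link (H : HessIn I M) (x y : X) (q : E2) (hp : ((x, y), q) ∈ sgD L (H265.en I))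
    (hnu : H862.nu I x (L.em y) q ≠ 0) :
    NN M y (sgm L (H265.en I) x y q) = I.r₀ ^ 2 • (fderiv ℝ (sgm L (H265.en I) x y) q ∘L
      Ring.inverse (hess (H265.be I x (L.em y)) q
        + hess (H265.be I x (H265.en I x (L.em y) q)) q) ∘L
      adjoint (fderiv ℝ (sgm L (H265.en I) x y) q)) + Rb I x y q := by
  obtain ⟨hq, v, hv, he⟩ := hp
  have hv' : sgm L (H265.en I) x y q = v := H862.sgm_eq I x y (ball_subset_closedBall hv) he
  obtain ⟨z, h1, h2, h3⟩ := H265.exists_fr' I x (L.em y) q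
  have hev : L.e y v = L.ep z := by rw [h3]; exact he
  have hD := (H265.hasFDerivAt_sgm I hq h2 h1 hv hev).fderiv
  have hPi := Pz_isInv I hq h2 (by rw [h1]; exact hnu)
  have hH := fun a b => H265.hess_be I H hq h2 a b
  rw [h1, h3] at hH
  have hSi : Si M z ∘L Sf M z = ContinuousLinearMap.id ℝ E2 := Ten.Si_Sf M z
  have key := inv_conj hPi hSi hH
  set P := H265.Pz I x q z with hP
  set Ri := Ring.inverse (hess (H265.be I x (L.em y)) q
        + hess (H265.be I x (H265.en I x (L.em y) q)) q) with hRi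
  have h4 : cj (fderiv ℝ (L.τ z y) 0) (Si M z) = I.r₀ ^ 2 •
      (fderiv ℝ (sgm L (H265.en I) x y) q ∘L Ri ∘L
      adjoint (fderiv ℝ (sgm L (H265.en I) x y) q)) := by
    rw [hD, ← key]
    set A := fderiv ℝ (L.τ z y) 0 with hA
    have hr := I.r₀_pos.ne'
    have h5 : adjoint (A.comp (I.r₀⁻¹ • P)) = I.r₀⁻¹ • (adjoint P ∘L adjoint A) := by
      have h6 : A.comp (I.r₀⁻¹ • P) = I.r₀⁻¹ • (A ∘L P) := by
        ext1 a
        simp
      rw [h6, map_smulₛₗ, ContinuousLinearMap.adjoint_comp]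
      simp
    rw [h5]
    ext1 a
    simp only [cj, ContinuousLinearMap.comp_apply, smul_apply, map_smul, smul_smul]
    have h7 : I.r₀ ^ 2 * (I.r₀⁻¹ * I.r₀⁻¹) = 1 := by field_simp
    rw [h7, one_smul]
  have h6 := H473.NN_level M h1 hev.symm hv
  have h8 : L.lv z - L.lv y = lvl I x y q := by
    have h9 := I.b_lv z
    rw [h1, h2] at h9
    rw [lvl, ← h9]
  have hvb : sgm L (H265.en I) x y q ∈ ball (0 : E2) 3 := by rw [hv']; exact hv
  rw [h8] at h6
  rw [Rb_eq I x y hvb, ← h4, hv', h6, sub_add_cancel]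

/-- **the instance of `Bus`** -/
def busA {I : GeoIn L V} (hX : GeoX I) (H : HessIn I M) : Bus L (Ten.tens M) where
  b := H265.bb I
  b_cont := H265.bb_cont I
  b_em := H265.bb_em I
  b_ep := H265.bb_ep I
  b_flip := H265.bb_flip I
  b_rot := H265.bb_rot I hX
  b_smul := H265.bb_smul I
  be := H265.be I
  be_jc := H265.be_jc I
  be_zero := H265.be_zero I
  be_smul g x ξ q _ := H265.be_smul I hX g x ξ q
  be_rot a x ξ q _ := H265.be_rot I hX a x ξ q
  be_flip x ξ q hq := H265.be_flip I x ξ q hq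
  be_crit := H265.be_crit I
  en := H265.en I
  en_cont := H265.en_cont I
  en_em x q hq := H265.en_em I x q hq
  en_smul g x ξ q _ := H265.en_smul I hX g x ξ q
  en_rot a x ξ q _ := H265.en_rot I hX a x ξ q
  en_flip x ξ q hq := H265.en_flip I x ξ q hq
  en_en x ξ q _ := H265.en_en I x ξ q
  exists_fr x ξ q _ := H265.exists_fr I x ξ q
  le := H265.le_bb I hX
  eq x z q _ := H265.eq_bb I hX x z q
  nu := H862.nu I
  nu_cont := H862.nu_cont I
  nu_em := H862.nu_em I
  nu_en x ξ q _ := H862.nu_en I x ξ q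
  nu_flip x ξ q hq := H862.nu_flip I x ξ hq
  nu_smul g x ξ q hq := H862.nu_smul (H862.DiscX.of_geoX hX) g x ξ hq
  nu_rot a x ξ q hq := H862.nu_rot (H862.DiscX.of_geoX hX) a x ξ hq
  pos x ξ q hq hnu v hv := hess_pos I H x ξ q hq hnu v hv
  sg_jc := H862.sg_jc I
  sg_inv := H862.sg_inv I
  cov_inj x ξ ξ' q hq := H862.cov_inj I x ξ ξ' hq
  δ := H862.dl hX
  δ_pos := H862.dl_pos hX
  cov_surj := H862.cov_surj hX
  c₀ := I.r₀ ^ 2
  c₀_pos := by have := I.r₀_pos; positivity
  Rb := Rb I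
  Rb_jc := by
    have h1 := Rb_jc I
    have h2 : ContinuousOn (fun p : (X × X) × E2 => H862.nu I p.1.1 (L.em p.1.2) p.2)
        (sgD L (H265.en I)) := by
      refine (H862.nu_cont I).comp (f := fun p : (X × X) × E2 =>
        (((p.1.1, L.em p.1.2), p.2) : (X × B) × E2)) ?_ fun p hp => ⟨mem_univ _, hp.1⟩
      have h3 : Continuous fun p : (X × X) × E2 => L.em p.1.2 :=
        L.em_cont.comp (continuous_snd.comp continuous_fst)
      exact (((continuous_fst.comp continuous_fst).prodMk h3).prodMk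
        continuous_snd).continuousOn
    exact h1.mono (h2.isOpen_inter_preimage h1.isOpen isOpen_ne) fun p hp => hp.1
  link x y q hp hnu := link I H x y q hp hnu

end Vale.Agent.P207.N4.H709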