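import Vale.Agent.P207.N4.Dim
import Vale.Agent.P207.N4.H709.CalibS
import Vale.Agent.P207.N4.H722.Disc
import Vale.Agent.P207.N4.H618.MetU

/-!
# P207, line N3, row R20: the calibration over `GeoIn`, `HessIn`, and over the manifold
-/

set_option linter.unusedSectionVars false
set_option maxSynthPendingDepth 3

open Set Filter Topology Metric
open scoped ContDiff Matrix

noncomputable section

namespace Vale.Agent.P207.N4.H709

open Vale.Agent.P207.N3 Vale.Agent.P207.N3.H709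

variable [Dim]

open H722
open Vale.Agent.P207.N4.H76 (pk tl e0 sg)

variable {Γ X B V : Type} [Group Γ] [MetricSpace X] [ProperSpace X] [MulAction Γ X]
  [IsIsometricSMul Γ X] [TopologicalSpace B] [CompactSpace B] [T2Space B] [MulAction Γ B]
  [ContinuousConstSMul Γ B] [NormedAddCommGroup V] [NormedSpace ℝ V] [FiniteDimensional ℝ V]

section Forms

/-- a positive definite form on the plane is bounded below -/
theorem exists_coercive {T : E2 →L[ℝ] E2} (h : ∀ v, v ≠ 0 → 0 < inner ℝ (T v) v) :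
    ∃ c, 0 < c ∧ ∀ v, c * ‖v‖ ^ 2 ≤ inner ℝ (T v) v := by
  have hc : Continuous fun v : E2 => inner ℝ (T v) v := T.continuous.inner continuous_id
  have hne : (sphere (0 : E2) 1).Nonempty := NormedSpace.sphere_nonempty.2 zero_le_one
  obtain ⟨v₀, hv₀, hm⟩ := (isCompact_sphere (0 : E2) 1).exists_isMinOn hne hc.continuousOn
  have hv₀' : ‖v₀‖ = 1 := by simpa using hv₀
  have hv0 : v₀ ≠ 0 := by
    intro h0
    rw [h0, norm_zero] at hv₀'
    exact zero_ne_one hv₀'
  refine ⟨inner ℝ (T v₀) v₀, h v₀ hv0, fun v => ?_⟩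
  by_cases hv : v = 0
  · subst hv
    simp
  have hn : 0 < ‖v‖ := norm_pos_iff.2 hv
  have h1 : inner ℝ (T v₀) v₀ ≤ inner ℝ (T (‖v‖⁻¹ • v)) (‖v‖⁻¹ • v) := by
    refine hm ?_
    rw [mem_sphere_zero_iff_norm, norm_smul, norm_inv, norm_norm, inv_mul_cancel₀ hn.ne']
  rw [map_smul, inner_smul_left, inner_smul_right] at h1
  have h2 : (starRingEnd ℝ) ‖v‖⁻¹ = ‖v‖⁻¹ := rfl
  rw [h2] at h1
  calc inner ℝ (T v₀) v₀ * ‖v‖ ^ 2 ≤ (‖v‖⁻¹ * (‖v‖⁻¹ * inner ℝ (T v) v)) * ‖v‖ ^ 2 :=
        mul_le_mul_of_nonneg_right h1 (sq_nonneg _)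
    _ = inner ℝ (T v) v := by field_simp

/-- the determinant of a symmetric positive form -/
theorem dtT_pos {T : E2 → E2 → ℝ} {b : E2 →L[ℝ] E2 →L[ℝ] ℝ} (hb : ∀ u v, T u v = b u v)
    (hs : ∀ u v, b u v = b v u) (hp : ∀ v, v ≠ 0 → 0 < b v v) :
    0 < Vale.Agent.P207.H9.CrossM.dtT T := by
  unfold Vale.Agent.P207.H9.CrossM.dtT
  refine Matrix.PosDef.det_pos (Matrix.PosDef.of_dotProduct_mulVec_pos ?_ fun x hx => ?_)
  · ext i j
    simp only [Matrix.conjTranspose_apply, Matrix.of_apply, star_trivial, hb]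
    exact hs _ _
  · set v : E2 := WithLp.toLp 2 x with hv
    have hv0 : v ≠ 0 := by
      intro h
      refine hx (funext fun i => ?_)
      have := congrArg (fun w : E2 => w i) h
      simpa [hv] using this
    have hsum : v = ∑ i, x i • (EuclideanSpace.single i (1 : ℝ) : E2) := by
      ext k
      simp [hv, Finset.sum_apply, Pi.single_apply]
    have h1 : b v v = ∑ i, ∑ j, x i * (x j * b (EuclideanSpace.single i 1)
        (EuclideanSpace.single j 1)) := by
      rw [hsum]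
      simp only [map_sum, map_smul, FunLike.coe_sum, Finset.sum_apply,
        FunLike.coe_smul, Pi.smul_apply, smul_eq_mul, Finset.mul_sum]
      refine Finset.sum_congr rfl fun i _ => Finset.sum_congr rfl fun j _ => ?_
      rw [hs]
    have h2 : star x ⬝ᵥ ((Matrix.of fun i j => T (EuclideanSpace.single i 1)
        (EuclideanSpace.single j 1)) *ᵥ x) = b v v := by
      rw [h1]
      simp only [dotProduct, Matrix.mulVec, Matrix.of_apply, hb, star_trivial, Finset.mul_sum]
      refine Finset.sum_congr rfl fun i _ => Finset.sum_congr rfl fun j _ => ?_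
      ring
    rw [h2]
    exact hp v hv0

end Forms

section Geo

variable {L : Leaf Γ X B} (I : GeoIn L V)

/-- the frames over one vector have the same foot point -/
theorem ft_rot (a : O2) (x : X) : I.S.ft (L.rot a x) = I.S.ft x := by
  have hep : L.ep (L.rot a x) = L.ep x := by
    rw [L.ep_flip, L.ep_flip, L.flip_rot, L.em_rot]
  have h1 := I.line_eq (L.rot a x)
  rw [L.em_rot, hep, ← I.line_eq x, I.S.line_iff] at h1
  obtain ⟨s, hs⟩ := h1
  -- hs : ft x = psi (em x) s (ft (rot a x))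
  have h2 := I.ft_φ (L.rot a x) s
  rw [L.em_rot, ← hs] at h2
  have h3 := I.b_lv (L.φ s (L.rot a x))
  rw [h2, L.em_φ, L.em_rot, L.lv_φ, L.lv_rot, I.b_lv] at h3
  have h4 : s = 0 := by linarith
  rw [h4, I.S.psi_zero] at hs
  exact hs.symm

theorem fderiv_disc (x : X) (u : E2) :
    fderiv ℝ (fun v => I.S.A x (0, v)) 0 u = I.E x (pk 0 (I.r₀ • u)) := I.J_zero x u

/-- the input of the calibration -/
theorem calIn {D : B → B → ℝ} (h_eq : ∀ x, D (L.em x) (L.ep x) = L.lv x + L.lp x)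
    (h_le : ∀ ξ η q, ξ ≠ η → D ξ η ≤ I.b ξ q + I.b η q) : CalIn L D I.S I.b where
  em := I.em_eq
  ep := I.ep_eq
  e := fun x u hu => I.e_eq x u (ball_subset_closedBall hu)
  ft_rot := ft_rot I
  ft_φ := fun t x => I.ft_φ x t
  disc_flip := fun x u hu => I.A_flip x u (ball_subset_ball I.S.R_gt.le hu)
  b_jc := I.b_jc
  D_le := h_le
  D_eq := fun x => by
    have h1 := I.b_lv (L.flip x)
    rw [I.ft_flip, ← L.ep_flip] at h1
    rw [h_eq, I.b_lv, h1]
    rfl
  perp := fun x => by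
    have hP : DifferentiableAt ℝ (fun v : E2 => I.S.A x (0, v)) 0 :=
      I.D_diffAt x I.S.zero_mem
    have hA0 : I.S.A x (0, 0) = I.S.ft x := I.S.A_zero x
    have hb := I.b_der x
    rw [← hA0] at hb
    have h1 := (hb.comp (0 : E2) hP.hasFDerivAt).fderiv
    have h2 : fderiv ℝ (fun u => I.b (L.em x) (I.S.A x (0, u))) 0 =
        (I.G (I.S.A x (0, 0)) (I.E x e0)).comp (fderiv ℝ (fun v : E2 => I.S.A x (0, v)) 0) := h1
    rw [h2]
    ext u
    rw [ContinuousLinearMap.comp_apply, fderiv_disc, hA0, I.G_E]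
    simp [H76.e0, H76.pk, PiLp.inner_apply, Fin.sum_univ_succ]

/-- the second derivative of `b_ξ + b_η` on the disc -/
theorem hess_disc {M : Metr L} (Hs : HessIn I M) (x : X) (v w : E2) :
    fderiv ℝ (fderiv ℝ (fun u => I.b (L.em x) (I.S.A x (0, u)) +
      I.b (L.ep x) (I.S.A x (0, u)))) 0 v w =
      I.r₀ ^ 2 * inner ℝ (M.U x v + M.U (L.flip x) v) w := by
  set f : V → ℝ := fun q => I.b (L.em x) q + I.b (L.ep x) q with hf
  set P : E2 → V := fun u => I.S.A x (0, u) with hP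
  have hA0 : P 0 = I.S.ft x := I.S.A_zero x
  have hb : ∀ ξ : B, ContDiff ℝ ∞ (I.b ξ) := fun ξ => by
    rw [contDiff_iff_contDiffAt]
    intro q
    exact I.b_jc.contDiffAt (mem_univ (ξ, q))
  have hfs : ContDiff ℝ ∞ f := (hb _).add (hb _)
  have hPs : ∀ u ∈ ball (0 : E2) I.S.R, ContDiffAt ℝ ∞ P u := fun u hu => I.D_smoothAt x hu
  -- first derivative
  have h1 : ∀ᶠ u in 𝓝 (0 : E2), fderiv ℝ (fun u => f (P u)) u =
      (fderiv ℝ f (P u)).comp (fderiv ℝ P u) := by
    filter_upwards [isOpen_ball.mem_nhds I.S.zero_mem] with u hu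
    have d1 : DifferentiableAt ℝ f (P u) := (hfs.differentiable (by simp)) _
    have d2 : DifferentiableAt ℝ P u := (hPs u hu).differentiableAt (by simp)
    exact (d1.hasFDerivAt.comp u d2.hasFDerivAt).fderiv
  have h2 : fderiv ℝ (fderiv ℝ (fun u => f (P u))) 0 =
      fderiv ℝ (fun u => (fderiv ℝ f (P u)).comp (fderiv ℝ P u)) 0 :=
    Filter.EventuallyEq.fderiv_eq h1
  change fderiv ℝ (fderiv ℝ (fun u => f (P u))) 0 v w = _
  rw [h2]
  have d3 : HasFDerivAt P (fderiv ℝ P 0) 0 :=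
    ((hPs 0 I.S.zero_mem).differentiableAt (by simp)).hasFDerivAt
  have d4 : HasFDerivAt (fderiv ℝ f) (fderiv ℝ (fderiv ℝ f) (P 0)) (P 0) :=
    ((hfs.fderiv_right (m := ∞) (by simp)).differentiable (by simp) _).hasFDerivAt
  have d5 : HasFDerivAt (fderiv ℝ P) (fderiv ℝ (fderiv ℝ P) 0) 0 :=
    (((hPs 0 I.S.zero_mem).fderiv_right (m := ∞) (by simp)).differentiableAt
      (by simp)).hasFDerivAt
  have d6 := (d4.comp (0 : E2) d3).clm_comp d5
  have h3 : fderiv ℝ (fun u => (fderiv ℝ f (P u)).comp (fderiv ℝ P u)) 0 = _ := d6.fderiv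
  rw [h3]
  -- the first derivative vanishes
  have hfl : L.em (L.flip x) = L.ep x := (L.ep_flip x).symm
  have h4 : fderiv ℝ f (P 0) = 0 := by
    have b1 := I.b_der x
    have b2 := I.b_der (L.flip x)
    rw [hfl, I.ft_flip, I.E_flip_e0] at b2
    rw [hA0]
    have b3 := (b1.add b2).fderiv
    have b4 : fderiv ℝ f (I.S.ft x) = I.G (I.S.ft x) (I.E x e0) + I.G (I.S.ft x) (-I.E x e0) := b3
    rw [b4, map_neg, add_neg_cancel]
  have h5 := Hs.hess x (I.r₀ • v) (I.r₀ • w)
  simp only [add_apply, ContinuousLinearMap.comp_apply, ContinuousLinearMap.flip_apply,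
    ContinuousLinearMap.compL_apply, Function.comp_apply, h4, zero_apply,
    zero_add]
  rw [hP, fderiv_disc, fderiv_disc]
  have hA0' : I.S.A x (0, 0) = I.S.ft x := I.S.A_zero x
  simp only [hA0']
  rw [h5, map_smul, map_smul, ← smul_add, inner_smul_left, inner_smul_right]
  have h6 : (starRingEnd ℝ) I.r₀ = I.r₀ := rfl
  rw [h6]
  ring

variable [MeasurableSpace B] [BorelSpace B]

/-- the form `r₀² ⟨(U + U^flip) u, u'⟩` -/
def TF (M : Metr L) (r₀ : ℝ) (x : X) (u u' : E2) : ℝ :=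
  r₀ ^ 2 * inner ℝ (M.U x u + M.U (L.flip x) u) u'

/-- **662's calibration** over the geometric data, at a frame over the base point -/
def calibG {A : Area L} {M : Metr L} (Hs : HessIn I M)
    (h_le : ∀ ξ η q, ξ ≠ η → A.D ξ η ≤ I.b ξ q + I.b η q) {x : X}
    (hx : ∀ ξ, I.b ξ (I.S.ft x) = 0)
    (hs : A.s x 0 * A.s (L.flip x) 0 = Vale.Agent.P207.H9.CrossM.dtT (TF M I.r₀ x)) : H662.Calib L A := by
  have C := calIn I A.D_eq h_le
  have h0m : (0 : E2) ∈ ball (0 : E2) 3 := mem_ball_self (by norm_num)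
  set Hξ := fderiv ℝ (fderiv ℝ (fun u => I.b (L.em x) (I.S.A x (0, u)))) 0 with h1
  set Hη := fderiv ℝ (fderiv ℝ (fun u => I.b (L.ep x) (I.S.A x (0, u)))) 0 with h2
  have hsum : ∀ v w, (Hξ + Hη) v w = TF M I.r₀ x v w := by
    intro v w
    have h3 := hess_disc I Hs x v w
    have h4 : ∀ᶠ u in 𝓝 (0 : E2), fderiv ℝ (fun u => I.b (L.em x) (I.S.A x (0, u)) +
        I.b (L.ep x) (I.S.A x (0, u))) u = fderiv ℝ (fun u => I.b (L.em x) (I.S.A x (0, u))) u +
        fderiv ℝ (fun u => I.b (L.ep x) (I.S.A x (0, u))) u := by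
      filter_upwards [isOpen_ball.mem_nhds h0m] with u hu
      exact (((C.disc_jc x).differentiableAt (C.mem_disc (L.em x) hu)).hasFDerivAt.add
        ((C.disc_jc x).differentiableAt (C.mem_disc (L.ep x) hu)).hasFDerivAt).fderiv
    rw [Filter.EventuallyEq.fderiv_eq h4] at h3
    have j1 := (C.disc_jc x).fderiv
    have h5 := ((j1.differentiableAt (C.mem_disc (L.em x) h0m)).hasFDerivAt.add
      (j1.differentiableAt (C.mem_disc (L.ep x) h0m)).hasFDerivAt).fderiv
    have h6 : fderiv ℝ (fun u => fderiv ℝ (fun u => I.b (L.em x) (I.S.A x (0, u))) u +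
        fderiv ℝ (fun u => I.b (L.ep x) (I.S.A x (0, u))) u) 0 = Hξ + Hη := h5
    rw [h6] at h3
    exact h3
  have hr := I.r₀_pos
  have hTp : ∀ v, v ≠ 0 → 0 < inner ℝ ((M.U x + M.U (L.flip x)) v) v := by
    intro v hv
    rw [add_apply, inner_add_left]
    exact add_pos (M.U_pos x v hv) (M.U_pos _ v hv)
  have hpos' : ∃ c, 0 < c ∧ ∀ a, c * ‖a‖ ^ 2 ≤ Hξ a a + Hη a a := by
    obtain ⟨c, hc, hc'⟩ := exists_coercive hTp
    refine ⟨I.r₀ ^ 2 * c, by positivity, fun a => ?_⟩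
    have h3 := hsum a a
    rw [add_apply, add_apply] at h3
    rw [h3]
    unfold TF
    have h4 := mul_le_mul_of_nonneg_left (hc' a) (sq_nonneg I.r₀)
    rw [add_apply] at h4
    linarith
  have hlv : L.lv x = 0 := by rw [← I.b_lv, hx]
  have hT : (fun u u' => (Hξ + Hη) u u') = TF M I.r₀ x := by
    funext u u'
    exact hsum u u'
  have hdt : 0 < Vale.Agent.P207.H9.CrossM.dtT fun u u' => (Hξ + Hη) u u' := by
    refine dtT_pos (fun u v => rfl) (fun u v => ?_) (fun v hv => ?_)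
    · rw [hsum, hsum]
      unfold TF
      rw [inner_add_left, inner_add_left, M.U_symm, M.U_symm, real_inner_comm (M.U x v) u,
        real_inner_comm (M.U (L.flip x) v) u]
    · rw [hsum]
      unfold TF
      have := hTp v hv
      rw [add_apply] at this
      positivity
  exact calib A C invThm hx hlv rfl rfl hpos'.choose_spec.1 hpos'.choose_spec.2 hdt
    (by rw [hs, hT])

end Geo

end Vale.Agent.P207.N4.H709
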