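import Vale.Agent.P207.N4.Dim
import Vale.Agent.P207.N4.H229.Bus

/-!
# P207, all dimensions: Darboux data of the discs, part A

Over `S : Bus L T`. On the disc of the frame `x` (coordinate `q`), `dl x ξ` generates the unstable
leaf of `ξ` and `gm x η` generates the stable leaf of `η`, in the symplectic coordinates
`(q, covector - grad (be x (em x)))`: the leaf of `em x` is the zero section. Smoothness, uniform
bounds, invariance; the gradient of `dl + gm` vanishes at the crossings.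
-/

set_option linter.unusedSectionVars false

open Set Filter Topology Metric
open scoped ContDiff

noncomputable section

namespace Vale.Agent.P207.N4.H709

open Vale.Agent.P207.N3

variable [Dim]

variable {Γ X B : Type} [Group Γ] [MetricSpace X] [ProperSpace X] [MulAction Γ X]
  [IsIsometricSMul Γ X] [TopologicalSpace B] [CompactSpace B] [T2Space B] [MulAction Γ B]
  [ContinuousConstSMul Γ B] {L : Leaf Γ X B} {T : Tens L}

/-! ### general facts -/

theorem contB : ContinuousConstSMul Γ B := inferInstance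

/-- uniform bounds of an invariant family -/
theorem bound_of (L : Leaf Γ X B) {G : Type} [NormedAddCommGroup G] [NormedSpace ℝ G]
    {F : X × B → E2 → G} (hF : JC F (univ ×ˢ ball 0 3))
    (hinv : ∀ (g : Γ) x ξ, ∀ q ∈ ball (0 : E2) 3, F (g • x, g • ξ) q = F (x, ξ) q) {r : ℝ}
    (hr : r < 3) (k : ℕ) :
    ∃ C, ∀ x ξ, ∀ q ∈ closedBall (0 : E2) r, ‖iteratedFDeriv ℝ k (F (x, ξ)) q‖ ≤ C := by
  obtain ⟨K, hK, hK'⟩ := L.cocompact
  have h1 : closedBall (0 : E2) r ⊆ ball 0 3 := closedBall_subset_ball hr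
  obtain ⟨C, hC⟩ := hF.bound ((hK.prod (isCompact_univ (X := B))).prod
    (isCompact_closedBall (0 : E2) r)) (fun p hp => ⟨mem_univ _, h1 hp.2⟩) k
  refine ⟨C, fun x ξ q hq => ?_⟩
  obtain ⟨g, hg⟩ := hK' x
  have h2 : F (x, ξ) =ᶠ[𝓝 q] F (g • x, g • ξ) := by
    filter_upwards [isOpen_ball.mem_nhds (h1 hq)] with w hw using (hinv g x ξ w hw).symm
  rw [(h2.iteratedFDeriv ℝ k).self_of_nhds]
  exact hC ((g • x, g • ξ), q) ⟨⟨hg, mem_univ _⟩, hq⟩

/-- an invariant property which holds near `y = 0` holds uniformly for small `y` -/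
theorem unif_of (L : Leaf Γ X B) {P : X → E2 → E2 → Prop} {r : ℝ}
    (hinv : ∀ (g : Γ) x y q, P (g • x) y q → P x y q)
    (h : ∀ x, ∀ q ∈ closedBall (0 : E2) r, ∀ᶠ p : (X × E2) × E2 in 𝓝 ((x, q), 0),
      P p.1.1 p.2 p.1.2) :
    ∃ ρ > 0, ∀ x y, ‖y‖ < ρ → ∀ q ∈ closedBall (0 : E2) r, P x y q := by
  obtain ⟨K, hK, hK'⟩ := L.cocompact
  have h1 : ∀ᶠ y in 𝓝 (0 : E2), ∀ c ∈ K ×ˢ closedBall (0 : E2) r, P c.1 y c.2 := by
    refine (hK.prod (isCompact_closedBall (0 : E2) r)).eventually_forall_of_forall_eventually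
      (x₀ := (0 : E2)) (P := fun y c => P c.1 y c.2) fun c hc => ?_
    have h2 := h c.1 c.2 hc.2
    have h3 : Tendsto (fun z : E2 × (X × E2) => ((z.2, z.1) : (X × E2) × E2))
        (𝓝 (0, c)) (𝓝 ((c.1, c.2), 0)) :=
      (by fun_prop : Continuous fun z : E2 × (X × E2) => ((z.2, z.1) : (X × E2) × E2)).tendsto' _ _
        rfl
    exact h3.eventually h2
  obtain ⟨ρ, hρ, h4⟩ := Metric.eventually_nhds_iff_ball.1 h1
  refine ⟨ρ, hρ, fun x y hy q hq => ?_⟩
  obtain ⟨g, hg⟩ := hK' x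
  exact hinv g x y q (h4 y (by simpa using hy) (g • x, q) ⟨hg, hq⟩)

/-! ### gradients -/

/-- the gradient as a linear function of the differential -/
def rz : (E2 →L[ℝ] ℝ) →L[ℝ] E2 :=
  LinearMap.mkContinuous
    { toFun := fun l => (InnerProductSpace.toDual ℝ E2).symm l
      map_add' := fun a b => map_add _ a b
      map_smul' := fun c a => by simp } 1
    (fun l => by
      change ‖(InnerProductSpace.toDual ℝ E2).symm l‖ ≤ 1 * ‖l‖
      rw [LinearIsometryEquiv.norm_map, one_mul])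

theorem inner_rz (l : E2 →L[ℝ] ℝ) (v : E2) : inner ℝ (rz l) v = l v := by
  change inner ℝ ((InnerProductSpace.toDual ℝ E2).symm l) v = l v
  rw [InnerProductSpace.toDual_symm_apply]

theorem norm_rz (l : E2 →L[ℝ] ℝ) : ‖rz l‖ = ‖l‖ :=
  LinearIsometryEquiv.norm_map (InnerProductSpace.toDual ℝ E2).symm l

theorem gradient_eq_rz (f : E2 → ℝ) : gradient f = fun x => rz (fderiv ℝ f x) := rfl

/-- the Hessian is symmetric -/
theorem hess_symm {f : E2 → ℝ} {q : E2} (hf : ContDiffAt ℝ 2 f q) (v w : E2) :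
    inner ℝ (hess f q v) w = inner ℝ v (hess f q w) := by
  have hd : DifferentiableAt ℝ (fderiv ℝ f) q :=
    (hf.fderiv_right (m := 1) (by norm_num)).differentiableAt (by norm_num)
  have h2 : HasFDerivAt (gradient f) (rz ∘L fderiv ℝ (fderiv ℝ f) q) q := by
    rw [gradient_eq_rz]
    exact rz.hasFDerivAt.comp q hd.hasFDerivAt
  have h3 : ∀ v w, inner ℝ (hess f q v) w = fderiv ℝ (fderiv ℝ f) q v w := by
    intro v w
    unfold hess
    rw [h2.fderiv]
    exact inner_rz _ _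
  rw [h3, real_inner_comm, h3]
  exact (hf.isSymmSndFDerivAt (by simp)).eq v w

theorem gradient_jc {Z : Type} [TopologicalSpace Z] {f : Z → E2 → ℝ} {S : Set (Z × E2)}
    (h : JC f S) : JC (fun z => gradient (f z)) S :=
  h.fderiv.clm rz

theorem hess_jc {Z : Type} [TopologicalSpace Z] {f : Z → E2 → ℝ} {S : Set (Z × E2)}
    (h : JC f S) : JC (fun z => hess (f z)) S := (gradient_jc h).fderiv

theorem gradient_add' {f g : E2 → ℝ} {q : E2} (hf : DifferentiableAt ℝ f q)
    (hg : DifferentiableAt ℝ g q) : gradient (fun t => f t + g t) q = gradient f q + gradient g q := by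
  simp only [gradient_eq_rz]
  rw [fderiv_fun_add hf hg, map_add]

theorem gradient_sub' {f g : E2 → ℝ} {q : E2} (hf : DifferentiableAt ℝ f q)
    (hg : DifferentiableAt ℝ g q) : gradient (fun t => f t - g t) q = gradient f q - gradient g q := by
  simp only [gradient_eq_rz]
  rw [fderiv_fun_sub hf hg, map_sub]

theorem gradient_congr {f g : E2 → ℝ} {q : E2} (h : f =ᶠ[𝓝 q] g) : gradient f q = gradient g q := by
  simp only [gradient_eq_rz]
  rw [h.fderiv_eq]

theorem gradient_zero_of_min {f : E2 → ℝ} {q : E2} (h : IsLocalMin f q) : gradient f q = 0 := by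
  simp only [gradient_eq_rz]
  rw [h.fderiv_eq_zero, map_zero]

/-! ### the generating functions -/

variable (S : Bus L T)

/-- the unstable leaf of `ξ` over the disc of `x` -/
def dl (x : X) (ξ : B) (q : E2) : ℝ := S.be x ξ q - S.be x (L.em x) q

/-- the stable leaf of `η` over the disc of `x` -/
def gm (x : X) (η : B) (q : E2) : ℝ := S.be x η q + S.be x (L.em x) q

/-- the tensor of the stable leaves, relative to the fibres over the disc -/
def Nd (x : X) (q : E2) : E2 →L[ℝ] E2 := Ring.inverse (hess (gm S x (L.e x q)) q)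

theorem isOpen_dom : IsOpen ((univ : Set (X × B)) ×ˢ ball (0 : E2) 3) :=
  isOpen_univ.prod isOpen_ball

theorem be_em_jc : JC (fun (p : X × B) q => S.be p.1 (L.em p.1) q) (univ ×ˢ ball 0 3) := by
  have hc : Continuous fun p : X × B => ((p.1, L.em p.1) : X × B) :=
    continuous_fst.prodMk (L.em_cont.comp continuous_fst)
  exact (S.be_jc.pullback hc).mono isOpen_dom fun p hp => ⟨mem_univ _, hp.2⟩

theorem dl_jc : JC (fun (p : X × B) q => dl S p.1 p.2 q) (univ ×ˢ ball 0 3) :=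
  S.be_jc.sub (be_em_jc S)

theorem gm_jc : JC (fun (p : X × B) q => gm S p.1 p.2 q) (univ ×ˢ ball 0 3) :=
  S.be_jc.add (be_em_jc S)

theorem dl_em (x : X) (q : E2) : dl S x (L.em x) q = 0 := sub_self _

theorem dl_zero (x : X) (ξ : B) : dl S x ξ 0 = 0 := by
  rw [dl, S.be_zero, S.be_zero, sub_self]

theorem gm_zero (x : X) (η : B) : gm S x η 0 = 0 := by
  rw [gm, S.be_zero, S.be_zero, add_zero]

theorem dl_smul (g : Γ) (x : X) (ξ : B) {q : E2} (hq : q ∈ ball (0 : E2) 3) :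
    dl S (g • x) (g • ξ) q = dl S x ξ q := by
  rw [dl, dl, S.be_smul g x ξ q hq, L.em_smul, S.be_smul g x _ q hq]

theorem gm_smul (g : Γ) (x : X) (ξ : B) {q : E2} (hq : q ∈ ball (0 : E2) 3) :
    gm S (g • x) (g • ξ) q = gm S x ξ q := by
  rw [gm, gm, S.be_smul g x ξ q hq, L.em_smul, S.be_smul g x _ q hq]

theorem dl_rot (a : O2) (x : X) (ξ : B) {q : E2} (hq : q ∈ ball (0 : E2) 3) :
    dl S (L.rot a x) ξ q = dl S x ξ (a q) := by
  rw [dl, dl, S.be_rot a x ξ q hq, L.em_rot, S.be_rot a x _ q hq]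

theorem gm_rot (a : O2) (x : X) (ξ : B) {q : E2} (hq : q ∈ ball (0 : E2) 3) :
    gm S (L.rot a x) ξ q = gm S x ξ (a q) := by
  rw [gm, gm, S.be_rot a x ξ q hq, L.em_rot, S.be_rot a x _ q hq]

theorem dl_bound {r : ℝ} (hr : r < 3) (k : ℕ) :
    ∃ C, ∀ x ξ, ∀ q ∈ closedBall (0 : E2) r, ‖iteratedFDeriv ℝ k (dl S x ξ) q‖ ≤ C :=
  bound_of L (dl_jc S) (fun g x ξ _ hq => dl_smul S g x ξ hq) hr k

theorem gm_bound {r : ℝ} (hr : r < 3) (k : ℕ) :
    ∃ C, ∀ x ξ, ∀ q ∈ closedBall (0 : E2) r, ‖iteratedFDeriv ℝ k (gm S x ξ) q‖ ≤ C :=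
  bound_of L (gm_jc S) (fun g x ξ _ hq => gm_smul S g x ξ hq) hr k

theorem be_diff (x : X) (ξ : B) {q : E2} (hq : q ∈ ball (0 : E2) 3) :
    DifferentiableAt ℝ (S.be x ξ) q :=
  S.be_jc.differentiableAt (p := ((x, ξ), q)) ⟨mem_univ _, hq⟩

theorem dl_smooth (x : X) (ξ : B) : ContDiffOn ℝ ∞ (dl S x ξ) (ball 0 3) := fun _ hq =>
  ((dl_jc S).contDiffAt (p := ((x, ξ), _)) ⟨mem_univ _, hq⟩).contDiffWithinAt

theorem gm_smooth (x : X) (ξ : B) : ContDiffOn ℝ ∞ (gm S x ξ) (ball 0 3) := fun _ hq =>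
  ((gm_jc S).contDiffAt (p := ((x, ξ), _)) ⟨mem_univ _, hq⟩).contDiffWithinAt

theorem gradient_dl (x : X) (ξ : B) {q : E2} (hq : q ∈ ball (0 : E2) 3) :
    gradient (dl S x ξ) q = gradient (S.be x ξ) q - gradient (S.be x (L.em x)) q :=
  gradient_sub' (be_diff S x ξ hq) (be_diff S x _ hq)

theorem gradient_gm (x : X) (ξ : B) {q : E2} (hq : q ∈ ball (0 : E2) 3) :
    gradient (gm S x ξ) q = gradient (S.be x ξ) q + gradient (S.be x (L.em x)) q :=
  gradient_add' (be_diff S x ξ hq) (be_diff S x _ hq)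

theorem zero_mem3 : (0 : E2) ∈ ball (0 : E2) 3 := mem_ball_self (by norm_num)

theorem gradient_dl_zero (x : X) (ξ : B) : gradient (dl S x ξ) 0 = gradient (S.be x ξ) 0 := by
  rw [gradient_dl S x ξ zero_mem3, S.be_crit, sub_zero]

/-! ### crossings -/

/-- the sum `b_ξ + b_η` is minimal at the crossing of the geodesic `(ξ, η)` with the disc -/
theorem be_min (x : X) (ξ : B) {q : E2} (hq : q ∈ ball (0 : E2) 3) {q' : E2}
    (hq' : q' ∈ ball (0 : E2) 3) :
    S.be x ξ q + S.be x (S.en x ξ q) q ≤ S.be x ξ q' + S.be x (S.en x ξ q) q' := by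
  obtain ⟨z, h1, h2, h3⟩ := S.exists_fr x ξ q hq
  obtain ⟨w, -, -, h4⟩ := S.exists_fr x ξ q' hq'
  have h5 := S.le w z
  have h6 : L.lv z + L.lp z = S.b (L.em z) z + S.b (L.ep z) z := by rw [S.b_em, S.b_ep]
  rw [h6, h1, h2, h3, h3, h4, h4] at h5
  linarith

/-- the covectors of the two ends of a geodesic are opposite -/
theorem gradient_en (x : X) (ξ : B) {q : E2} (hq : q ∈ ball (0 : E2) 3) :
    gradient (S.be x (S.en x ξ q)) q = -gradient (S.be x ξ) q := by
  have h1 : IsLocalMin (fun t => S.be x ξ t + S.be x (S.en x ξ q) t) q := by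
    filter_upwards [isOpen_ball.mem_nhds hq] with t ht using be_min S x ξ hq ht
  have h2 := gradient_zero_of_min h1
  rw [gradient_add' (be_diff S x ξ hq) (be_diff S x _ hq)] at h2
  exact eq_neg_of_add_eq_zero_right h2

theorem gradient_gm_en (x : X) (ξ : B) {q : E2} (hq : q ∈ ball (0 : E2) 3) :
    gradient (gm S x (S.en x ξ q)) q = -gradient (dl S x ξ) q := by
  rw [gradient_gm S x _ hq, gradient_en S x ξ hq, gradient_dl S x ξ hq, neg_sub,
    sub_eq_add_neg, add_comm]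

theorem gradient_gm_e (x : X) {q : E2} (hq : q ∈ ball (0 : E2) 3) :
    gradient (gm S x (L.e x q)) q = 0 := by
  rw [← S.en_em x q hq, gradient_gm_en S x _ hq, gradient_dl S x _ hq, sub_self, neg_zero]

/-- the other direction: a critical point of `b_ξ + b_η` on the right sides is a crossing -/
theorem en_of_gradient (x : X) (ξ η : B) {q : E2} (hq : q ∈ ball (0 : E2) 3)
    (h1 : 0 ≤ S.nu x ξ q) (h2 : S.nu x η q ≤ 0)
    (h : gradient (S.be x ξ) q + gradient (S.be x η) q = 0) : S.en x ξ q = η := by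
  have h3 : ξ = S.en x η q := by
    refine S.cov_inj x ξ _ q hq h1 ?_ ?_
    · rw [S.nu_en x η q hq]
      linarith
    · rw [gradient_en S x η hq]
      exact eq_neg_of_add_eq_zero_left h
  rw [h3, S.en_en x η q hq]

theorem hess_dl (x : X) (ξ : B) {q : E2} (hq : q ∈ ball (0 : E2) 3) :
    hess (dl S x ξ) q = hess (S.be x ξ) q - hess (S.be x (L.em x)) q := by
  have h1 : gradient (dl S x ξ) =ᶠ[𝓝 q] fun t => gradient (S.be x ξ) t - gradient (S.be x (L.em x)) t := by
    filter_upwards [isOpen_ball.mem_nhds hq] with t ht using gradient_dl S x ξ ht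
  have d : ∀ ζ, DifferentiableAt ℝ (gradient (S.be x ζ)) q := fun ζ =>
    (gradient_jc S.be_jc).differentiableAt (p := ((x, ζ), q)) ⟨mem_univ _, hq⟩
  unfold hess
  rw [h1.fderiv_eq, fderiv_fun_sub (d _) (d _)]

theorem hess_gm (x : X) (ξ : B) {q : E2} (hq : q ∈ ball (0 : E2) 3) :
    hess (gm S x ξ) q = hess (S.be x ξ) q + hess (S.be x (L.em x)) q := by
  have h1 : gradient (gm S x ξ) =ᶠ[𝓝 q] fun t => gradient (S.be x ξ) t + gradient (S.be x (L.em x)) t := by
    filter_upwards [isOpen_ball.mem_nhds hq] with t ht using gradient_gm S x ξ ht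
  have d : ∀ ζ, DifferentiableAt ℝ (gradient (S.be x ζ)) q := fun ζ =>
    (gradient_jc S.be_jc).differentiableAt (p := ((x, ζ), q)) ⟨mem_univ _, hq⟩
  unfold hess
  rw [h1.fderiv_eq, fderiv_fun_add (d _) (d _)]

/-- the sum of the Hessians of `b_ξ`, `b_η` -/
theorem hess_sum (x : X) (ξ η : B) {q : E2} (hq : q ∈ ball (0 : E2) 3) :
    hess (S.be x ξ) q + hess (S.be x η) q = hess (dl S x ξ) q + hess (gm S x η) q := by
  rw [hess_dl S x ξ hq, hess_gm S x η hq]
  abel

end Vale.Agent.P207.N4.H709
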