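import Vale.Agent.P207.N4.Dim
import Vale.Agent.P207.N4.H709.DarA

/-!
# P207: Darboux data of the discs, part B: labels of the leaves

`lab S x y`: the point `ξ` of the boundary whose unstable leaf has the covector `y` at the centre of
the disc of `x`, for small `y`.
-/

set_option linter.unusedSectionVars false

open Set Filter Topology Metric
open scoped ContDiff

noncomputable section

namespace Vale.Agent.P207.N4.H709

open Vale.Agent.P207.N3

variable [Dim]

variable {Γ X B : Type} [Group Γ] [MetricSpace X] [ProperSpace X] [MulAction Γ X]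
  [IsIsometricSMul Γ X] [TopologicalSpace B] [CompactSpace B] [T2Space B] [MulAction Γ B]
  [ContinuousConstSMul Γ B] {L : Leaf Γ X B} {T : Tens L} (S : Bus L T)

/-- the discs are transversal to the geodesics of their own leaf -/
def NuPos : Prop := ∀ x, ∀ q ∈ ball (0 : E2) 3, 0 < S.nu x (L.em x) q

/-- the leaf with the covector `y` at the foot point of `x` -/
def lab (x : X) (y : E2) : B := by
  classical
  exact if h : ‖y‖ < S.δ then (S.cov_surj x 0 zero_mem3 y h).choose else L.em x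

theorem lab_spec (x : X) {y : E2} (h : ‖y‖ < S.δ) :
    0 < S.nu x (lab S x y) 0 ∧ gradient (S.be x (lab S x y)) 0 = y := by
  rw [lab, dif_pos h]
  exact (S.cov_surj x 0 zero_mem3 y h).choose_spec

theorem lab_nu (x : X) {y : E2} (h : ‖y‖ < S.δ) : 0 < S.nu x (lab S x y) 0 := (lab_spec S x h).1

theorem lab_grad (x : X) {y : E2} (h : ‖y‖ < S.δ) : gradient (dl S x (lab S x y)) 0 = y := by
  rw [gradient_dl_zero]
  exact (lab_spec S x h).2

theorem lab_unique (x : X) (ξ : B) (h : 0 ≤ S.nu x ξ 0) (h' : ‖gradient (dl S x ξ) 0‖ < S.δ) :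
    lab S x (gradient (dl S x ξ) 0) = ξ := by
  obtain ⟨h1, h2⟩ := lab_spec S x h'
  refine S.cov_inj x _ _ 0 zero_mem3 h1.le h ?_
  rw [h2, gradient_dl_zero]

theorem lab_eq (x : X) (ξ : B) {y : E2} (hy : ‖y‖ < S.δ) (h : 0 ≤ S.nu x ξ 0)
    (h' : gradient (dl S x ξ) 0 = y) : lab S x y = ξ := by
  rw [← h'] at hy ⊢
  exact lab_unique S x ξ h hy

theorem lab_zero (x : X) : lab S x 0 = L.em x :=
  lab_eq S x _ (by simpa using S.δ_pos) (S.nu_em x).le
    (by rw [gradient_dl S x _ zero_mem3, sub_self])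

theorem lab_smul (g : Γ) (x : X) (y : E2) : lab S (g • x) y = g • lab S x y := by
  by_cases hy : ‖y‖ < S.δ
  · obtain ⟨h1, h2⟩ := lab_spec S x hy
    refine lab_eq S (g • x) _ hy ?_ ?_
    · rw [S.nu_smul g x _ 0 zero_mem3]
      exact h1.le
    · rw [gradient_dl_zero]
      refine (gradient_congr ?_).trans h2
      filter_upwards [isOpen_ball.mem_nhds (zero_mem3)] with t ht using S.be_smul g x _ t ht
  · rw [lab, lab, dif_neg hy, dif_neg hy, L.em_smul]

theorem gradient_comp_rot (a : O2) {f g : E2 → ℝ} {q : E2} (h : f =ᶠ[𝓝 q] fun t => g (a t))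
    (hg : DifferentiableAt ℝ g (a q)) : gradient f q = a.symm (gradient g (a q)) := by
  refine ext_inner_right ℝ fun v => ?_
  have h1 : gradient f q = gradient (fun t => g (a t)) q := gradient_congr h
  have h2 : HasFDerivAt (fun t => g (a t))
      ((fderiv ℝ g (a q)).comp (a.toContinuousLinearEquiv : E2 →L[ℝ] E2)) q :=
    hg.hasFDerivAt.comp q a.toContinuousLinearEquiv.hasFDerivAt
  rw [h1]
  simp only [gradient_eq_rz]
  rw [inner_rz, h2.fderiv, ← a.inner_map_map (a.symm _) v, a.apply_symm_apply, inner_rz]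
  rfl

theorem lab_rot (a : O2) (x : X) (y : E2) : lab S (L.rot a x) y = lab S x (a y) := by
  by_cases hy : ‖y‖ < S.δ
  · have hay : ‖a y‖ < S.δ := by rwa [a.norm_map]
    obtain ⟨h1, h2⟩ := lab_spec S x hay
    refine lab_eq S (L.rot a x) _ hy ?_ ?_
    · rw [S.nu_rot a x _ 0 zero_mem3, map_zero]
      exact h1.le
    · rw [gradient_dl_zero]
      have h3 := gradient_comp_rot a (f := S.be (L.rot a x) (lab S x (a y)))
        (g := S.be x (lab S x (a y))) (q := 0) (by
          filter_upwards [isOpen_ball.mem_nhds (zero_mem3)] with t ht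
            using S.be_rot a x _ t ht) (by rw [map_zero]; exact be_diff S x _ zero_mem3)
      rw [h3, map_zero, h2, a.symm_apply_apply]
  · have hay : ¬ ‖a y‖ < S.δ := by rwa [a.norm_map]
    rw [lab, lab, dif_neg hy, dif_neg hay, L.em_rot]

/-! ### continuity -/

theorem nu0_cont : Continuous fun p : X × B => S.nu p.1 p.2 0 := by
  have h := S.nu_cont.comp (f := fun p : X × B => (((p.1, p.2), 0) : (X × B) × E2)) (s := univ)
    (by fun_prop) fun p _ => ⟨mem_univ _, zero_mem3⟩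
  exact continuousOn_univ.1 h

theorem grad0_cont : Continuous fun p : X × B => gradient (S.be p.1 p.2) 0 := by
  have h := (gradient_jc S.be_jc).continuousOn.comp
    (f := fun p : X × B => (((p.1, p.2), 0) : (X × B) × E2)) (s := univ)
    (by fun_prop) fun p _ => ⟨mem_univ _, zero_mem3⟩
  exact continuousOn_univ.1 h

/-- closed graph: a property of the leaf which is open is open in `(x, y)` -/
theorem lab_eventually {x₀ : X} {y₀ : E2} (hy₀ : ‖y₀‖ < S.δ) {U : Set B} (hU : U ∈ 𝓝 (lab S x₀ y₀)) :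
    ∀ᶠ p : X × E2 in 𝓝 (x₀, y₀), lab S p.1 p.2 ∈ U := by
  obtain ⟨U', hU'U, hU'o, hmem⟩ := mem_nhds_iff.1 hU
  set F : Set ((X × E2) × B) := {p | 0 ≤ S.nu p.1.1 p.2 0 ∧ gradient (S.be p.1.1 p.2) 0 = p.1.2 ∧
    p.2 ∉ U'} with hF
  have hc1 : Continuous fun p : (X × E2) × B => S.nu p.1.1 p.2 0 :=
    (nu0_cont S).comp (by fun_prop : Continuous fun p : (X × E2) × B => (p.1.1, p.2))
  have hc2 : Continuous fun p : (X × E2) × B => gradient (S.be p.1.1 p.2) 0 :=
    (grad0_cont S).comp (by fun_prop : Continuous fun p : (X × E2) × B => (p.1.1, p.2))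
  have hFc : IsClosed F := by
    have e1 : IsClosed {p : (X × E2) × B | 0 ≤ S.nu p.1.1 p.2 0} :=
      isClosed_le continuous_const hc1
    have e2 : IsClosed {p : (X × E2) × B | gradient (S.be p.1.1 p.2) 0 = p.1.2} :=
      isClosed_eq hc2 (continuous_snd.comp continuous_fst)
    have e3 : IsClosed {p : (X × E2) × B | p.2 ∉ U'} :=
      (hU'o.preimage continuous_snd).isClosed_compl
    exact e1.inter (e2.inter e3)
  have hP : IsClosed (Prod.fst '' F) := isClosedMap_fst_of_compactSpace _ hFc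
  have hnot : ((x₀, y₀) : X × E2) ∉ Prod.fst '' F := by
    rintro ⟨⟨p, ξ⟩, ⟨h1, h2, h3⟩, h4⟩
    simp only at h4
    subst h4
    refine h3 ?_
    have h5 : lab S x₀ y₀ = ξ := lab_eq S x₀ ξ hy₀ h1 (by rw [gradient_dl_zero]; exact h2)
    rw [← h5]
    exact hmem
  have hδ : ∀ᶠ p : X × E2 in 𝓝 (x₀, y₀), ‖p.2‖ < S.δ :=
    (continuous_snd.norm).continuousAt.eventually_lt continuousAt_const hy₀
  filter_upwards [hP.isOpen_compl.mem_nhds hnot, hδ] with p hp1 hp2
  by_contra hcon
  obtain ⟨h1, h2⟩ := lab_spec S p.1 hp2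
  exact hp1 ⟨((p.1, p.2), lab S p.1 p.2), ⟨h1.le, h2, fun h => hcon (hU'U h)⟩, rfl⟩

theorem lab_cont : ContinuousOn (fun p : X × E2 => lab S p.1 p.2) (univ ×ˢ ball 0 S.δ) := by
  rintro ⟨x₀, y₀⟩ ⟨-, hy₀⟩
  refine ContinuousAt.continuousWithinAt fun U hU => ?_
  exact lab_eventually S (by simpa using hy₀) hU

theorem lab_contAt {x₀ : X} {y₀ : E2} (hy₀ : ‖y₀‖ < S.δ) :
    ContinuousAt (fun p : X × E2 => lab S p.1 p.2) (x₀, y₀) := fun _ hU =>
  lab_eventually S hy₀ hU

/-! ### pull back of the families by the labels -/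

/-- the domain of the labelled families -/
def Dy : Set ((X × E2) × E2) := {p | ‖p.1.2‖ < S.δ ∧ p.2 ∈ ball (0 : E2) 3}

theorem isOpen_Dy : IsOpen (Dy (X := X) S) := by
  have h1 : IsOpen {p : (X × E2) × E2 | ‖p.1.2‖ < S.δ} :=
    isOpen_lt (by fun_prop) continuous_const
  exact h1.inter (isOpen_ball.preimage continuous_snd)

/-- pull back of a jointly smooth family by a map which is only continuous on an open set -/
theorem JC.pullbackOn {Z Z' E F : Type} [TopologicalSpace Z] [TopologicalSpace Z']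
    [NormedAddCommGroup E] [NormedSpace ℝ E] [NormedAddCommGroup F] [NormedSpace ℝ F]
    {f : Z → E → F} {S : Set (Z × E)} (h : JC f S) {c : Z' → Z} {U : Set Z'}
    (hc : ContinuousOn c U) {T : Set (Z' × E)} (hT : IsOpen T)
    (hTS : ∀ p ∈ T, p.1 ∈ U ∧ (c p.1, p.2) ∈ S) : JC (fun z u => f (c z) u) T := by
  refine ⟨hT, fun z => ?_, fun k => ?_⟩
  · exact (h.smooth (c z)).mono fun u hu => (hTS (z, u) hu).2
  · have h1 : ContinuousOn (fun p : Z' × E => ((c p.1, p.2) : Z × E)) T :=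
      (hc.comp continuousOn_fst fun p hp => (hTS p hp).1).prodMk continuousOn_snd
    exact (h.cont k).comp h1 fun p hp => (hTS p hp).2

theorem labx_cont : ContinuousOn (fun p : X × E2 => ((p.1, lab S p.1 p.2) : X × B))
    {p | ‖p.2‖ < S.δ} := by
  refine continuousOn_fst.prodMk ((lab_cont S).mono fun _ hp => ⟨mem_univ _, ?_⟩)
  simpa using hp

theorem isOpen_y : IsOpen {p : X × E2 | ‖p.2‖ < S.δ} := isOpen_lt (by fun_prop) continuous_const

theorem lab_jc {F : Type} [NormedAddCommGroup F] [NormedSpace ℝ F] {f : X × B → E2 → F}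
    (h : JC f (univ ×ˢ ball 0 3)) :
    JC (fun (p : X × E2) q => f (p.1, lab S p.1 p.2) q) (Dy S) :=
  JC.pullbackOn h (labx_cont S) (isOpen_Dy S)
    fun _ hp => ⟨hp.1, mem_univ _, hp.2⟩

theorem dlab_jc : JC (fun (p : X × E2) q => dl S p.1 (lab S p.1 p.2) q) (Dy S) :=
  lab_jc S (dl_jc S)

/-- continuity of a function of the leaf, the frame and the point -/
theorem lab_contAt3 {F : Type} [TopologicalSpace F] {f : (X × B) × E2 → F}
    (hf : ContinuousOn f (univ ×ˢ ball 0 3)) {x₀ : X} {y₀ q₀ : E2} (hy₀ : ‖y₀‖ < S.δ)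
    (hq₀ : q₀ ∈ ball (0 : E2) 3) :
    ContinuousAt (fun p : (X × E2) × E2 => f ((p.1.1, lab S p.1.1 p.2), p.1.2)) ((x₀, q₀), y₀) := by
  have h1 : ContinuousAt (fun p : (X × E2) × E2 => lab S p.1.1 p.2) ((x₀, q₀), y₀) :=
    ContinuousAt.comp (g := fun p : X × E2 => lab S p.1 p.2)
      (f := fun p : (X × E2) × E2 => ((p.1.1, p.2) : X × E2)) (x := ((x₀, q₀), y₀))
      (lab_contAt S hy₀) (by fun_prop)
  have h2 : ContinuousAt (fun p : (X × E2) × E2 =>
      (((p.1.1, lab S p.1.1 p.2), p.1.2) : (X × B) × E2)) ((x₀, q₀), y₀) := by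
    have e1 : ContinuousAt (fun p : (X × E2) × E2 => p.1.1) ((x₀, q₀), y₀) := by fun_prop
    have e2 : ContinuousAt (fun p : (X × E2) × E2 => p.1.2) ((x₀, q₀), y₀) := by fun_prop
    exact (e1.prodMk h1).prodMk e2
  have h3 : ContinuousAt f ((x₀, lab S x₀ y₀), q₀) :=
    hf.continuousAt ((isOpen_dom).mem_nhds ⟨mem_univ _, hq₀⟩)
  exact ContinuousAt.comp (g := f) (f := fun p : (X × E2) × E2 =>
    (((p.1.1, lab S p.1.1 p.2), p.1.2) : (X × B) × E2)) h3 h2

/-! ### the positivity of `nu`, uniformly -/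

theorem exists_nu_pos (hS : NuPos S) {r : ℝ} (hr : r < 3) : ∃ ρ > 0, ρ ≤ S.δ ∧ ∀ x y, ‖y‖ < ρ →
    ∀ q ∈ closedBall (0 : E2) r, 0 < S.nu x (lab S x y) q := by
  have hsub : closedBall (0 : E2) r ⊆ ball 0 3 := closedBall_subset_ball hr
  obtain ⟨ρ, hρ, h⟩ := unif_of L (r := r)
    (P := fun x y q => q ∈ closedBall (0 : E2) r → 0 < S.nu x (lab S x y) q)
    (fun g x y q h hq => by
      have := h hq
      rwa [lab_smul, S.nu_smul g x _ q (hsub hq)] at this)
    (fun x q hq => by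
      have h1 := lab_contAt3 S S.nu_cont (x₀ := x) (y₀ := 0) (q₀ := q) (by simpa using S.δ_pos)
        (hsub hq)
      have h2 : 0 < S.nu x (lab S x 0) q := by
        rw [lab_zero]
        exact hS x q (hsub hq)
      filter_upwards [continuousAt_const.eventually_lt h1 h2] with p hp _ using hp)
  refine ⟨min ρ S.δ, lt_min hρ S.δ_pos, min_le_right _ _, fun x y hy q hq => ?_⟩
  exact h x y (hy.trans_le (min_le_left _ _)) q hq hq

/-- the gradients of the labelled leaves tend to zero, uniformly -/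
theorem exists_small {F : Type} [NormedAddCommGroup F] [NormedSpace ℝ F] {f : X × B → E2 → F}
    (hf : JC f (univ ×ˢ ball 0 3)) (h0 : ∀ x, ∀ q ∈ ball (0 : E2) 3, f (x, L.em x) q = 0)
    (hinv : ∀ (g : Γ) x ξ, ∀ q ∈ ball (0 : E2) 3, f (g • x, g • ξ) q = f (x, ξ) q)
    {r : ℝ} (hr : r < 3) {ε : ℝ} (hε : 0 < ε) : ∃ ρ > 0, ρ ≤ S.δ ∧ ∀ x y, ‖y‖ < ρ →
    ∀ q ∈ closedBall (0 : E2) r, ‖f (x, lab S x y) q‖ < ε := by
  have hsub : closedBall (0 : E2) r ⊆ ball 0 3 := closedBall_subset_ball hr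
  obtain ⟨ρ, hρ, h⟩ := unif_of L (r := r)
    (P := fun x y q => q ∈ closedBall (0 : E2) r → ‖f (x, lab S x y) q‖ < ε)
    (fun g x y q h hq => by
      have := h hq
      rwa [lab_smul, hinv g x _ q (hsub hq)] at this)
    (fun x q hq => by
      have h1 := (lab_contAt3 S hf.continuousOn (x₀ := x) (y₀ := 0) (q₀ := q)
        (by simpa using S.δ_pos) (hsub hq)).norm
      have h2 : ‖f (x, lab S x 0) q‖ < ε := by
        rw [lab_zero, h0 x q (hsub hq), norm_zero]
        exact hε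
      filter_upwards [h1.eventually_lt continuousAt_const h2] with p hp _ using hp)
  refine ⟨min ρ S.δ, lt_min hρ S.δ_pos, min_le_right _ _, fun x y hy q hq => ?_⟩
  exact h x y (hy.trans_le (min_le_left _ _)) q hq hq

end Vale.Agent.P207.N4.H709
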