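import Vale.Agent.P207.N4.Dim
import Vale.Agent.P207.N4.H709.DarB

/-!
# P207: Darboux data of the discs, part C: crossings

Over `S : Bus L T` with `NuPos S`: for a leaf `ξ` close to `em x` and a point `e x q` of the leaf of
`x`, the geodesic `(ξ, e x q)` crosses the disc of `x` in exactly one point `q'` (near `q`), and
`‖q' - q‖ ≤ C ‖∇(dl x ξ)(q)‖`.
-/

set_option linter.unusedSectionVars false

open Set Filter Topology Metric
open scoped ContDiff

noncomputable section

namespace Vale.Agent.P207.N4.H709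

open Vale.Agent.P207.N3

variable [Dim]

variable {Γ X B : Type} [Group Γ] [MetricSpace X] [ProperSpace X] [MulAction Γ X]
  [IsIsometricSMul Γ X] [TopologicalSpace B] [CompactSpace B] [T2Space B] [MulAction Γ B]
  [ContinuousConstSMul Γ B] {L : Leaf Γ X B} {T : Tens L}

/-! ### strong monotonicity of the gradient -/

theorem mono_of_hess {f : E2 → ℝ} {U : Set E2} (hU : Convex ℝ U)
    (hf : ∀ p ∈ U, DifferentiableAt ℝ (gradient f) p) {c : ℝ}
    (hc : ∀ p ∈ U, ∀ v, c * ‖v‖ ^ 2 ≤ inner ℝ (hess f p v) v) {p q : E2} (hp : p ∈ U)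
    (hq : q ∈ U) : c * ‖p - q‖ ^ 2 ≤ inner ℝ (gradient f p - gradient f q) (p - q) := by
  have hseg : ∀ t ∈ Icc (0 : ℝ) 1, q + t • (p - q) ∈ U := fun t ht =>
    hU.add_smul_sub_mem hq hp ht
  have hd : ∀ t ∈ Icc (0 : ℝ) 1, HasDerivAt (fun t : ℝ => inner ℝ (gradient f (q + t • (p - q)))
      (p - q)) (inner ℝ (hess f (q + t • (p - q)) (p - q)) (p - q)) t := by
    intro t ht
    have h1 : HasDerivAt (fun t : ℝ => q + t • (p - q)) (p - q) t := by
      simpa using ((hasDerivAt_id t).smul_const (p - q)).const_add q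
    have h2 : HasDerivAt (fun t : ℝ => gradient f (q + t • (p - q)))
        (hess f (q + t • (p - q)) (p - q)) t :=
      HasFDerivAt.comp_hasDerivAt (l := gradient f) t ((hf _ (hseg t ht)).hasFDerivAt) h1
    simpa using h2.inner ℝ (hasDerivAt_const t (p - q))
  obtain ⟨t, ht, h3⟩ := exists_hasDerivAt_eq_slope
    (fun t : ℝ => inner ℝ (gradient f (q + t • (p - q))) (p - q))
    (fun t : ℝ => inner ℝ (hess f (q + t • (p - q)) (p - q)) (p - q)) zero_lt_one
    (fun t ht => (hd t ht).continuousAt.continuousWithinAt)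
    (fun t ht => hd t ⟨ht.1.le, ht.2.le⟩)
  have h4 := hc _ (hseg t ⟨ht.1.le, ht.2.le⟩) (p - q)
  simp only [one_smul, zero_smul, add_zero, add_sub_cancel, sub_zero, div_one] at h3
  rw [h3] at h4
  rw [inner_sub_left]
  exact h4

/-- existence of a critical point near a point where the gradient is small -/
theorem exists_crit {f : E2 → ℝ} {q : E2} {s c : ℝ} (hs : 0 < s) (hcpos : 0 < c)
    (hf0 : ∀ p ∈ closedBall q s, DifferentiableAt ℝ f p)
    (hf : ∀ p ∈ closedBall q s, DifferentiableAt ℝ (gradient f) p)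
    (hc : ∀ p ∈ closedBall q s, ∀ v, c * ‖v‖ ^ 2 ≤ inner ℝ (hess f p v) v)
    (hsmall : ‖gradient f q‖ < c * s) :
    ∃ p ∈ ball q s, gradient f p = 0 ∧ c * ‖p - q‖ ≤ ‖gradient f q‖ := by
  have hqm : q ∈ closedBall q s := mem_closedBall_self hs.le
  obtain ⟨p, hp, hmin⟩ := (isCompact_closedBall q s).exists_isMinOn ⟨q, hqm⟩
    (fun p hp => (hf0 p hp).continuousAt.continuousWithinAt)
  have hmono := mono_of_hess (convex_closedBall q s) hf hc hp hqm
  have hlow : -‖gradient f q‖ * ‖p - q‖ ≤ inner ℝ (gradient f q) (p - q) := by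
    have := abs_real_inner_le_norm (gradient f q) (p - q)
    rw [abs_le] at this
    linarith [this.1]
  have hdir : inner ℝ (gradient f p) (p - q) ≤ 0 := by
    have h1 : IsLocalMinOn f (closedBall q s) p := hmin.localize
    have h2 : q - p ∈ posTangentConeAt (closedBall q s) p :=
      mem_posTangentConeAt_of_segment_subset
        ((convex_closedBall q s).segment_subset hp (by rw [add_sub_cancel]; exact hqm))
    have h3 := h1.hasFDerivWithinAt_nonneg ((hf0 p hp).hasFDerivAt.hasFDerivWithinAt) h2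
    rw [← inner_rz] at h3
    have h4 : gradient f p = rz (fderiv ℝ f p) := by rw [gradient_eq_rz]
    rw [h4]
    have h5 : p - q = -(q - p) := by abel
    rw [h5, inner_neg_right]
    linarith
  rw [inner_sub_left] at hmono
  have hle : c * ‖p - q‖ ^ 2 ≤ ‖gradient f q‖ * ‖p - q‖ := by linarith
  have hle' : c * ‖p - q‖ ≤ ‖gradient f q‖ := by
    rcases (norm_nonneg (p - q)).eq_or_lt with h0 | h0
    · rw [← h0, mul_zero]
      exact norm_nonneg _
    · nlinarith
  have hpb : p ∈ ball q s := by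
    rw [mem_ball, dist_eq_norm]
    by_contra hcon
    push Not at hcon
    nlinarith
  refine ⟨p, hpb, ?_, hle'⟩
  have h1 : IsLocalMin f p := hmin.isLocalMin (Filter.mem_of_superset
    (isOpen_ball.mem_nhds hpb) ball_subset_closedBall)
  exact gradient_zero_of_min h1

theorem crit_unique {f : E2 → ℝ} {U : Set E2} (hU : Convex ℝ U)
    (hf : ∀ p ∈ U, DifferentiableAt ℝ (gradient f) p) {c : ℝ} (hcpos : 0 < c)
    (hc : ∀ p ∈ U, ∀ v, c * ‖v‖ ^ 2 ≤ inner ℝ (hess f p v) v) {p q : E2} (hp : p ∈ U)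
    (hq : q ∈ U) (h1 : gradient f p = 0) (h2 : gradient f q = 0) : p = q := by
  have h3 := mono_of_hess hU hf hc hp hq
  rw [h1, h2, sub_self, inner_zero_left] at h3
  have h4 : ‖p - q‖ ^ 2 ≤ 0 := by nlinarith [sq_nonneg ‖p - q‖]
  have h5 : ‖p - q‖ = 0 := by
    have := sq_nonneg ‖p - q‖
    exact pow_eq_zero_iff (two_ne_zero) |>.1 (le_antisymm h4 this)
  exact sub_eq_zero.1 (norm_eq_zero.1 h5)

/-- an invariant property which holds near `y = 0` holds uniformly for small `y`: general compact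
parameter set -/
theorem unif_of' (L : Leaf Γ X B) {Q : Type} [TopologicalSpace Q] {D : Set Q} (hD : IsCompact D)
    {P : X → E2 → Q → Prop}
    (hinv : ∀ (g : Γ) x y, ∀ q ∈ D, P (g • x) y q → P x y q)
    (h : ∀ x, ∀ q ∈ D, ∀ᶠ p : (X × Q) × E2 in 𝓝 ((x, q), 0), P p.1.1 p.2 p.1.2) :
    ∃ ρ > 0, ∀ x y, ‖y‖ < ρ → ∀ q ∈ D, P x y q := by
  obtain ⟨K, hK, hK'⟩ := L.cocompact
  have h1 : ∀ᶠ y in 𝓝 (0 : E2), ∀ c ∈ K ×ˢ D, P c.1 y c.2 := by
    refine (hK.prod hD).eventually_forall_of_forall_eventually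
      (x₀ := (0 : E2)) (P := fun y c => P c.1 y c.2) fun c hc => ?_
    have h2 := h c.1 c.2 hc.2
    have h3 : Tendsto (fun z : E2 × (X × Q) => ((z.2, z.1) : (X × Q) × E2))
        (𝓝 (0, c)) (𝓝 ((c.1, c.2), 0)) :=
      (by fun_prop : Continuous fun z : E2 × (X × Q) => ((z.2, z.1) : (X × Q) × E2)).tendsto' _ _
        rfl
    exact h3.eventually h2
  obtain ⟨ρ, hρ, h4⟩ := Metric.eventually_nhds_iff_ball.1 h1
  refine ⟨ρ, hρ, fun x y hy q hq => ?_⟩
  obtain ⟨g, hg⟩ := hK' x
  exact hinv g x y q hq (h4 y (by simpa using hy) (g • x, q) ⟨hg, hq⟩)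

/-- `e x q` is jointly continuous at interior points -/
theorem e_contAt (L : Leaf Γ X B) {x : X} {q : E2} (hq : q ∈ ball (0 : E2) 3) :
    ContinuousAt (fun p : X × E2 => L.e p.1 p.2) (x, q) :=
  (L.e_cont.mono (prod_mono_right ball_subset_closedBall)).continuousAt
    ((isOpen_univ.prod isOpen_ball).mem_nhds ⟨mem_univ _, hq⟩)

variable (S : Bus L T)

/-- continuity of a function of `(x, e x q, q + y)` -/
theorem e_contAt3 {F : Type} [TopologicalSpace F] {f : (X × B) × E2 → F}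
    (hf : ContinuousOn f (univ ×ˢ ball 0 3)) {x₀ : X} {q₀ : E2}
    (hq₀ : q₀ ∈ ball (0 : E2) 3) :
    ContinuousAt (fun p : (X × E2) × E2 => f ((p.1.1, L.e p.1.1 p.1.2), p.1.2 + p.2))
      ((x₀, q₀), 0) := by
  have h1 : ContinuousAt (fun p : (X × E2) × E2 => L.e p.1.1 p.1.2) ((x₀, q₀), 0) :=
    ContinuousAt.comp (g := fun p : X × E2 => L.e p.1 p.2)
      (f := fun p : (X × E2) × E2 => ((p.1.1, p.1.2) : X × E2)) (x := ((x₀, q₀), 0))
      (e_contAt L hq₀) (by fun_prop)
  have h2 : ContinuousAt (fun p : (X × E2) × E2 =>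
      (((p.1.1, L.e p.1.1 p.1.2), p.1.2 + p.2) : (X × B) × E2)) ((x₀, q₀), 0) := by
    have e1 : ContinuousAt (fun p : (X × E2) × E2 => p.1.1) ((x₀, q₀), 0) := by fun_prop
    have e2 : ContinuousAt (fun p : (X × E2) × E2 => p.1.2 + p.2) ((x₀, q₀), 0) := by fun_prop
    exact (e1.prodMk h1).prodMk e2
  have h3 : ContinuousAt f ((x₀, L.e x₀ q₀), q₀ + 0) :=
    hf.continuousAt ((isOpen_dom).mem_nhds ⟨mem_univ _, by simpa using hq₀⟩)
  exact ContinuousAt.comp (g := f) (f := fun p : (X × E2) × E2 =>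
    (((p.1.1, L.e p.1.1 p.1.2), p.1.2 + p.2) : (X × B) × E2)) h3 h2

theorem hess_smul_inv (g : Γ) (x : X) (ξ : B) {q : E2} (hq : q ∈ ball (0 : E2) 3) :
    hess (S.be (g • x) (g • ξ)) q = hess (S.be x ξ) q := by
  have h1 : S.be (g • x) (g • ξ) =ᶠ[𝓝 q] S.be x ξ := by
    filter_upwards [isOpen_ball.mem_nhds hq] with t ht using S.be_smul g x ξ t ht
  have h2 : gradient (S.be (g • x) (g • ξ)) =ᶠ[𝓝 q] gradient (S.be x ξ) := by
    filter_upwards [h1.eventuallyEq_nhds] with t ht using gradient_congr ht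
  exact h2.fderiv_eq

theorem e_smul3 (g : Γ) (x : X) {q : E2} (hq : q ∈ ball (0 : E2) 3) :
    L.e (g • x) q = g • L.e x q := L.e_smul g x q (ball_subset_closedBall hq)

/-- uniform positivity of the Hessian of `b_{em x} + b_η` at its minimum `q`, `η = e x q` -/
theorem exists_pos (hn : NuPos S) {r : ℝ} (hr : r < 3) : ∃ c > 0, ∀ x,
    ∀ q ∈ closedBall (0 : E2) r, ∀ v, c * ‖v‖ ^ 2 ≤
      inner ℝ ((hess (S.be x (L.em x)) q + hess (S.be x (L.e x q)) q) v) v := by
  have hsub : closedBall (0 : E2) r ⊆ ball 0 3 := closedBall_subset_ball hr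
  obtain ⟨K, hK, hK'⟩ := L.cocompact
  set f : (X × E2) × E2 → ℝ := fun p =>
    inner ℝ ((hess (S.be p.1.1 (L.em p.1.1)) p.1.2 + hess (S.be p.1.1 (L.e p.1.1 p.1.2)) p.1.2) p.2)
      p.2 with hf
  have hcont : ContinuousOn f ((K ×ˢ closedBall (0 : E2) r) ×ˢ sphere (0 : E2) 1) := by
    have hA : ContinuousOn (fun p : (X × E2) × E2 => hess (S.be p.1.1 (L.em p.1.1)) p.1.2)
        ((K ×ˢ closedBall (0 : E2) r) ×ˢ sphere (0 : E2) 1) := by
      have h1 := (hess_jc S.be_jc).continuousOn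
      refine h1.comp (f := fun p : (X × E2) × E2 => (((p.1.1, L.em p.1.1), p.1.2) : (X × B) × E2))
        ?_ fun p hp => ⟨mem_univ _, hsub hp.1.2⟩
      have h2 : Continuous fun p : (X × E2) × E2 => L.em p.1.1 := L.em_cont.comp (by fun_prop)
      exact (((by fun_prop : Continuous fun p : (X × E2) × E2 => p.1.1).prodMk h2).prodMk
        (by fun_prop)).continuousOn
    have hB : ContinuousOn (fun p : (X × E2) × E2 => hess (S.be p.1.1 (L.e p.1.1 p.1.2)) p.1.2)
        ((K ×ˢ closedBall (0 : E2) r) ×ˢ sphere (0 : E2) 1) := by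
      have h1 := (hess_jc S.be_jc).continuousOn
      refine h1.comp (f := fun p : (X × E2) × E2 =>
        (((p.1.1, L.e p.1.1 p.1.2), p.1.2) : (X × B) × E2)) ?_ fun p hp => ⟨mem_univ _, hsub hp.1.2⟩
      have h2 : ContinuousOn (fun p : (X × E2) × E2 => L.e p.1.1 p.1.2)
          ((K ×ˢ closedBall (0 : E2) r) ×ˢ sphere (0 : E2) 1) :=
        L.e_cont.comp (by fun_prop : Continuous fun p : (X × E2) × E2 => (p.1.1, p.1.2)).continuousOn
          fun p hp => ⟨mem_univ _, ball_subset_closedBall (hsub hp.1.2)⟩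
      exact (((by fun_prop : Continuous fun p : (X × E2) × E2 => p.1.1).continuousOn.prodMk
        h2).prodMk (by fun_prop))
    exact ((hA.add hB).clm_apply continuousOn_snd).inner continuousOn_snd
  have hpos : ∀ x, ∀ q ∈ closedBall (0 : E2) r, ∀ v ≠ 0, 0 < inner ℝ
      ((hess (S.be x (L.em x)) q + hess (S.be x (L.e x q)) q) v) v := by
    intro x q hq v hv
    have h1 := S.pos x (L.em x) q (hsub hq) (hn x q (hsub hq)).ne' v hv
    rwa [S.en_em x q (hsub hq)] at h1
  obtain ⟨c, hc, hcb⟩ : ∃ c > 0, ∀ p ∈ (K ×ˢ closedBall (0 : E2) r) ×ˢ sphere (0 : E2) 1,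
      c ≤ f p := by
    rcases ((K ×ˢ closedBall (0 : E2) r) ×ˢ sphere (0 : E2) 1).eq_empty_or_nonempty with he | hne
    · exact ⟨1, one_pos, fun p hp => by rw [he] at hp; exact hp.elim⟩
    · obtain ⟨p, hp, hmin⟩ := ((hK.prod (isCompact_closedBall (0 : E2) r)).prod
        (isCompact_sphere (0 : E2) 1)).exists_isMinOn hne hcont
      refine ⟨f p, hpos p.1.1 p.1.2 hp.1.2 p.2 ?_, fun p' hp' => hmin hp'⟩
      rintro h0
      have h2 : ‖p.2‖ = 1 := by simpa using hp.2
      rw [h0, norm_zero] at h2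
      exact zero_ne_one h2
  refine ⟨c, hc, fun x q hq v => ?_⟩
  obtain ⟨g, hg⟩ := hK' x
  rcases eq_or_ne v 0 with rfl | hv
  · simp
  have hv' : 0 < ‖v‖ := norm_pos_iff.2 hv
  have h1 := hcb ((g • x, q), ‖v‖⁻¹ • v) ⟨⟨hg, hq⟩, by
    simp [norm_smul, hv'.ne']⟩
  simp only [hf] at h1
  rw [L.em_smul, e_smul3 g x (hsub hq), hess_smul_inv S g x _ (hsub hq),
    hess_smul_inv S g x _ (hsub hq), map_smul, inner_smul_left, inner_smul_right] at h1
  simp only [conj_trivial] at h1
  have h2 : ‖v‖⁻¹ * (‖v‖⁻¹ * inner ℝ ((hess (S.be x (L.em x)) q + hess (S.be x (L.e x q)) q) v) v)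
      = inner ℝ ((hess (S.be x (L.em x)) q + hess (S.be x (L.e x q)) q) v) v / ‖v‖ ^ 2 := by
    field_simp
  rw [h2, le_div_iff₀ (by positivity)] at h1
  exact h1

theorem hess_congr {f g : E2 → ℝ} {q : E2} (h : f =ᶠ[𝓝 q] g) : hess f q = hess g q := by
  have h2 : gradient f =ᶠ[𝓝 q] gradient g := by
    filter_upwards [h.eventuallyEq_nhds] with t ht using gradient_congr ht
  exact h2.fderiv_eq

theorem dl_congr (g : Γ) (x : X) (ξ : B) {q : E2} (hq : q ∈ ball (0 : E2) 3) :
    dl S (g • x) (g • ξ) =ᶠ[𝓝 q] dl S x ξ := by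
  filter_upwards [isOpen_ball.mem_nhds hq] with t ht using dl_smul S g x ξ ht

theorem gm_congr (g : Γ) (x : X) (ξ : B) {q : E2} (hq : q ∈ ball (0 : E2) 3) :
    gm S (g • x) (g • ξ) =ᶠ[𝓝 q] gm S x ξ := by
  filter_upwards [isOpen_ball.mem_nhds hq] with t ht using gm_smul S g x ξ ht

theorem hess_sum' (x : X) (ξ η : B) {q : E2} (hq : q ∈ ball (0 : E2) 3) :
    hess (fun t => S.be x ξ t + S.be x η t) q = hess (dl S x ξ) q + hess (gm S x η) q := by
  rw [← hess_sum S x ξ η hq]
  have h1 : gradient (fun t => S.be x ξ t + S.be x η t) =ᶠ[𝓝 q]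
      fun t => gradient (S.be x ξ) t + gradient (S.be x η) t := by
    filter_upwards [isOpen_ball.mem_nhds hq] with t ht
      using gradient_add' (be_diff S x ξ ht) (be_diff S x η ht)
  have d : ∀ ζ, DifferentiableAt ℝ (gradient (S.be x ζ)) q := fun ζ =>
    (gradient_jc S.be_jc).differentiableAt (p := ((x, ζ), q)) ⟨mem_univ _, hq⟩
  unfold hess
  rw [h1.fderiv_eq, fderiv_fun_add (d _) (d _)]

theorem hess_sum_em (x : X) {q : E2} (hq : q ∈ ball (0 : E2) 3) (η : B) :
    hess (S.be x (L.em x)) q + hess (S.be x η) q = hess (gm S x η) q := by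
  rw [hess_gm S x η hq, add_comm]

/-- near the point `q` of the disc: the geodesic `(·, e x q)` is transversal, the Hessian is close
to the one at `q` -/
theorem exists_near (hn : NuPos S) {r : ℝ} (hr : r < 3) {ε : ℝ} (hε : 0 < ε) : ∃ s > 0,
    ∀ x v, ‖v‖ < s → ∀ q ∈ closedBall (0 : E2) r, S.nu x (L.e x q) (q + v) < 0 ∧
      ‖hess (gm S x (L.e x q)) (q + v) - hess (gm S x (L.e x q)) q‖ < ε := by
  have hsub : closedBall (0 : E2) r ⊆ ball 0 3 := closedBall_subset_ball hr
  have hr3 : 0 < 3 - r := by linarith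
  obtain ⟨s, hs, h⟩ := unif_of' L (isCompact_closedBall (0 : E2) r)
    (P := fun x v q => ‖v‖ < 3 - r → S.nu x (L.e x q) (q + v) < 0 ∧
      ‖hess (gm S x (L.e x q)) (q + v) - hess (gm S x (L.e x q)) q‖ < ε)
    (fun g x v q hq h hv => by
      have hqv : q + v ∈ ball (0 : E2) 3 := by
        rw [mem_ball_zero_iff]
        have := norm_add_le q v
        have h2 : ‖q‖ ≤ r := by simpa using hq
        linarith
      have h2 := h hv
      rwa [e_smul3 g x (hsub hq), S.nu_smul g x _ _ hqv, hess_congr (gm_congr S g x _ hqv),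
        hess_congr (gm_congr S g x _ (hsub hq))] at h2)
    (fun x q hq => by
      have h1 := e_contAt3 (L := L) S.nu_cont (x₀ := x) (q₀ := q) (hsub hq)
      have h2 : S.nu x (L.e x q) (q + 0) < 0 := by
        rw [add_zero, ← S.en_em x q (hsub hq), S.nu_en x _ q (hsub hq)]
        exact neg_neg_of_pos (hn x q (hsub hq))
      have h3 := e_contAt3 (L := L) (hess_jc (gm_jc S)).continuousOn (x₀ := x) (q₀ := q) (hsub hq)
      have h4 : ContinuousAt (fun p : (X × E2) × E2 => hess (gm S p.1.1 (L.e p.1.1 p.1.2)) p.1.2)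
          ((x, q), 0) := by
        have h5 : ContinuousAt (fun p : (X × E2) × E2 => (((p.1.1, p.1.2), 0) : (X × E2) × E2))
            ((x, q), 0) := by fun_prop
        have h6 := ContinuousAt.comp (f := fun p : (X × E2) × E2 =>
          (((p.1.1, p.1.2), 0) : (X × E2) × E2)) (x := ((x, q), (0 : E2))) h3 h5
        simpa only [Function.comp_def, add_zero] using h6
      have h7 := (h3.sub h4).norm
      have h8 : ‖hess (gm S x (L.e x q)) (q + 0) - hess (gm S x (L.e x q)) q‖ < ε := by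
        rw [add_zero, sub_self, norm_zero]
        exact hε
      filter_upwards [h1.eventually_lt continuousAt_const h2,
        h7.eventually_lt continuousAt_const h8] with p hp hp' _ using ⟨hp, hp'⟩)
  refine ⟨min s (3 - r), lt_min hs hr3, fun x v hv q hq => ?_⟩
  exact h x v (hv.trans_le (min_le_left _ _)) q hq (hv.trans_le (min_le_right _ _))

/-- far from `q` there is no crossing -/
theorem exists_far {r R : ℝ} (hr : r < 3) (hR : R < 3) {s : ℝ} (hs : 0 < s) : ∃ ρ > 0, ρ ≤ S.δ ∧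
    ∀ x y, ‖y‖ < ρ → ∀ q ∈ closedBall (0 : E2) r, ∀ q' ∈ closedBall (0 : E2) R,
      S.en x (lab S x y) q' = L.e x q → dist q' q < s := by
  have hsub : closedBall (0 : E2) r ⊆ ball 0 3 := closedBall_subset_ball hr
  have hsub' : closedBall (0 : E2) R ⊆ ball 0 3 := closedBall_subset_ball hR
  have hD : IsCompact ((closedBall (0 : E2) r ×ˢ closedBall (0 : E2) R) ∩
      {p : E2 × E2 | s ≤ dist p.2 p.1}) :=
    ((isCompact_closedBall _ _).prod (isCompact_closedBall _ _)).inter_right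
      (isClosed_le continuous_const (by fun_prop))
  obtain ⟨ρ, hρ, h⟩ := unif_of' L hD
    (P := fun x y p => S.en x (lab S x y) p.2 ≠ L.e x p.1)
    (fun g x y p hp h h' => by
      refine h ?_
      rw [lab_smul, S.en_smul g x _ _ (hsub' hp.1.2), h', e_smul3 g x (hsub hp.1.1)])
    (fun x p hp => by
      have hp1 := hsub hp.1.1
      have hp2 := hsub' hp.1.2
      have e1 : ContinuousAt (fun z : (X × (E2 × E2)) × E2 => S.en z.1.1 (lab S z.1.1 z.2) z.1.2.2)
          ((x, p), 0) := by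
        have h1 := lab_contAt3 S S.en_cont (x₀ := x) (y₀ := 0) (q₀ := p.2)
          (by simpa using S.δ_pos) hp2
        exact ContinuousAt.comp (g := fun p : (X × E2) × E2 => S.en p.1.1 (lab S p.1.1 p.2) p.1.2)
          (f := fun z : (X × (E2 × E2)) × E2 => (((z.1.1, z.1.2.2), z.2) : (X × E2) × E2))
          (x := ((x, p), (0 : E2))) h1 (by fun_prop)
      have e2 : ContinuousAt (fun z : (X × (E2 × E2)) × E2 => L.e z.1.1 z.1.2.1) ((x, p), 0) :=
        ContinuousAt.comp (g := fun p : X × E2 => L.e p.1 p.2)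
          (f := fun z : (X × (E2 × E2)) × E2 => ((z.1.1, z.1.2.1) : X × E2))
          (x := ((x, p), (0 : E2))) (e_contAt L hp1) (by fun_prop)
      have h3 : S.en x (lab S x 0) p.2 ≠ L.e x p.1 := by
        rw [lab_zero, S.en_em x _ hp2]
        intro h4
        have h5 := L.e_inj x (ball_subset_closedBall hp2) (ball_subset_closedBall hp1) h4
        have h6 : s ≤ dist p.2 p.1 := hp.2
        rw [h5, dist_self] at h6
        exact absurd h6 (not_le.2 hs)
      have h7 : IsOpen {b : B × B | b.1 ≠ b.2} := isClosed_diagonal.isOpen_compl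
      exact (e1.prodMk e2) (h7.mem_nhds h3))
  refine ⟨min ρ S.δ, lt_min hρ S.δ_pos, min_le_right _ _, fun x y hy q hq q' hq' h1 => ?_⟩
  by_contra hcon
  exact h x y (hy.trans_le (min_le_left _ _)) (q, q') ⟨⟨hq, hq'⟩, not_lt.1 hcon⟩ h1

theorem gradient_e (x : X) (ξ : B) {q : E2} (hq : q ∈ ball (0 : E2) 3) :
    gradient (fun t => S.be x ξ t + S.be x (L.e x q) t) q = gradient (dl S x ξ) q := by
  have h1 := gradient_gm_e S x hq
  rw [gradient_gm S x _ hq] at h1
  rw [gradient_add' (be_diff S x ξ hq) (be_diff S x _ hq), gradient_dl S x ξ hq,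
    eq_neg_of_add_eq_zero_left h1, sub_eq_add_neg]

theorem gradient_cross (x : X) (ξ η : B) {q : E2} (hq : q ∈ ball (0 : E2) 3)
    (h : S.en x ξ q = η) : gradient (fun t => S.be x ξ t + S.be x η t) q = 0 := by
  rw [gradient_add' (be_diff S x ξ hq) (be_diff S x _ hq), ← h, gradient_en S x ξ hq,
    add_neg_cancel]

/-- **crossings**: for `ξ = lab x y` close to `em x` and `q` in the disc of radius `r`, the geodesic
`(ξ, e x q)` crosses the disc of radius `R` in exactly one point `q'`, and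
`‖q' - q‖ ≤ C ‖∇(dl x ξ)(q)‖`; `‖q' - q‖ < ε`. -/
theorem exists_cross (hn : NuPos S) {r R : ℝ} (hrR : r < R) (hR : R < 3) {ε : ℝ} (hε : 0 < ε) :
    ∃ c > 0, ∃ ρ > 0, ρ ≤ S.δ ∧ ∀ x y, ‖y‖ < ρ → ∀ q ∈ closedBall (0 : E2) r,
      ∃ q' ∈ ball (0 : E2) R, S.en x (lab S x y) q' = L.e x q ∧ ‖q' - q‖ < ε ∧
        c * ‖q' - q‖ ≤ ‖gradient (dl S x (lab S x y)) q‖ ∧
        (∀ p ∈ segment ℝ q q', ∀ v, c * ‖v‖ ^ 2 ≤ inner ℝ
          (hess (fun t => S.be x (lab S x y) t + S.be x (L.e x q) t) p v) v) ∧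
        ∀ q'' ∈ closedBall (0 : E2) R, S.en x (lab S x y) q'' = L.e x q → q'' = q' := by
  have hr : r < 3 := hrR.trans hR
  have hsub : closedBall (0 : E2) r ⊆ ball 0 3 := closedBall_subset_ball hr
  have hsubR : closedBall (0 : E2) R ⊆ ball 0 3 := closedBall_subset_ball hR
  obtain ⟨c, hc, hpos⟩ := exists_pos S hn hr
  obtain ⟨s₁, hs₁, hnear⟩ := exists_near S hn hr (ε := c / 4) (by positivity)
  set s := min (min (s₁ / 2) ((R - r) / 2)) (ε / 2) with hsdef
  have hRr : 0 < R - r := by linarith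
  have hs : 0 < s := lt_min (lt_min (by positivity) (by positivity)) (by positivity)
  have hss₁ : s < s₁ := lt_of_le_of_lt ((min_le_left _ _).trans (min_le_left _ _)) (by linarith)
  have hsR : s ≤ (R - r) / 2 := (min_le_left _ _).trans (min_le_right _ _)
  have hsε : s < ε := lt_of_le_of_lt (min_le_right _ _) (by linarith)
  obtain ⟨ρ₂, hρ₂, -, hnu⟩ := exists_nu_pos S hn hR
  obtain ⟨ρ₃, hρ₃, -, hh⟩ := exists_small S (f := fun p => hess (dl S p.1 p.2))
    (hess_jc (dl_jc S)) (fun x q hq => by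
      have h1 : dl S x (L.em x) =ᶠ[𝓝 q] fun _ => (0 : ℝ) := Filter.Eventually.of_forall fun t =>
        dl_em S x t
      show hess (dl S x (L.em x)) q = 0
      rw [hess_congr h1]
      unfold hess
      have h2 : gradient (fun _ : E2 => (0 : ℝ)) = fun _ => (0 : E2) := by
        simp only [gradient_eq_rz, fderiv_fun_const]
        ext t
        simp
      rw [h2]
      simp) (fun g x ξ q hq => hess_congr (dl_congr S g x ξ hq)) hR (ε := c / 4) (by positivity)
  obtain ⟨ρ₄, hρ₄, -, hg⟩ := exists_small S (f := fun p => gradient (dl S p.1 p.2))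
    (gradient_jc (dl_jc S)) (fun x q hq => by
      show gradient (dl S x (L.em x)) q = 0
      rw [gradient_dl S x _ hq, sub_self])
    (fun g x ξ q hq => gradient_congr (dl_congr S g x ξ hq)) hR (ε := c / 2 * s) (by positivity)
  obtain ⟨ρ₅, hρ₅, hρδ, hfar⟩ := exists_far S hr hR hs
  refine ⟨c / 2, by positivity, min (min ρ₂ ρ₃) (min ρ₄ ρ₅), lt_min (lt_min hρ₂ hρ₃)
    (lt_min hρ₄ hρ₅), ((min_le_right _ _).trans (min_le_right _ _)).trans hρδ, ?_⟩
  intro x y hy q hq
  have hy2 : ‖y‖ < ρ₂ := hy.trans_le ((min_le_left _ _).trans (min_le_left _ _))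
  have hy3 : ‖y‖ < ρ₃ := hy.trans_le ((min_le_left _ _).trans (min_le_right _ _))
  have hy4 : ‖y‖ < ρ₄ := hy.trans_le ((min_le_right _ _).trans (min_le_left _ _))
  have hy5 : ‖y‖ < ρ₅ := hy.trans_le ((min_le_right _ _).trans (min_le_right _ _))
  set ξ := lab S x y with hξ
  have hqr : ‖q‖ ≤ r := by simpa using hq
  have hqR : q ∈ closedBall (0 : E2) R := closedBall_subset_closedBall hrR.le hq
  have hball : closedBall q s ⊆ ball (0 : E2) R := by
    intro p hp
    rw [mem_closedBall, dist_eq_norm] at hp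
    rw [mem_ball_zero_iff]
    have h1 : ‖p‖ ≤ ‖q‖ + ‖p - q‖ := by simpa using norm_add_le q (p - q)
    linarith
  have hball3 : closedBall q s ⊆ ball (0 : E2) 3 := fun p hp =>
    ball_subset_ball hR.le (hball hp)
  set f : E2 → ℝ := fun t => S.be x ξ t + S.be x (L.e x q) t with hf
  have hfd : ∀ p ∈ closedBall q s, DifferentiableAt ℝ f p := fun p hp =>
    (be_diff S x ξ (hball3 hp)).add (be_diff S x _ (hball3 hp))
  have hfg : ∀ p ∈ closedBall q s, DifferentiableAt ℝ (gradient f) p := by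
    intro p hp
    have h1 : gradient f =ᶠ[𝓝 p] fun t => gradient (S.be x ξ) t + gradient (S.be x (L.e x q)) t := by
      filter_upwards [isOpen_ball.mem_nhds (hball3 hp)] with t ht
        using gradient_add' (be_diff S x ξ ht) (be_diff S x _ ht)
    have d : ∀ ζ, DifferentiableAt ℝ (gradient (S.be x ζ)) p := fun ζ =>
      (gradient_jc S.be_jc).differentiableAt (p := ((x, ζ), p)) ⟨mem_univ _, hball3 hp⟩
    exact h1.differentiableAt_iff.2 ((d _).add (d _))
  have hfc : ∀ p ∈ closedBall q s, ∀ v, c / 2 * ‖v‖ ^ 2 ≤ inner ℝ (hess f p v) v := by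
    intro p hp v
    have hp' : ‖p - q‖ < s₁ := by
      have := mem_closedBall.1 hp
      rw [dist_eq_norm] at this
      linarith
    have h1 := hess_sum' S x ξ (L.e x q) (hball3 hp)
    have h2 := (hnear x (p - q) hp' q hq).2
    rw [add_sub_cancel] at h2
    have h3 := hh x y hy3 p (ball_subset_closedBall (hball hp))
    have h4 := hpos x q hq v
    rw [hess_sum_em S x (hsub hq)] at h4
    have h5 : hess f p = hess (gm S x (L.e x q)) q + (hess (dl S x ξ) p +
        (hess (gm S x (L.e x q)) p - hess (gm S x (L.e x q)) q)) := by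
      rw [hf, h1]
      abel
    have h6 : ‖hess (dl S x ξ) p + (hess (gm S x (L.e x q)) p - hess (gm S x (L.e x q)) q)‖
        ≤ c / 2 := (norm_add_le _ _).trans (by linarith)
    have h7 : |inner ℝ ((hess (dl S x ξ) p + (hess (gm S x (L.e x q)) p -
        hess (gm S x (L.e x q)) q)) v) v| ≤ c / 2 * ‖v‖ ^ 2 := by
      refine (abs_real_inner_le_norm _ _).trans ?_
      have h8 := (hess (dl S x ξ) p + (hess (gm S x (L.e x q)) p -
        hess (gm S x (L.e x q)) q)).le_of_opNorm_le h6 v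
      nlinarith [norm_nonneg v]
    rw [h5, _root_.add_apply, inner_add_left]
    have h9 := (abs_le.1 h7).1
    linarith
  have hgq : gradient f q = gradient (dl S x ξ) q := gradient_e S x ξ (hsub hq)
  have hgs : ‖gradient f q‖ < c / 2 * s := by
    rw [hgq]
    exact hg x y hy4 q hqR
  obtain ⟨q', hq's, hq'0, hq'c⟩ := exists_crit hs (by positivity : 0 < c / 2) hfd hfg hfc hgs
  have hq'b : q' ∈ closedBall q s := ball_subset_closedBall hq's
  have hq'd : ‖q' - q‖ < s := by
    rw [← dist_eq_norm]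
    exact hq's
  have hcross : S.en x ξ q' = L.e x q := by
    refine en_of_gradient S x ξ _ (hball3 hq'b)
      (hnu x y hy2 q' (ball_subset_closedBall (hball hq'b))).le ?_ ?_
    · have h2 := (hnear x (q' - q) (hq'd.trans hss₁) q hq).1
      rw [add_sub_cancel] at h2
      exact h2.le
    · rw [← gradient_add' (be_diff S x ξ (hball3 hq'b)) (be_diff S x _ (hball3 hq'b))]
      exact hq'0
  refine ⟨q', hball hq'b, hcross, hq'd.trans hsε, ?_, ?_, ?_⟩
  · rw [← hgq]
    exact hq'c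
  · intro p hp v
    exact hfc p ((convex_closedBall q s).segment_subset (mem_closedBall_self hs.le) hq'b hp) v
  · intro q'' hq'' hc''
    have h1 := hfar x y hy5 q hq q'' hq'' hc''
    have h2 : q'' ∈ closedBall q s := ball_subset_closedBall h1
    exact crit_unique (convex_closedBall q s) hfg (by positivity : 0 < c / 2) hfc h2 hq'b
      (gradient_cross S x ξ _ (hsubR hq'') hc'') hq'0

end Vale.Agent.P207.N4.H709
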