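import Vale.Agent.P207.N4.H77.Rates
import Vale.Agent.P207.H469.Ball

/-!
# P207, line N4: the rates in the charts, from the horospherical metric alone

`lrates` : if `a ≤ U ≤ b` then the leaves are contracted in the past at every rate `a' < a` in all
derivatives on the whole disc, and expanded in the future at rate at most `b`.
-/

open Set Filter Topology Metric MeasureTheory
open scoped ContDiff Nat

set_option linter.unusedSectionVars false

noncomputable section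

namespace Vale.Agent.P207.N4.H709

open Vale.Agent.P207.N3 Vale.Agent.P207.N3.H646 Vale.Agent.P207.H77
open Vale.Agent.P207.N4 Vale.Agent.P207.N4.H646

variable [Dim]

variable {Γ X B : Type} [Group Γ] [MetricSpace X] [ProperSpace X] [MulAction Γ X]
  [IsIsometricSMul Γ X] [TopologicalSpace B] [CompactSpace B] [T2Space B] [MulAction Γ B]
  [ContinuousConstSMul Γ B]

variable {L : Leaf Γ X B}

theorem Dt_ge (M : Metr L) {a : ℝ} (ha : ∀ x v, a * ‖v‖ ^ 2 ≤ inner ℝ (M.U x v) v) (x : X)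
    {t : ℝ} (ht : 0 ≤ t) (v : E2) : Real.exp (a * t) * ‖v‖ ≤ ‖H77.Dt L t x v‖ := by
  have hd : ∀ s, HasDerivAt (fun s => H77.Dt L s x v) (M.U (L.φ s x) (H77.Dt L s x v)) s := fun s =>
    ((ContinuousLinearMap.apply ℝ E2 v).hasFDerivAt.comp_hasDerivAt s (H77.hasDerivAt_Dt M x s))
  have hg : ∀ s, HasDerivAt (fun s => ‖H77.Dt L s x v‖ ^ 2 * Real.exp (-2 * a * s))
      ((2 * inner ℝ (H77.Dt L s x v) (M.U (L.φ s x) (H77.Dt L s x v))) * Real.exp (-2 * a * s) +
        ‖H77.Dt L s x v‖ ^ 2 * (Real.exp (-2 * a * s) * (-2 * a))) s := by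
    intro s
    have h1 := (hd s).norm_sq
    have h2 : HasDerivAt (fun s : ℝ => Real.exp (-2 * a * s)) (Real.exp (-2 * a * s) * (-2 * a)) s := by
      have := ((hasDerivAt_id s).const_mul (-2 * a)).exp
      simpa using this
    exact h1.mul h2
  have hmono : Monotone fun s => ‖H77.Dt L s x v‖ ^ 2 * Real.exp (-2 * a * s) := by
    refine monotone_of_deriv_nonneg (fun s => (hg s).differentiableAt) fun s => ?_
    rw [(hg s).deriv]
    have h3 := ha (L.φ s x) (H77.Dt L s x v)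
    rw [real_inner_comm] at h3
    have h4 := Real.exp_pos (-2 * a * s)
    nlinarith
  have h5 := hmono ht
  simp only [mul_zero, Real.exp_zero, mul_one, H77.Dt_zero] at h5
  have h6 : (Real.exp (a * t) * ‖v‖) ^ 2 ≤ ‖H77.Dt L t x v‖ ^ 2 := by
    have h7 : Real.exp (-2 * a * t) * Real.exp (a * t) ^ 2 = 1 := by
      rw [← Real.exp_nat_mul, ← Real.exp_add, Real.exp_eq_one_iff]
      push_cast; ring
    have h8 : ‖H77.Dt L t x v‖ ^ 2 = (‖H77.Dt L t x v‖ ^ 2 * Real.exp (-2 * a * t)) *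
        Real.exp (a * t) ^ 2 := by rw [mul_assoc, h7, mul_one]
    rw [h8, mul_pow, mul_comm (Real.exp (a * t) ^ 2)]
    gcongr
    exact h5
  exact le_of_sq_le_sq h6 (norm_nonneg _)

/-- the contraction in the past, at the centre -/
theorem centre_le (M : Metr L) {a : ℝ} (ha : ∀ x v, a * ‖v‖ ^ 2 ≤ inner ℝ (M.U x v) v) (z : X)
    {s : ℝ} (hs : 0 ≤ s) : ‖fderiv ℝ (L.τ (L.φ s z) z) 0‖ ≤ Real.exp (-a * s) := by
  refine ContinuousLinearMap.opNorm_le_bound _ (Real.exp_pos _).le fun w => ?_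
  have h1 : fderiv ℝ (L.τ (L.φ s z) z) 0 = H77.Dt L (-s) (L.φ s z) := by
    unfold H77.Dt
    rw [L.φ_neg]
  have h2 := H77.Dt_comp_neg L s (L.φ s z)
  rw [L.φ_neg] at h2
  have h3 : H77.Dt L s z (fderiv ℝ (L.τ (L.φ s z) z) 0 w) = w := by
    rw [h1]
    exact DFunLike.congr_fun h2 w
  have h4 := Dt_ge M ha z hs (fderiv ℝ (L.τ (L.φ s z) z) 0 w)
  rw [h3] at h4
  have h5 : Real.exp (-a * s) * Real.exp (a * s) = 1 := by
    rw [← Real.exp_add]
    simp
  calc ‖fderiv ℝ (L.τ (L.φ s z) z) 0 w‖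
      = Real.exp (-a * s) * (Real.exp (a * s) * ‖fderiv ℝ (L.τ (L.φ s z) z) 0 w‖) := by
        rw [← mul_assoc, h5, one_mul]
    _ ≤ Real.exp (-a * s) * ‖w‖ := by gcongr

theorem ep_smul' (g : Γ) (x : X) : L.ep (g • x) = g • L.ep x := by
  rw [L.ep_flip, L.ep_flip, L.flip_smul, L.em_smul]

variable (L) in
/-- the change of the frame on one horosphere is bounded -/
theorem frame_bound : ∃ C : ℝ, 0 ≤ C ∧ ∀ x z, L.em z = L.em x → L.lv z = L.lv x →
    ∀ w ∈ closedBall (0 : E2) 1, L.e x w = L.ep z →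
      ‖fderiv ℝ (L.τ x z) w‖ ≤ C ∧ ‖fderiv ℝ (L.τ z x) 0‖ ≤ C := by
  obtain ⟨K, hK, hK'⟩ := L.cocompact
  obtain ⟨R, hR⟩ := L.near 0
  have hK2 : IsCompact (Metric.cthickening (max R 0) K) := hK.cthickening
  set D : Set ((X × X) × E2) := ((K ×ˢ Metric.cthickening (max R 0) K) ×ˢ closedBall 0 1) ∩
    {p | L.em p.1.2 = L.em p.1.1 ∧ L.e p.1.1 p.2 = L.ep p.1.2} with hD
  have hepc : Continuous L.ep := by
    have : L.ep = fun x => L.em (L.flip x) := funext L.ep_flip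
    rw [this]
    exact L.em_cont.comp L.flip_cont
  have hsub1 : closedBall (0 : E2) 1 ⊆ closedBall 0 3 := closedBall_subset_closedBall (by norm_num)
  have hDc : IsCompact D := by
    have hc0 : IsCompact ((K ×ˢ Metric.cthickening (max R 0) K) ×ˢ closedBall (0 : E2) 1) :=
      (hK.prod hK2).prod (isCompact_closedBall _ _)
    have hcl1 : IsClosed {p : (X × X) × E2 | L.em p.1.2 = L.em p.1.1} :=
      isClosed_eq (L.em_cont.comp (continuous_snd.comp continuous_fst))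
        (L.em_cont.comp (continuous_fst.comp continuous_fst))
    have hce : ContinuousOn (fun p : (X × X) × E2 => L.e p.1.1 p.2)
        ((K ×ˢ Metric.cthickening (max R 0) K) ×ˢ closedBall (0 : E2) 1) :=
      L.e_cont.comp (by fun_prop : Continuous fun p : (X × X) × E2 => (p.1.1, p.2)).continuousOn
        fun p hp => ⟨mem_univ _, hsub1 hp.2⟩
    have hcl2 : IsClosed (((K ×ˢ Metric.cthickening (max R 0) K) ×ˢ closedBall (0 : E2) 1) ∩
        (fun p : (X × X) × E2 => (L.e p.1.1 p.2, L.ep p.1.2)) ⁻¹' {b : B × B | b.1 = b.2}) :=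
      (hce.prodMk (hepc.comp (continuous_snd.comp continuous_fst)).continuousOn
        ).preimage_isClosed_of_isClosed hc0.isClosed (isClosed_eq continuous_fst continuous_snd)
    have hDe : D = (((K ×ˢ Metric.cthickening (max R 0) K) ×ˢ closedBall (0 : E2) 1) ∩
        {p | L.em p.1.2 = L.em p.1.1}) ∩
        (((K ×ˢ Metric.cthickening (max R 0) K) ×ˢ closedBall (0 : E2) 1) ∩
        (fun p : (X × X) × E2 => (L.e p.1.1 p.2, L.ep p.1.2)) ⁻¹' {b : B × B | b.1 = b.2}) := by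
      ext p
      simp only [hD, mem_inter_iff, Set.mem_ofPred_eq, mem_preimage]
      tauto
    rw [hDe]
    exact (hc0.inter_right hcl1).inter_right hcl2
  have hz3 : (0 : E2) ∈ ball (0 : E2) 3 := mem_ball_self (by norm_num)
  have hw3 : closedBall (0 : E2) 1 ⊆ ball 0 3 := closedBall_subset_ball (by norm_num)
  have c1 : ContinuousOn (fun p : (X × X) × E2 => iteratedFDeriv ℝ 1 (tau L.e p.1.1 p.1.2) p.2) D := by
    refine (L.tau_cont 1).mono fun p hp => ⟨hp.2.1.symm, hw3 hp.1.2, 0, hz3, ?_⟩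
    rw [L.e_zero]
    exact hp.2.2.symm
  have c2 : ContinuousOn (fun p : (X × X) × E2 => iteratedFDeriv ℝ 1 (tau L.e p.1.2 p.1.1) 0) D := by
    refine (L.tau_cont 1).comp (f := fun p : (X × X) × E2 => (((p.1.2, p.1.1), 0) : (X × X) × E2))
      (by fun_prop) fun p hp => ⟨hp.2.1, hz3, p.2, hw3 hp.1.2, ?_⟩
    change L.e p.1.1 p.2 = L.e p.1.2 0
    rw [L.e_zero]
    exact hp.2.2
  obtain ⟨C1, hC1⟩ := hDc.exists_bound_of_continuousOn c1
  obtain ⟨C2, hC2⟩ := hDc.exists_bound_of_continuousOn c2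
  refine ⟨max (max C1 C2) 0, le_max_right _ _, fun x z hem hlv w hw he => ?_⟩
  obtain ⟨g, hg⟩ := hK' x
  have hem' : L.em (g • z) = L.em (g • x) := by rw [L.em_smul, L.em_smul, hem]
  have he' : L.e (g • x) w = L.ep (g • z) := by
    rw [L.e_smul g x w (hsub1 hw), he, ep_smul']
  have hne : (L.e x '' closedBall 0 3 ∩ L.e z '' closedBall 0 3).Nonempty :=
    ⟨L.e x w, ⟨w, hsub1 hw, rfl⟩, 0, ball_subset_closedBall hz3, by rw [L.e_zero, he]⟩
  have hdist : dist x z ≤ R := hR x z hem.symm (by rw [hlv]; simp) hne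
  have hmem : g • z ∈ Metric.cthickening (max R 0) K := by
    refine Metric.mem_cthickening_of_dist_le (g • z) (g • x) _ _ hg ?_
    rw [dist_smul, dist_comm]
    exact hdist.trans (le_max_left _ _)
  have hp : (((g • x, g • z), w) : (X × X) × E2) ∈ D := ⟨⟨⟨hg, hmem⟩, hw⟩, hem', he'⟩
  have b1 := hC1 _ hp
  have b2 := hC2 _ hp
  rw [norm_iteratedFDeriv_one] at b1 b2
  have hdm : w ∈ L.dm x z := mem_dm_of L (hw3 hw) hz3 (by rw [L.e_zero, he])
  have hdm' : (0 : E2) ∈ L.dm z x := mem_dm_of L hz3 (hw3 hw) (by rw [L.e_zero, he])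
  have e1 : fderiv ℝ (tau L.e (g • x) (g • z)) w = fderiv ℝ (L.τ x z) w :=
    (tau_smul_eventually L hdm).fderiv_eq
  have e2 : fderiv ℝ (tau L.e (g • z) (g • x)) 0 = fderiv ℝ (L.τ z x) 0 :=
    (tau_smul_eventually L hdm').fderiv_eq
  change ‖fderiv ℝ (tau L.e (g • x) (g • z)) w‖ ≤ C1 at b1
  change ‖fderiv ℝ (tau L.e (g • z) (g • x)) 0‖ ≤ C2 at b2
  rw [e1] at b1
  rw [e2] at b2
  exact ⟨b1.trans ((le_max_left _ _).trans (le_max_left _ _)),
    b2.trans ((le_max_right _ _).trans (le_max_left _ _))⟩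

/-- the contraction in the past at a point of the smaller disc -/
theorem point_le (M : Metr L) {a : ℝ} (ha : ∀ x v, a * ‖v‖ ^ 2 ≤ inner ℝ (M.U x v) v) {C : ℝ}
    (hC : ∀ x z, L.em z = L.em x → L.lv z = L.lv x →
    ∀ w ∈ closedBall (0 : E2) 1, L.e x w = L.ep z →
      ‖fderiv ℝ (L.τ x z) w‖ ≤ C ∧ ‖fderiv ℝ (L.τ z x) 0‖ ≤ C) (x : X) {s : ℝ} (hs : 0 ≤ s)
    {w w' : E2} (hw : w ∈ closedBall (0 : E2) 1) (hw' : w' ∈ closedBall (0 : E2) 1)
    (h : L.e (L.φ s x) w = L.e x w') :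
    ‖fderiv ℝ (L.τ (L.φ s x) x) w‖ ≤ C * Real.exp (-a * s) * C := by
  have hw3 : closedBall (0 : E2) 1 ⊆ ball 0 3 := closedBall_subset_ball (by norm_num)
  have hw3' : closedBall (0 : E2) 1 ⊆ closedBall 0 3 :=
    closedBall_subset_closedBall (by norm_num)
  have hz3 : (0 : E2) ∈ ball (0 : E2) 3 := mem_ball_self (by norm_num)
  have hne : L.em x ≠ L.e x w' := (L.e_ne x w' (hw3' hw')).symm
  obtain ⟨z', h1, h2, h3⟩ := L.exists_frame (L.em x) (L.e x w') hne (L.lv (L.φ s x))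
  set z := L.φ (-s) z' with hz
  have hφz : L.φ s z = z' := φ_back L s z'
  have hemz : L.em z = L.em x := by rw [hz, L.em_φ, h1]
  have hepz : L.ep z = L.e x w' := by rw [hz, L.ep_φ, h2]
  have hlvz : L.lv z = L.lv x := by
    rw [hz, L.lv_φ, h3, L.lv_φ]
    ring
  have hemz' : L.em z' = L.em (L.φ s x) := by rw [h1, L.em_φ]
  have k1 := (hC (L.φ s x) z' hemz' h3 w hw (by rw [h, h2])).1
  have k2 := (hC x z hemz hlvz w' hw' hepz.symm).2
  have k3 := centre_le M ha z hs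
  rw [hφz] at k3
  -- the chain
  have d1 : w ∈ L.dm (L.φ s x) z' := mem_dm_of L (hw3 hw) hz3 (by rw [L.e_zero, h, h2])
  have t1 : L.τ (L.φ s x) z' w = 0 :=
    tau_of L (ball_subset_closedBall hz3) (by rw [L.e_zero, h, h2])
  have d2 : (0 : E2) ∈ L.dm z' z := mem_dm_of L hz3 hz3 (by rw [L.e_zero, L.e_zero, h2, hepz])
  have t2 : L.τ z' z 0 = 0 :=
    tau_of L (ball_subset_closedBall hz3) (by rw [L.e_zero, L.e_zero, h2, hepz])
  have d3 : (0 : E2) ∈ L.dm z x := mem_dm_of L hz3 (hw3 hw') (by rw [L.e_zero, hepz])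
  have em1 : L.em (L.φ s x) = L.em z' := hemz'.symm
  have em2 : L.em z' = L.em z := by rw [hemz, h1]
  have d12 := tau_comp L d1 (by rw [t1]; exact d2)
  have f1 := fderiv_tau_comp L em1 em2 d1 (by rw [t1]; exact d2)
  have t12 : L.τ (L.φ s x) z w = 0 := by rw [← d12.2, t1, t2]
  have f2 := fderiv_tau_comp L (em1.trans em2) hemz d12.1 (by rw [t12]; exact d3)
  rw [t12, f1, t1] at f2
  rw [f2]
  have hC0 : 0 ≤ C := (norm_nonneg _).trans k1
  calc ‖(fderiv ℝ (L.τ z x) 0).comp ((fderiv ℝ (L.τ z' z) 0).comp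
        (fderiv ℝ (L.τ (L.φ s x) z') w))‖
      ≤ ‖fderiv ℝ (L.τ z x) 0‖ * (‖fderiv ℝ (L.τ z' z) 0‖ *
        ‖fderiv ℝ (L.τ (L.φ s x) z') w‖) :=
        (ContinuousLinearMap.opNorm_comp_le _ _).trans
          (mul_le_mul_of_nonneg_left (ContinuousLinearMap.opNorm_comp_le _ _) (norm_nonneg _))
    _ ≤ C * (Real.exp (-a * s) * C) := by gcongr
    _ = _ := by ring

/-- **the contraction in the past at rate `a`, first derivative, on the whole disc** -/
theorem con_one (M : Metr L) {a : ℝ} (ha : ∀ x v, a * ‖v‖ ^ 2 ≤ inner ℝ (M.U x v) v) :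
    ∃ C : ℝ, 0 < C ∧ ∀ x, ∀ t ≥ L.t1, ∀ u ∈ ball (0 : E2) 3,
      ‖fderiv ℝ (tau L.e (L.φ t x) x) u‖ ≤ C * Real.exp (-a * t) := by
  obtain ⟨C, hC0, hC⟩ := frame_bound L
  obtain ⟨C₁, hC₁⟩ := L.contract 1 le_rfl
  set C₂ : ℝ := max (C₁ * Real.exp (-L.χ * L.t1)) 0 with hC₂
  have hC₂0 : 0 ≤ C₂ := le_max_right _ _
  refine ⟨C * C * C₂ * Real.exp (a * L.t1) + 1, by positivity, fun x t ht u hu => ?_⟩
  set s := t - L.t1 with hs
  have hs0 : 0 ≤ s := by linarith
  set y := L.φ s x with hy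
  have hty : L.φ t x = L.φ L.t1 y := by
    rw [hy, ← L.φ_add, hs]
    congr 1
    ring
  have hyb : L.φ (-L.t1) (L.φ L.t1 y) = y := L.φ_neg _ _
  -- the first step
  have d1 : u ∈ L.dm (L.φ t x) y := by
    have := mem_dm_back L (le_refl L.t1) (L.φ L.t1 y) hu
    rwa [hyb, ← hty] at this
  have hw : L.τ (L.φ t x) y u ∈ ball (0 : E2) 1 := by
    have := pm_mem L (le_refl L.t1) (L.φ L.t1 y) hu
    unfold pm at this
    rwa [hyb, ← hty] at this
  set w := L.τ (L.φ t x) y u with hwd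
  have hew : L.e y w = L.e (L.φ t x) u := e_tau L d1
  -- the image in the disc of `x`
  obtain ⟨w', hw', hw'e⟩ := L.engulf x t ht (mem_image_of_mem _ (ball_subset_closedBall hu))
  have hyw : L.e y w = L.e x w' := by rw [hew, hw'e]
  have d2 : w ∈ L.dm y x := mem_dm_of L (ball_subset_ball (by norm_num) hw)
    (ball_subset_ball (by norm_num) hw') hyw
  have em1 : L.em (L.φ t x) = L.em y := by rw [hy, L.em_φ, L.em_φ]
  have em2 : L.em y = L.em x := by rw [hy, L.em_φ]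
  have f1 := fderiv_tau_comp L em1 em2 d1 d2
  have k1 : ‖fderiv ℝ (L.τ (L.φ t x) y) u‖ ≤ C₂ := by
    have := hC₁ y L.t1 le_rfl u hu
    rw [norm_iteratedFDeriv_one, ← hty] at this
    exact this.trans (le_max_left _ _)
  have k2 := point_le M ha hC x hs0 (ball_subset_closedBall hw) (ball_subset_closedBall hw') hyw
  change ‖fderiv ℝ (L.τ (L.φ t x) x) u‖ ≤ _
  rw [f1]
  have h5 : Real.exp (-a * s) = Real.exp (a * L.t1) * Real.exp (-a * t) := by
    rw [← Real.exp_add, hs]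
    congr 1
    ring
  calc ‖(fderiv ℝ (L.τ y x) w).comp (fderiv ℝ (L.τ (L.φ t x) y) u)‖
      ≤ ‖fderiv ℝ (L.τ y x) w‖ * ‖fderiv ℝ (L.τ (L.φ t x) y) u‖ :=
        ContinuousLinearMap.opNorm_comp_le _ _
    _ ≤ (C * Real.exp (-a * s) * C) * C₂ := by gcongr
    _ = C * C * C₂ * Real.exp (a * L.t1) * Real.exp (-a * t) := by
        rw [h5]
        ring
    _ ≤ (C * C * C₂ * Real.exp (a * L.t1) + 1) * Real.exp (-a * t) := by
        gcongr
        linarith

theorem isInv_smooth (x : X) {t : ℝ} (ht : L.t1 ≤ t) :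
    ContDiffOn ℝ ∞ (tau L.e (L.φ t x) x) (ball 0 3) := by
  refine (L.tau_smooth (L.φ t x) x (L.em_φ t x)).mono fun u hu => ?_
  have := mem_dm_back L ht (L.φ t x) hu
  rwa [L.φ_neg] at this

/-- **the rates** in the charts, from the metric of the horospheres alone -/
theorem lrates (M : Metr L) {a b a' : ℝ} (ha0 : 0 < a') (h : a' < a) (hab : a' ≤ b)
    (hlo : ∀ x v, a * ‖v‖ ^ 2 ≤ inner ℝ (M.U x v) v)
    (hhi : ∀ x v, inner ℝ (M.U x v) v ≤ b * ‖v‖ ^ 2) : H77.LRates L a' b := by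
  refine ⟨ha0, hab, fun k hk => ?_, 1, fun x t ht => ?_⟩
  · obtain ⟨C, hC0, hC⟩ := con_one M hlo
    have ha : 0 < a := ha0.trans h
    choose Ck hCk using fun j : ℕ => L.contract (j + 1) (Nat.le_add_left 1 j)
    set ε : ℝ := 1 - a' / a with hε
    have hε0 : 0 < ε := by
      have : a' / a < 1 := by rwa [div_lt_one ha]
      linarith
    obtain ⟨i, rfl⟩ : ∃ i, k = i + 1 := ⟨k - 1, by omega⟩
    obtain ⟨K, hK, H⟩ := Vale.Agent.P207.H469.exists_interp_full.{0} (R := 3) (by norm_num) i hε0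
      (fun j => C⁻¹ * max (Ck j) 0)
    refine ⟨C * K, fun x t ht u hu => ?_⟩
    have ht0 : 0 ≤ t := L.t1_pos.le.trans ht
    set f := tau L.e (L.φ t x) x with hf
    have hfs : ContDiffOn ℝ ∞ f (ball 0 3) := isInv_smooth x ht
    have hfd : ContDiffOn ℝ ∞ (fderiv ℝ f) (ball 0 3) :=
      hfs.fderiv_of_isOpen isOpen_ball (by simp)
    have hZ : ContDiffOn ℝ ∞ (fun y => C⁻¹ • fderiv ℝ f y) (ball 0 3) := hfd.const_smul _
    have hder : ∀ j, ∀ y ∈ ball (0 : E2) 3, iteratedFDeriv ℝ j (fun y => C⁻¹ • fderiv ℝ f y) y =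
        C⁻¹ • iteratedFDeriv ℝ j (fderiv ℝ f) y := fun j y hy =>
      iteratedFDeriv_const_smul_apply' (((hfd.contDiffAt (isOpen_ball.mem_nhds hy))).of_le
        (by exact_mod_cast le_top))
    have hexp : Real.exp (-L.χ * t) ≤ 1 := by
      rw [Real.exp_le_one_iff]
      have := L.χ_pos
      nlinarith
    have hb : ∀ j, ∀ y ∈ ball (0 : E2) 3,
        ‖iteratedFDeriv ℝ j (fun y => C⁻¹ • fderiv ℝ f y) y‖ ≤ C⁻¹ * max (Ck j) 0 := by
      intro j y hy
      rw [hder j y hy, norm_smul, norm_inv, Real.norm_eq_abs, abs_of_pos hC0,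
        norm_iteratedFDeriv_fderiv]
      gcongr
      refine (hCk j x t ht y hy).trans ?_
      calc Ck j * Real.exp (-L.χ * t) ≤ max (Ck j) 0 * Real.exp (-L.χ * t) := by
            gcongr
            exact le_max_left _ _
        _ ≤ max (Ck j) 0 * 1 := by gcongr
        _ = _ := mul_one _
    have hρ : Real.exp (-a * t) ≤ 1 := by
      rw [Real.exp_le_one_iff]
      nlinarith
    have h1 := H E2 (E2 →L[ℝ] E2) (fun y => C⁻¹ • fderiv ℝ f y) hZ hb (Real.exp (-a * t))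
      (Real.exp_pos _) hρ (fun y hy => by
        rw [norm_smul, norm_inv, Real.norm_eq_abs, abs_of_pos hC0, inv_mul_le_iff₀ hC0]
        exact hC x t ht y hy) u hu
    rw [hder i u hu, norm_smul, norm_inv, Real.norm_eq_abs, abs_of_pos hC0,
      norm_iteratedFDeriv_fderiv, inv_mul_le_iff₀ hC0, ← Real.exp_mul] at h1
    have h2 : -a * t * (1 - ε) = -a' * t := by
      rw [hε]
      field_simp
      ring
    rw [h2] at h1
    calc _ ≤ C * (K * Real.exp (-a' * t)) := h1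
      _ = _ := by ring
  · have ht0 : 0 ≤ t := L.t1_pos.le.trans ht
    rw [one_mul]
    exact ContinuousLinearMap.opNorm_le_bound _ (Real.exp_pos _).le fun v => H77.Dt_le M hhi x ht0 v

/-- **(T1)** from the pinching `b < 2 a` of the horospheres, without any condition on `χ` -/
theorem aff_of_rates (M : Metr L) {a b : ℝ} (ha : 0 < a) (hb : b < 2 * a)
    (hlo : ∀ x v, a * ‖v‖ ^ 2 ≤ inner ℝ (M.U x v) v)
    (hhi : ∀ x v, inner ℝ (M.U x v) v ≤ b * ‖v‖ ^ 2) :
    ∃ F : Aff L, (∀ x η, F.ch x η = F.c • H77.aff L x η) ∧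
    (∀ x, ∀ u ∈ ball (0 : E2) 3, F.ch x (L.e x u) = F.c • H77.lin L x u) ∧
    ∀ t x, ((F.P t x : E2 →L[ℝ] E2)) = H77.Dt L t x := by
  have hab : a ≤ b := by
    obtain ⟨x⟩ := L.nonempty
    obtain ⟨v, hv⟩ := exists_ne (0 : E2)
    have h1 := (hlo x v).trans (hhi x v)
    have h3 : 0 < ‖v‖ ^ 2 := by positivity
    exact le_of_mul_le_mul_right h1 h3
  have hb0 : 0 < b := ha.trans_le hab
  obtain ⟨a', h1, h2⟩ := exists_between (show b / 2 < a by linarith)
  exact H77.exists_aff (lrates M (a := a) (b := b) (a' := a') (by linarith) h2 (by linarith) hlo hhi)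
    (by linarith)

end Vale.Agent.P207.N4.H709
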